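import Crest.Agent.R11Z.Psi

/-!
# Row 11: Cauchy estimate for the coefficient of minimal weight

* `eval_dl_succ`: induction on `l` (or on the monomial): iterated partial derivatives of
  `x^a` are `∏ t_j ! * choose (a_j) (t_j) * x_j ^ (a_j - t_j)`.
* `hasDerivAt_curve`: `w ↦ eval (exp w, g + w) G` has derivative `eval (exp w, g + w) (dv m 0 G)`
  (induction on `G`), so `iteratedDeriv e` at `0` is `eval (pt g) ((dv m 0)^[e] G)`.
* `coeff_bound`: `min_weight` with a list `l` containing `j` exactly `t j.succ` times, and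
  `Complex.norm_iteratedDeriv_le_of_forall_mem_sphere_norm_le` with radius `1`.
-/

set_option autoImplicit false
open MvPolynomial Module

namespace Crest.Agent.R11Z

variable {m : ℕ}

namespace An1A

theorem eval_dl_mon (l : List (Fin m)) (y : ℂ) (x : Fin m → ℂ) (a : Fin (m + 1) →₀ ℕ) (c : ℂ) :
    eval (Fin.cons y x : Fin (m + 1) → ℂ) (dl (dv m) (l.map Fin.succ) (monomial a c)) =
      c * (∏ j, ((a j.succ).descFactorial (l.count j) : ℂ) * x j ^ (a j.succ - l.count j)) * y ^ a 0 := by
  induction l generalizing a c with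
  | nil =>
    simp only [List.map_nil, dl, eval_monomial, List.count_nil, Nat.descFactorial_zero, Nat.cast_one,
      one_mul, Nat.sub_zero]
    rw [Finsupp.prod_fintype _ _ (fun i => pow_zero _), Fin.prod_univ_succ]
    simp only [Fin.cons_zero, Fin.cons_succ]
    ring
  | cons b l ih =>
    have h1 : dv m b.succ = pderiv b.succ := by simp [dv]
    rw [List.map_cons, dl, h1, pderiv_monomial, ih]
    have h2 : (a b.succ : ℂ) = ∏ j : Fin m, if j = b then (a j.succ : ℂ) else 1 := by simp
    have h3 : (a - Finsupp.single b.succ 1 : Fin (m + 1) →₀ ℕ) 0 = a 0 := by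
      simp [Finsupp.single_eq_of_ne (Fin.succ_ne_zero b).symm]
    rw [h3, h2, mul_assoc c, ← Finset.prod_mul_distrib]
    congr 2
    refine Finset.prod_congr rfl fun j _ => ?_
    by_cases hj : j = b
    · subst hj
      simp only [if_true, Finsupp.coe_tsub, Pi.sub_apply, Finsupp.single_eq_same, List.count_cons_self]
      rcases a j.succ with _ | k
      · simp
      · rw [Nat.succ_descFactorial_succ, Nat.add_sub_cancel, Nat.add_sub_add_right]
        push_cast
        ring
    · have h4 : j.succ ≠ b.succ := fun h => hj (Fin.succ_injective _ h)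
      simp [hj, Finsupp.single_eq_of_ne h4, List.count_cons_of_ne (Ne.symm hj)]

end An1A

theorem eval_dl_succ (A : Finset (Fin (m + 1) →₀ ℕ)) (cf : (Fin (m + 1) →₀ ℕ) → ℂ)
    (l : List (Fin m)) (t : Fin m → ℕ) (hl : ∀ j, l.count j = t j) (y : ℂ) (x : Fin m → ℂ) :
    eval (Fin.cons y x : Fin (m + 1) → ℂ) (dl (dv m) (l.map Fin.succ) (∑ a ∈ A, monomial a (cf a))) =
      (∏ j, ((t j).factorial : ℂ)) *
        ∑ a ∈ A, cf a * (∏ j, ((a j.succ).choose (t j) : ℂ) * x j ^ (a j.succ - t j)) * y ^ a 0 := by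
  rw [dl_sum, map_sum, Finset.mul_sum]
  refine Finset.sum_congr rfl fun a _ => ?_
  rw [An1A.eval_dl_mon]
  simp only [hl, Nat.descFactorial_eq_factorial_mul_choose, Nat.cast_mul, mul_assoc,
    Finset.prod_mul_distrib]
  ring

theorem hasDerivAt_curve (g : Fin m → ℂ) (G : PR m) (w : ℂ) :
    HasDerivAt (fun w : ℂ => eval (Fin.cons (Complex.exp w) (fun j => g j + w) : Fin (m + 1) → ℂ) G)
      (eval (Fin.cons (Complex.exp w) (fun j => g j + w) : Fin (m + 1) → ℂ) (dv m 0 G)) w := by
  induction G using MvPolynomial.induction_on with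
  | C a => simpa using hasDerivAt_const w a
  | add p q hp hq => simpa only [map_add] using hp.fun_add hq
  | mul_X p i hp =>
    have h1 : HasDerivAt (fun w : ℂ => (Fin.cons (Complex.exp w) (fun j => g j + w) : Fin (m + 1) → ℂ) i)
        (eval (Fin.cons (Complex.exp w) (fun j => g j + w) : Fin (m + 1) → ℂ) (dv m 0 (X i))) w := by
      refine Fin.cases ?_ (fun j => ?_) i
      · simpa [dv, mkDerivation_X] using Complex.hasDerivAt_exp w
      · simpa [dv, mkDerivation_X] using (hasDerivAt_id w).const_add (g j)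
    have h2 := hp.mul h1
    simp only [Derivation.leibniz, smul_eq_mul, map_add, map_mul, eval_X]
    refine h2.congr_deriv ?_
    ring

theorem coeff_bound {s : Fin (m + 1) → ℝ} (hs : ∀ i, 0 < s i) {n : Fin m → ℕ}
    (hn : ∀ j : Fin m, s 0 < ((n j : ℝ) + 1) * s j.succ) (g : Fin m → ℂ)
    (A : Finset (Fin (m + 1) →₀ ℕ)) (cf : (Fin (m + 1) →₀ ℕ) → ℂ) (t : Fin (m + 1) →₀ ℕ)
    (h : Ind s (wt s t) (psi g n (∑ a ∈ A, monomial a (cf a)))) (M : ℝ)
    (hM : ∀ w : ℂ, ‖w‖ = 1 →
      ‖∑ a ∈ A, cf a * (∏ j : Fin m, ((a j.succ).choose (t j.succ) : ℂ) *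
        (g j + w) ^ (a j.succ - t j.succ)) * Complex.exp (a 0 * w)‖ ≤ M) :
    ‖coeff t (psi g n (∑ a ∈ A, monomial a (cf a)))‖ ≤ M := by
  obtain ⟨l, hl⟩ := exists_list_count (fun j : Fin m => t j.succ)
  have h1 := min_weight hs hn g _ t h l hl
  have h2 : ∀ (e : ℕ) (G : PR m), iteratedDeriv e
      (fun w : ℂ => eval (Fin.cons (Complex.exp w) (fun j => g j + w) : Fin (m + 1) → ℂ) G) 0 =
      eval (pt g) ((dv m 0)^[e] G) := by
    intro e
    induction e with
    | zero => intro G; simp [pt]
    | succ e ih =>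
      intro G
      rw [iteratedDeriv_succ', Function.iterate_succ_apply, ← ih]
      congr 1
      funext w
      exact (hasDerivAt_curve g G w).deriv
  have h3 := Complex.norm_iteratedDeriv_le_of_forall_mem_sphere_norm_le (c := 0) (R := 1)
    (C := (∏ j : Fin m, ((t j.succ).factorial : ℝ)) * M)
    (f := fun w : ℂ => eval (Fin.cons (Complex.exp w) (fun j => g j + w) : Fin (m + 1) → ℂ)
      (dl (dv m) (l.map Fin.succ) (∑ a ∈ A, monomial a (cf a)))) (t 0) one_pos
    (Differentiable.diffContOnCl fun w => (hasDerivAt_curve g _ w).differentiableAt)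
    (fun w hw => by
      rw [eval_dl_succ A cf l _ hl, norm_mul, norm_prod]
      simp only [Complex.norm_natCast, ← Complex.exp_nat_mul]
      exact mul_le_mul_of_nonneg_left (hM w (by simpa using hw)) (by positivity))
  rw [h2, h1, norm_mul, norm_prod, Fin.prod_univ_succ, one_pow, div_one, ← mul_assoc] at h3
  simp only [Complex.norm_natCast] at h3
  exact le_of_mul_le_mul_left h3 (by positivity)

end Crest.Agent.R11Z
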