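import Crest.Agent.R11Z.Defs

/-!
# Row 11: the functions `Φ_t (z) = (∂_x^t P / t!) (z, …, z, e^z)`

* `expand`: in each coordinate
  `choose a t (z+d)^(a-t) = ∑_{t' ≤ D} choose t' t d^(t'-t) * choose a t' z^(a-t')` for `a ≤ D`
  (binomial theorem, `Nat.choose_mul`), then `Finset.prod_univ_sum`.
* `ent a t σ` is the `σ`-th Taylor coefficient at `0` of the term of `Φ_t` belonging to `a`;
  `z^k exp (e z) = ∑_σ [k ≤ σ] e^(σ-k)/(σ-k)! z^σ`; the tail `σ ≥ S` is bounded by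
  `ρ^(-S) ∑_σ (…) (ρ r)^σ = ρ^(-S) (ρ r)^k exp (e ρ r)`; `∏ choose ≤ 2 ^ E`.
-/

set_option autoImplicit false
open MvPolynomial Module

namespace Crest.Agent.R11Z

variable {m : ℕ}

noncomputable def Phi (A : Finset (Fin (m + 1) →₀ ℕ)) (cf : (Fin (m + 1) →₀ ℕ) → ℂ)
    (t : Fin m → ℕ) (z : ℂ) : ℂ :=
  ∑ a ∈ A, cf a * (∏ j, ((a j.succ).choose (t j) : ℂ)) * z ^ (∑ j, (a j.succ - t j)) *
    Complex.exp (a 0 * z)

noncomputable def ent (a : Fin (m + 1) →₀ ℕ) (t : Fin m → ℕ) (σ : ℕ) : ℝ :=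
  (∏ j, ((a j.succ).choose (t j) : ℝ)) *
    (if ∑ j, (a j.succ - t j) ≤ σ then
      (a 0 : ℝ) ^ (σ - ∑ j, (a j.succ - t j)) / ((σ - ∑ j, (a j.succ - t j)).factorial : ℝ)
    else 0)

namespace An2A

theorem coord (a t D : ℕ) (h : a ≤ D) (z d : ℂ) :
    (a.choose t : ℂ) * (z + d) ^ (a - t) =
      ∑ t' ∈ Finset.range (D + 1), (t'.choose t : ℂ) * d ^ (t' - t) * ((a.choose t' : ℂ) * z ^ (a - t')) := by
  rcases lt_or_ge a t with hat | hat
  · rw [Nat.choose_eq_zero_of_lt hat, Finset.sum_eq_zero fun t' _ => ?_]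
    · simp
    · rcases lt_or_ge t' t with h1 | h1
      · simp [Nat.choose_eq_zero_of_lt h1]
      · simp [Nat.choose_eq_zero_of_lt (lt_of_lt_of_le hat h1)]
  · obtain ⟨e, rfl⟩ := Nat.exists_eq_add_of_le hat
    rw [← Finset.sum_subset (Finset.range_mono (by omega : t + (e + 1) ≤ D + 1)) (fun t' _ ht' => by
      have : t + e < t' := by simpa [← add_assoc, Nat.succ_le_iff] using ht'
      simp [Nat.choose_eq_zero_of_lt this]), Finset.sum_range_add,
      Finset.sum_eq_zero fun t' ht' => by simp [Nat.choose_eq_zero_of_lt (Finset.mem_range.mp ht')],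
      zero_add, Nat.add_sub_cancel_left, add_comm z d, add_pow, Finset.mul_sum]
    refine Finset.sum_congr rfl fun r _ => ?_
    have h1 : (((t + e).choose (t + r) : ℕ) : ℂ) * ((t + r).choose t : ℕ) =
        ((t + e).choose t : ℕ) * (e.choose r : ℕ) := by
      have := Nat.choose_mul (n := t + e) (Nat.le_add_right t r)
      rw [Nat.add_sub_cancel_left, Nat.add_sub_cancel_left] at this
      exact_mod_cast this
    rw [Nat.add_sub_cancel_left, Nat.add_sub_add_left]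
    linear_combination (-(d ^ r * z ^ (e - r))) * h1

theorem prod_choose_le (a : Fin (m + 1) →₀ ℕ) (t : Fin m → ℕ) {E : ℕ} (hE : ∑ j : Fin m, a j.succ ≤ E) :
    ∏ j, ((a j.succ).choose (t j) : ℝ) ≤ 2 ^ E := by
  refine le_trans (Finset.prod_le_prod (g := fun j => (2 : ℝ) ^ a j.succ) (fun j _ => by positivity)
    fun j _ => by exact_mod_cast Nat.choose_le_two_pow _ _) ?_
  rw [Finset.prod_pow_eq_pow_sum]
  exact pow_le_pow_right₀ one_le_two hE

theorem deg_le (a : Fin (m + 1) →₀ ℕ) (t : Fin m → ℕ) {E : ℕ} (hE : ∑ j : Fin m, a j.succ ≤ E) :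
    ∑ j, (a j.succ - t j) ≤ E :=
  le_trans (Finset.sum_le_sum fun _ _ => Nat.sub_le _ _) hE

theorem term_le (a : Fin (m + 1) →₀ ℕ) (t : Fin m → ℕ) {ℓ E : ℕ} {r : ℝ} (hr : 1 ≤ r)
    (h0 : a 0 ≤ ℓ) (hE : ∑ j : Fin m, a j.succ ≤ E) :
    (∏ j, ((a j.succ).choose (t j) : ℝ)) * r ^ (∑ j, (a j.succ - t j)) * Real.exp (a 0 * r) ≤
      2 ^ E * r ^ E * Real.exp (ℓ * r) := by
  have h1 := prod_choose_le a t hE
  have h2 := pow_le_pow_right₀ hr (deg_le a t hE)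
  have h3 : Real.exp (a 0 * r) ≤ Real.exp (ℓ * r) :=
    Real.exp_le_exp.mpr (mul_le_mul_of_nonneg_right (by exact_mod_cast h0) (by linarith))
  have : 0 ≤ r := by linarith
  gcongr

theorem hasSum_ent (a : Fin (m + 1) →₀ ℕ) (t : Fin m → ℕ) (z : ℂ) :
    HasSum (fun σ => (ent a t σ : ℂ) * z ^ σ)
      ((∏ j, ((a j.succ).choose (t j) : ℂ)) * z ^ (∑ j, (a j.succ - t j)) * Complex.exp (a 0 * z)) := by
  have h0 : ∑ σ ∈ Finset.range (∑ j, (a j.succ - t j)), (ent a t σ : ℂ) * z ^ σ = 0 :=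
    Finset.sum_eq_zero fun σ hσ => by
      rw [ent, if_neg (not_le.mpr (Finset.mem_range.mp hσ))]
      simp
  rw [← hasSum_nat_add_iff' (∑ j, (a j.succ - t j)), h0, sub_zero, Complex.exp_eq_exp_ℂ]
  refine ((NormedSpace.expSeries_div_hasSum_exp ((a 0 : ℂ) * z)).mul_left _).congr_fun fun u => ?_
  rw [ent, if_pos (Nat.le_add_left _ _), Nat.add_sub_cancel]
  push_cast
  ring

theorem hasSum_ent_real (a : Fin (m + 1) →₀ ℕ) (t : Fin m → ℕ) (x : ℝ) :
    HasSum (fun σ => ent a t σ * x ^ σ)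
      ((∏ j, ((a j.succ).choose (t j) : ℝ)) * x ^ (∑ j, (a j.succ - t j)) * Real.exp (a 0 * x)) := by
  rw [← Complex.hasSum_ofReal]
  have := hasSum_ent a t x
  push_cast
  exact this

end An2A

theorem expand (A : Finset (Fin (m + 1) →₀ ℕ)) (cf : (Fin (m + 1) →₀ ℕ) → ℂ) (D : Fin m → ℕ)
    (hA : ∀ a ∈ A, ∀ j : Fin m, a j.succ ≤ D j) (t : Fin m → ℕ) (z : ℂ) (d : Fin m → ℂ) :
    ∑ a ∈ A, cf a * (∏ j : Fin m, ((a j.succ).choose (t j) : ℂ) * (z + d j) ^ (a j.succ - t j)) *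
        Complex.exp (a 0 * z) =
      ∑ t' ∈ Fintype.piFinset (fun j => Finset.range (D j + 1)),
        (∏ j, ((t' j).choose (t j) : ℂ) * d j ^ (t' j - t j)) * Phi A cf t' z := by
  simp only [Phi, Finset.mul_sum]
  rw [Finset.sum_comm]
  refine Finset.sum_congr rfl fun a ha => ?_
  rw [Finset.prod_congr rfl fun j _ => An2A.coord _ _ (D j) (hA a ha j) z (d j), Finset.prod_univ_sum,
    Finset.mul_sum, Finset.sum_mul]
  refine Finset.sum_congr rfl fun t' _ => ?_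
  rw [Finset.prod_mul_distrib (f := fun j => ((t' j).choose (t j) : ℂ) * d j ^ (t' j - t j)),
    Finset.prod_mul_distrib (f := fun j : Fin m => ((a j.succ).choose (t' j) : ℂ)), Finset.prod_pow_eq_pow_sum]
  ring

theorem ent_nonneg (a : Fin (m + 1) →₀ ℕ) (t : Fin m → ℕ) (σ : ℕ) : 0 ≤ ent a t σ := by
  unfold ent
  split_ifs <;> positivity

theorem ent_le (a : Fin (m + 1) →₀ ℕ) (t : Fin m → ℕ) (σ ℓ E : ℕ) (r : ℝ) (hr : 1 ≤ r)
    (h0 : a 0 ≤ ℓ) (hE : ∑ j : Fin m, a j.succ ≤ E) :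
    ent a t σ * r ^ σ ≤ 2 ^ E * r ^ E * Real.exp (ℓ * r) := by
  refine le_trans ?_ (An2A.term_le a t hr h0 hE)
  have hr0 : 0 ≤ r := by linarith
  exact le_hasSum (An2A.hasSum_ent_real a t r) σ fun τ _ => mul_nonneg (ent_nonneg a t τ) (pow_nonneg hr0 _)

theorem Phi_le (A : Finset (Fin (m + 1) →₀ ℕ)) (cf : (Fin (m + 1) →₀ ℕ) → ℂ) (t : Fin m → ℕ)
    (ℓ E : ℕ) (W r : ℝ) (hr : 1 ≤ r) (hW : 0 ≤ W)
    (hA : ∀ a ∈ A, ‖cf a‖ ≤ W ∧ a 0 ≤ ℓ ∧ ∑ j : Fin m, a j.succ ≤ E) (z : ℂ) (hz : ‖z‖ ≤ r) :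
    ‖Phi A cf t z‖ ≤ A.card * W * (2 ^ E * r ^ E * Real.exp (ℓ * r)) := by
  rw [mul_assoc, ← nsmul_eq_mul]
  refine le_trans (norm_sum_le _ _) (Finset.sum_le_card_nsmul _ _ _ fun a ha => ?_)
  obtain ⟨h1, h2, h3⟩ := hA a ha
  refine le_trans ?_ (mul_le_mul_of_nonneg_left (An2A.term_le a t hr h2 h3) hW)
  have h4 : ‖Complex.exp (a 0 * z)‖ ≤ Real.exp (a 0 * r) := by
    refine (Complex.norm_exp_le_exp_norm _).trans (Real.exp_le_exp.mpr ?_)
    rw [norm_mul, Complex.norm_natCast]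
    exact mul_le_mul_of_nonneg_left hz (by positivity)
  rw [norm_mul, norm_mul, norm_mul, norm_prod, norm_pow, ← mul_assoc, ← mul_assoc]
  simp only [Complex.norm_natCast]
  have : 0 ≤ r := by linarith
  gcongr

theorem Phi_small (A : Finset (Fin (m + 1) →₀ ℕ)) (cf : (Fin (m + 1) →₀ ℕ) → ℂ) (t : Fin m → ℕ)
    (ℓ E S : ℕ) (W r ρ η : ℝ) (hr : 1 ≤ r) (hρ : 1 ≤ ρ) (hW : 0 ≤ W)
    (hA : ∀ a ∈ A, ‖cf a‖ ≤ W ∧ a 0 ≤ ℓ ∧ ∑ j : Fin m, a j.succ ≤ E)
    (hη : ∀ σ < S, ‖∑ a ∈ A, cf a * (ent a t σ : ℂ)‖ * r ^ σ ≤ η) (z : ℂ) (hz : ‖z‖ ≤ r) :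
    ‖Phi A cf t z‖ ≤ S * η +
      A.card * W * (2 ^ E * (ρ * r) ^ E * Real.exp (ℓ * (ρ * r))) / ρ ^ S := by
  have hr0 : 0 ≤ r := by linarith
  have hρ0 : 0 < ρ := by linarith
  have hρr : 1 ≤ ρ * r := by nlinarith
  have tail : ∀ a ∈ A, ‖(∏ j, ((a j.succ).choose (t j) : ℂ)) * z ^ (∑ j, (a j.succ - t j)) *
      Complex.exp (a 0 * z) - ∑ σ ∈ Finset.range S, (ent a t σ : ℂ) * z ^ σ‖ ≤
      2 ^ E * (ρ * r) ^ E * Real.exp (ℓ * (ρ * r)) / ρ ^ S := by
    intro a ha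
    obtain ⟨-, h2, h3⟩ := hA a ha
    have h4 := (hasSum_nat_add_iff' S).mpr (An2A.hasSum_ent a t z)
    have h5 := ((hasSum_nat_add_iff' S).mpr (An2A.hasSum_ent_real a t (ρ * r))).div_const (ρ ^ S)
    refine le_trans (h4.norm_le_of_bounded h5 fun σ => ?_) ?_
    · have := ent_nonneg a t (σ + S)
      rw [norm_mul, Complex.norm_real, Real.norm_of_nonneg this, norm_pow, le_div_iff₀ (by positivity),
        mul_assoc, mul_pow, mul_comm (ρ ^ (σ + S))]
      gcongr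
      exact Nat.le_add_left _ _
    · refine div_le_div_of_nonneg_right (le_trans (sub_le_self _ (Finset.sum_nonneg fun σ _ =>
        mul_nonneg (ent_nonneg a t σ) (by positivity))) (An2A.term_le a t hρr h2 h3)) (by positivity)
  have e : Phi A cf t z = ∑ σ ∈ Finset.range S, (∑ a ∈ A, cf a * (ent a t σ : ℂ)) * z ^ σ +
      ∑ a ∈ A, cf a * ((∏ j, ((a j.succ).choose (t j) : ℂ)) * z ^ (∑ j, (a j.succ - t j)) *
        Complex.exp (a 0 * z) - ∑ σ ∈ Finset.range S, (ent a t σ : ℂ) * z ^ σ) := by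
    simp only [Finset.sum_mul]
    rw [Finset.sum_comm, ← Finset.sum_add_distrib]
    refine Finset.sum_congr rfl fun a _ => ?_
    rw [mul_sub, Finset.mul_sum]
    simp only [mul_assoc]
    ring
  rw [e]
  refine le_trans (norm_add_le _ _) (add_le_add ?_ ?_)
  · have := Finset.sum_le_card_nsmul (Finset.range S)
      (fun σ => ‖(∑ a ∈ A, cf a * (ent a t σ : ℂ)) * z ^ σ‖) η fun σ hσ => by
        refine le_trans ?_ (hη σ (Finset.mem_range.mp hσ))
        rw [norm_mul, norm_pow]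
        gcongr
    rw [Finset.card_range, nsmul_eq_mul] at this
    exact le_trans (norm_sum_le _ _) this
  · rw [mul_div_assoc, mul_assoc, ← nsmul_eq_mul]
    refine le_trans (norm_sum_le _ _) (Finset.sum_le_card_nsmul _ _ _ fun a ha => ?_)
    rw [norm_mul]
    exact mul_le_mul (hA a ha).1 (tail a ha) (norm_nonneg _) hW

/-- Dirichlet's box principle for real linear forms with nonnegative coefficients: map
`[0,B]^ι` to the boxes `⌊form / η⌋`. -/
theorem pigeon {ι κ : Type*} [Fintype ι] [Fintype κ] (M : κ → ι → ℝ) (U η : ℝ) (hη : 0 < η)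
    (hU : 0 ≤ U) (hM : ∀ k i, 0 ≤ M k i ∧ M k i ≤ U) (B : ℕ)
    (h : (Fintype.card ι * B * U / η + 1) ^ Fintype.card κ < ((B : ℝ) + 1) ^ Fintype.card ι) :
    ∃ b : ι → ℤ, b ≠ 0 ∧ (∀ i, |(b i : ℝ)| ≤ B) ∧ ∀ k, |∑ i, (b i : ℝ) * M k i| ≤ η := by
  classical
  have hN : 0 ≤ Fintype.card ι * B * U / η := by positivity
  obtain ⟨x, hx, y, hy, hxy, hf⟩ := Finset.exists_ne_map_eq_of_card_lt_of_maps_to
    (s := Fintype.piFinset fun _ : ι => Finset.range (B + 1))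
    (t := Fintype.piFinset fun _ : κ => Finset.range (⌊Fintype.card ι * B * U / η⌋₊ + 1))
    (f := fun x k => ⌊(∑ i, (x i : ℝ) * M k i) / η⌋₊)
    (by
      simp only [Fintype.card_piFinset, Finset.card_range, Finset.prod_const, Finset.card_univ]
      have h1 : ((⌊Fintype.card ι * B * U / η⌋₊ + 1 : ℕ) : ℝ) ≤ Fintype.card ι * B * U / η + 1 := by
        push_cast
        linarith [Nat.floor_le hN]
      have h2 := lt_of_le_of_lt (pow_le_pow_left₀ (by positivity) h1 (Fintype.card κ)) h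
      exact_mod_cast h2)
    (fun x hx => by
      simp only [Finset.coe_filter, Finset.mem_coe, Fintype.mem_piFinset, Finset.mem_range] at hx ⊢
      intro k
      refine Nat.lt_succ_of_le (Nat.floor_le_floor (div_le_div_of_nonneg_right ?_ hη.le))
      have := Finset.sum_le_card_nsmul Finset.univ (fun i => (x i : ℝ) * M k i) (B * U) fun i _ =>
        mul_le_mul (by exact_mod_cast Nat.lt_succ_iff.mp (hx i)) (hM k i).2 (hM k i).1 (by positivity)
      rwa [Finset.card_univ, nsmul_eq_mul, ← mul_assoc] at this)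
  simp only [Fintype.mem_piFinset, Finset.mem_range] at hx hy
  refine ⟨fun i => (x i : ℤ) - y i, fun h0 => hxy (funext fun i => ?_), fun i => ?_, fun k => ?_⟩
  · have := congrFun h0 i
    simp only [Pi.zero_apply] at this
    omega
  · have h1 : (x i : ℝ) ≤ B := by exact_mod_cast Nat.lt_succ_iff.mp (hx i)
    have h2 : (y i : ℝ) ≤ B := by exact_mod_cast Nat.lt_succ_iff.mp (hy i)
    have h3 : (0 : ℝ) ≤ x i := by positivity
    have h4 : (0 : ℝ) ≤ y i := by positivity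
    push_cast
    rw [abs_le]
    constructor <;> linarith
  · have h0 : ∀ x : ι → ℕ, 0 ≤ (∑ i, (x i : ℝ) * M k i) / η := fun x =>
      div_nonneg (Finset.sum_nonneg fun i _ => mul_nonneg (by positivity) (hM k i).1) hη.le
    have h1 := Nat.floor_le (h0 x)
    have h2 := Nat.floor_le (h0 y)
    have h3 := Nat.lt_floor_add_one ((∑ i, (x i : ℝ) * M k i) / η)
    have h4 := Nat.lt_floor_add_one ((∑ i, (y i : ℝ) * M k i) / η)
    have h5 : ⌊(∑ i, (x i : ℝ) * M k i) / η⌋₊ = ⌊(∑ i, (y i : ℝ) * M k i) / η⌋₊ := congrFun hf k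
    rw [h5] at h1 h3
    rw [le_div_iff₀ hη] at h1 h2
    rw [div_lt_iff₀ hη] at h3 h4
    push_cast
    simp only [sub_mul, Finset.sum_sub_distrib]
    rw [abs_le]
    constructor <;> linarith

end Crest.Agent.R11Z
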