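import Crest.Agent.R11Z.Defs

/-!
# Row 11: the Liouville inequality

With `Q j = q j * lcm(1..n j)`, the polynomials `F` such that every `coeff t F` is
`∏ Q j ^ t j.succ` times a Gaussian integer form a subring (image of `ℤ[i][X]` under
`X 0 ↦ X 0`, `X j.succ ↦ Q j X j.succ`). It contains `1 + X 0`, integers, and
`Q j * (k * 2 i p j / q j + X j.succ + Lg (n j))`. A nonzero Gaussian integer has norm `≥ 1`.
-/

set_option autoImplicit false
open MvPolynomial Module

namespace Crest.Agent.R11Z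

variable {m : ℕ}

namespace ArithA

/-- the weight of an exponent -/
noncomputable def w (Q : Fin m → ℕ) (t : Fin (m + 1) →₀ ℕ) : ℂ := ∏ j : Fin m, (Q j : ℂ) ^ t j.succ

theorem w_add (Q : Fin m → ℕ) (t t' : Fin (m + 1) →₀ ℕ) : w Q (t + t') = w Q t * w Q t' := by
  simp only [w, Finsupp.add_apply, pow_add, Finset.prod_mul_distrib]

theorem mon_aux (Q : Fin m → ℕ) (s : Fin (m + 1) →₀ ℕ) (z : GaussianInt) (t : Fin (m + 1) →₀ ℕ) :
    ∃ z' : GaussianInt, coeff t (monomial s ((z : ℂ) * w Q s)) = z' * w Q t := by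
  classical
  rw [coeff_monomial]
  split_ifs with h
  · exact ⟨z, by rw [h]⟩
  · exact ⟨0, by simp⟩

/-- the subring of polynomials with weighted Gaussian coefficients -/
def S (Q : Fin m → ℕ) : Subring (PR m) where
  carrier := {F | ∀ t, ∃ z : GaussianInt, coeff t F = z * w Q t}
  mul_mem' {F G} hF hG t := by
    classical
    choose a ha using hF
    choose b hb using hG
    refine ⟨∑ x ∈ Finset.HasAntidiagonal.antidiagonal t, a x.1 * b x.2, ?_⟩
    rw [coeff_mul, map_sum, Finset.sum_mul]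
    refine Finset.sum_congr rfl fun x hx => ?_
    rw [ha, hb, ← Finset.HasAntidiagonal.mem_antidiagonal.mp hx, w_add, map_mul]
    ring
  one_mem' t := by simpa [w] using mon_aux Q 0 1 t
  add_mem' {F G} hF hG t := by
    obtain ⟨a, ha⟩ := hF t
    obtain ⟨b, hb⟩ := hG t
    exact ⟨a + b, by rw [coeff_add, ha, hb, map_add, add_mul]⟩
  zero_mem' t := ⟨0, by simp⟩
  neg_mem' {F} hF t := by
    obtain ⟨a, ha⟩ := hF t
    exact ⟨-a, by rw [coeff_neg, ha, map_neg, neg_mul]⟩

theorem C_mem (Q : Fin m → ℕ) (z : GaussianInt) : C (z : ℂ) ∈ S Q := fun t => by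
  simpa [w] using mon_aux Q 0 z t

theorem X0_mem (Q : Fin m → ℕ) : X 0 ∈ S Q := fun t => by
  have h : w Q (Finsupp.single 0 1) = 1 := by simp [w]
  have := mon_aux Q (Finsupp.single 0 1) 1 t
  rwa [h, map_one, one_mul] at this

theorem X_mem (Q : Fin m → ℕ) (j : Fin m) : C (Q j : ℂ) * X j.succ ∈ S Q := fun t => by
  have h : w Q (Finsupp.single j.succ 1) = Q j := by
    rw [w, Finset.prod_eq_single j (fun i _ hi => by
      rw [Finsupp.single_eq_of_ne fun h => hi (Fin.succ_injective _ h), pow_zero]) (by simp)]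
    simp
  have := mon_aux Q (Finsupp.single j.succ 1) 1 t
  rwa [h, map_one, one_mul, ← C_mul_X_eq_monomial] at this

theorem Lg_mem (Q : Fin m → ℕ) (c n : ℕ) : C ((c * Nat.lcmUpto n : ℕ) : ℂ) * Lg m n ∈ S Q := by
  rw [Lg, Finset.mul_sum]
  refine Subring.sum_mem _ fun i hi => ?_
  rw [← mul_assoc, ← map_mul]
  refine Subring.mul_mem _ ?_ (Subring.pow_mem _ (X0_mem Q) _)
  obtain ⟨u, hu⟩ : i + 1 ∣ Nat.lcmUpto n :=
    Finset.dvd_lcm (f := id) (Finset.mem_Icc.mpr ⟨by omega, Finset.mem_range.mp hi⟩)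
  have h := C_mem Q ((c * u : ℕ) * (-1) ^ i)
  have h0 : (i : ℂ) + 1 ≠ 0 := by exact_mod_cast Nat.succ_ne_zero i
  convert h using 2
  rw [hu]
  simp only [map_mul, map_pow, map_neg, map_one, map_natCast]
  push_cast
  field_simp

theorem one_le_norm {z : GaussianInt} (hz : z ≠ 0) : 1 ≤ ‖(z : ℂ)‖ := by
  have h1 : (1 : ℝ) ≤ (z.norm : ℝ) := by exact_mod_cast GaussianInt.norm_pos.mpr hz
  rw [GaussianInt.intCast_real_norm, Complex.normSq_eq_norm_sq] at h1
  by_contra h
  have := norm_nonneg (z : ℂ)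
  nlinarith

end ArithA

theorem arith (A : Finset (Fin (m + 1) →₀ ℕ)) (b : (Fin (m + 1) →₀ ℕ) → ℤ) (p : Fin m → ℤ)
    (q n : Fin m → ℕ) (hq : ∀ j, 0 < q j) (k : ℕ) (t : Fin (m + 1) →₀ ℕ)
    (h : coeff t (psi (fun j => (k : ℂ) * (2 * Complex.I * p j / q j)) n
      (∑ a ∈ A, monomial a ((b a : ℂ) *
        ∏ j : Fin m, ((q j * Nat.lcmUpto (n j) : ℕ) : ℂ) ^ a j.succ))) ≠ 0) :
    ∏ j : Fin m, (q j : ℝ) ^ t j.succ ≤
      ‖coeff t (psi (fun j => (k : ℂ) * (2 * Complex.I * p j / q j)) n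
        (∑ a ∈ A, monomial a ((b a : ℂ) *
          ∏ j : Fin m, ((q j * Nat.lcmUpto (n j) : ℕ) : ℂ) ^ a j.succ)))‖ := by
  have hmem : psi (fun j => (k : ℂ) * (2 * Complex.I * p j / q j)) n
      (∑ a ∈ A, monomial a ((b a : ℂ) *
        ∏ j : Fin m, ((q j * Nat.lcmUpto (n j) : ℕ) : ℂ) ^ a j.succ)) ∈
      ArithA.S fun j => q j * Nat.lcmUpto (n j) := by
    rw [map_sum]
    refine Subring.sum_mem _ fun a _ => ?_
    rw [psi, aeval_monomial, Finsupp.prod_fintype _ _ (fun i => pow_zero _), Fin.prod_univ_succ,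
      algebraMap_eq, map_mul, map_prod, mul_mul_mul_comm, ← Finset.prod_mul_distrib]
    simp only [Fin.cons_zero, Fin.cons_succ]
    refine Subring.mul_mem _ (Subring.mul_mem _ ?_ (Subring.pow_mem _
      (Subring.add_mem _ (Subring.one_mem _) (ArithA.X0_mem _)) _)) (Subring.prod_mem _ fun j _ => ?_)
    · simpa using ArithA.C_mem (fun j => q j * Nat.lcmUpto (n j)) (b a)
    · rw [map_pow, ← mul_pow, mul_add, mul_add, ← map_mul]
      refine Subring.pow_mem _ (Subring.add_mem _ (Subring.add_mem _ ?_ (ArithA.X_mem _ j))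
        (ArithA.Lg_mem _ _ _)) _
      have h1 := ArithA.C_mem (fun j => q j * Nat.lcmUpto (n j))
        ⟨0, 2 * k * p j * Nat.lcmUpto (n j)⟩
      have h0 : (q j : ℂ) ≠ 0 := by exact_mod_cast (hq j).ne'
      convert h1 using 2
      rw [GaussianInt.toComplex_def']
      push_cast
      field_simp
      ring
  obtain ⟨z, hz⟩ := hmem t
  rw [hz] at h ⊢
  have hz0 : z ≠ 0 := by
    rintro rfl
    simp at h
  rw [norm_mul, ArithA.w, norm_prod]
  refine le_trans ?_ (le_mul_of_one_le_left (by positivity) (ArithA.one_le_norm hz0))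
  refine Finset.prod_le_prod (fun j _ => by positivity) fun j _ => ?_
  rw [norm_pow, Complex.norm_natCast]
  refine pow_le_pow_left₀ (by positivity) ?_ _
  exact_mod_cast Nat.le_mul_of_pos_right _ (Nat.lcmUpto_pos _)

end Crest.Agent.R11Z
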