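import Crest.Agent.R11Z.Defs

/-!
# Row 11: lattice points in weighted simplices

Induction on `r`, slicing along coordinate `0` (`Fin.cons`/`Fin.tail`, fibres of `T`), using
`(y+h)^(r+1) - y^(r+1) ≤ (r+1) h (y+h)^r` and `≥ (r+1) h y^r` for `y, h ≥ 0`, `h = 1 / d 0`.
-/

set_option autoImplicit false
open MvPolynomial Module

namespace Crest.Agent.R11Z

namespace CountA

open Finset

theorem pow_up {y z : ℝ} (hz : 0 ≤ z) (hzy : z ≤ y) (r : ℕ) :
    y ^ (r + 1) - z ^ (r + 1) ≤ (r + 1) * (y - z) * y ^ r := by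
  induction r with
  | zero => simp
  | succ r ih =>
    have h1 := mul_le_mul_of_nonneg_left ih (hz.trans hzy)
    have h2 := mul_le_mul_of_nonneg_right (pow_le_pow_left₀ hz hzy (r + 1)) (sub_nonneg.mpr hzy)
    push_cast
    calc y ^ (r + 1 + 1) - z ^ (r + 1 + 1) = y * (y ^ (r + 1) - z ^ (r + 1)) + z ^ (r + 1) * (y - z) := by ring
      _ ≤ y * ((r + 1) * (y - z) * y ^ r) + y ^ (r + 1) * (y - z) := add_le_add h1 h2
      _ = _ := by ring

theorem pow_down {y z : ℝ} (hz : 0 ≤ z) (hzy : z ≤ y) (r : ℕ) :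
    (r + 1) * (y - z) * z ^ r ≤ y ^ (r + 1) - z ^ (r + 1) := by
  induction r with
  | zero => simp
  | succ r ih =>
    have h1 := mul_le_mul_of_nonneg_left ih hz
    have h2 := mul_le_mul_of_nonneg_right (pow_le_pow_left₀ hz hzy (r + 1)) (sub_nonneg.mpr hzy)
    push_cast
    calc (r + 1 + 1) * (y - z) * z ^ (r + 1) = z * ((r + 1) * (y - z) * z ^ r) + z ^ (r + 1) * (y - z) := by ring
      _ ≤ z * (y ^ (r + 1) - z ^ (r + 1)) + y ^ (r + 1) * (y - z) := add_le_add h1 h2
      _ = _ := by ring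

end CountA


theorem count_lower_fun (r : ℕ) (d : Fin r → ℝ) (hd : ∀ i, 0 < d i) (x : ℝ) (hx : 0 < x)
    (T : Finset (Fin r → ℕ)) (hT : ∀ t : Fin r → ℕ, ∑ i, (t i : ℝ) / d i < x → t ∈ T) :
    x ^ r * (∏ i, d i) / (r.factorial : ℝ) ≤ T.card := by
  classical
  induction r generalizing x with
  | zero =>
    have : 0 < T.card := Finset.card_pos.mpr ⟨default, hT _ (by simpa using hx)⟩
    simpa using (by exact_mod_cast this : (1 : ℝ) ≤ T.card)
  | succ r ih =>
    have hd0 := hd 0
    set A := ⌈x * d 0⌉₊ with hA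
    have hP : 0 < ∏ i : Fin r, d i.succ := Finset.prod_pos fun i _ => hd _
    have hlt : ∀ a ∈ Finset.range A, 0 < x - a / d 0 := by
      intro a ha
      rw [Finset.mem_range, Nat.lt_ceil] at ha
      rw [sub_pos, div_lt_iff₀ hd0]; exact ha
    have h1 : ∀ a ∈ Finset.range A, (x - a / d 0) ^ r * (∏ i : Fin r, d i.succ) / (r.factorial : ℝ) ≤
        (T.filter fun t => t 0 = a).card := by
      intro a ha
      refine (ih (fun i => d i.succ) (fun i => hd _) _ (hlt a ha)
        ((T.filter fun t => t 0 = a).image Fin.tail) fun u hu => ?_).trans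
        (by exact_mod_cast Finset.card_image_le)
      refine Finset.mem_image.mpr ⟨Fin.cons a u, Finset.mem_filter.mpr ⟨hT _ ?_, rfl⟩, rfl⟩
      rw [Fin.sum_univ_succ]
      simp only [Fin.cons_zero, Fin.cons_succ]
      linarith
    have h2 : ∑ a ∈ Finset.range A, ((T.filter fun t => t 0 = a).card : ℝ) ≤ T.card := by
      rw [← Nat.cast_sum, Finset.sum_card_fiberwise_eq_card_filter]
      exact_mod_cast Finset.card_filter_le _ _
    have h3 : x ^ (r + 1) ≤ ∑ a ∈ Finset.range A, (r + 1) * (1 / d 0) * (x - a / d 0) ^ r := by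
      have e := Finset.sum_range_sub' (fun a : ℕ => (max (x - a / d 0) 0) ^ (r + 1)) A
      have e2 : max (x - A / d 0) 0 = 0 := by
        apply max_eq_right
        rw [sub_nonpos, le_div_iff₀ hd0]; exact Nat.le_ceil _
      simp only [e2, Nat.cast_zero, zero_div, sub_zero, max_eq_left hx.le, zero_pow (Nat.succ_ne_zero r)] at e
      rw [← e]
      apply Finset.sum_le_sum
      intro a ha
      have h4 := hlt a ha
      have h5 : x - ((a + 1 : ℕ) : ℝ) / d 0 = x - a / d 0 - 1 / d 0 := by push_cast; ring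
      have h6 : 0 < 1 / d 0 := by positivity
      rw [max_eq_left h4.le, h5]
      refine (CountA.pow_up (le_max_right _ _) (max_le (by linarith) h4.le) r).trans ?_
      have h7 := le_max_left (x - a / d 0 - 1 / d 0) 0
      gcongr
      linarith
    refine le_trans ?_ ((Finset.sum_le_sum h1).trans h2)
    rw [Fin.prod_univ_succ, Nat.factorial_succ, ← Finset.sum_div, ← Finset.sum_mul]
    rw [← Finset.mul_sum] at h3
    push_cast
    rw [div_le_div_iff₀ (by positivity) (by positivity)]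
    have h8 := mul_le_mul_of_nonneg_right h3 (show 0 ≤ d 0 * (∏ i : Fin r, d i.succ) * (r.factorial : ℝ) by
      positivity)
    refine le_trans (le_of_eq (by ring)) (h8.trans (le_of_eq ?_))
    field_simp

theorem count_upper_fun (r : ℕ) (d : Fin r → ℝ) (hd : ∀ i, 0 < d i) (x : ℝ) (hx : 0 ≤ x)
    (T : Finset (Fin r → ℕ)) (hT : ∀ t ∈ T, ∑ i, (t i : ℝ) / d i ≤ x) :
    (T.card : ℝ) ≤ (x + ∑ i, 1 / d i) ^ r * (∏ i, d i) / (r.factorial : ℝ) := by
  classical
  induction r generalizing x with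
  | zero =>
    have : T.card ≤ 1 := Finset.card_le_one.mpr fun a _ b _ => Subsingleton.elim a b
    simpa using (by exact_mod_cast this : (T.card : ℝ) ≤ 1)
  | succ r ih =>
    have hd0 := hd 0
    set A := ⌊x * d 0⌋₊ + 1 with hA
    have hP : 0 < ∏ i : Fin r, d i.succ := Finset.prod_pos fun i _ => hd _
    set σ := ∑ i : Fin r, 1 / d i.succ with hσ
    have hσ0 : 0 ≤ σ := Finset.sum_nonneg fun i _ => (one_div_pos.mpr (hd _)).le
    have hle : ∀ a ∈ Finset.range A, 0 ≤ x - a / d 0 := by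
      intro a ha
      rw [Finset.mem_range, Nat.lt_succ_iff, Nat.le_floor_iff (by positivity)] at ha
      rw [sub_nonneg, div_le_iff₀ hd0]; exact ha
    have h1 : ∀ a ∈ Finset.range A, ((T.filter fun t => t 0 = a).card : ℝ) ≤
        (x - a / d 0 + σ) ^ r * (∏ i : Fin r, d i.succ) / (r.factorial : ℝ) := by
      intro a ha
      refine le_trans (le_of_eq ?_) (ih (fun i => d i.succ) (fun i => hd _) _ (hle a ha)
        ((T.filter fun t => t 0 = a).image Fin.tail) fun u hu => ?_)
      · rw [Finset.card_image_of_injOn]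
        intro t ht t' ht' h
        rw [← Fin.cons_self_tail t, ← Fin.cons_self_tail t', h, (Finset.mem_filter.mp ht).2,
          (Finset.mem_filter.mp ht').2]
      · obtain ⟨t, ht, rfl⟩ := Finset.mem_image.mp hu
        have h2 := hT t (Finset.mem_filter.mp ht).1
        rw [Fin.sum_univ_succ, (Finset.mem_filter.mp ht).2] at h2
        simp only [Fin.tail]
        linarith
    have h2 : (T.card : ℝ) = ∑ a ∈ Finset.range A, ((T.filter fun t => t 0 = a).card : ℝ) := by
      rw [← Nat.cast_sum, Finset.card_eq_sum_card_fiberwise (f := fun t => t 0) (t := Finset.range A)]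
      intro t ht
      have h2 := hT t ht
      rw [Fin.sum_univ_succ] at h2
      have h3 : 0 ≤ ∑ i : Fin r, (t i.succ : ℝ) / d i.succ :=
        Finset.sum_nonneg fun i _ => div_nonneg (Nat.cast_nonneg _) (hd _).le
      rw [Finset.mem_coe, Finset.mem_range, Nat.lt_succ_iff, Nat.le_floor_iff (by positivity),
        ← div_le_iff₀ hd0]
      linarith
    have h6 : 0 < 1 / d 0 := by positivity
    have h3 : ∑ a ∈ Finset.range A, (r + 1) * (1 / d 0) * (x - a / d 0 + σ) ^ r ≤
        (x + (1 / d 0 + σ)) ^ (r + 1) := by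
      have e := Finset.sum_range_sub' (fun a : ℕ => (x - a / d 0 + σ + 1 / d 0) ^ (r + 1)) A
      have e2 : 0 ≤ (x - A / d 0 + σ + 1 / d 0) ^ (r + 1) := by
        apply pow_nonneg
        have := hle ⌊x * d 0⌋₊ (Finset.self_mem_range_succ _)
        rw [hA]; push_cast
        rw [add_div]; linarith
      have e3 : x - ((0 : ℕ) : ℝ) / d 0 + σ + 1 / d 0 = x + (1 / d 0 + σ) := by push_cast; ring
      simp only [e3] at e
      refine le_trans (Finset.sum_le_sum fun a ha => ?_) (e.le.trans (by linarith))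
      have h4 := hle a ha
      have h5 : x - ((a + 1 : ℕ) : ℝ) / d 0 + σ + 1 / d 0 = x - a / d 0 + σ := by push_cast; ring
      rw [h5]
      have := CountA.pow_down (y := x - a / d 0 + σ + 1 / d 0) (z := x - a / d 0 + σ) (by linarith)
        (by linarith) r
      rwa [add_sub_cancel_left] at this
    rw [h2]
    refine (Finset.sum_le_sum h1).trans ?_
    rw [Fin.prod_univ_succ, Fin.sum_univ_succ, Nat.factorial_succ, ← Finset.sum_div, ← Finset.sum_mul]
    rw [← Finset.mul_sum] at h3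
    push_cast
    rw [div_le_div_iff₀ (by positivity) (by positivity)]
    have h8 := mul_le_mul_of_nonneg_right h3 (show 0 ≤ d 0 * (∏ i : Fin r, d i.succ) * (r.factorial : ℝ) by
      positivity)
    refine le_trans (le_of_eq ?_) (h8.trans (le_of_eq (by ring)))
    field_simp

theorem count_lower (r : ℕ) (d : Fin r → ℝ) (hd : ∀ i, 0 < d i) (x : ℝ) (hx : 0 < x)
    (T : Finset (Fin r →₀ ℕ)) (hT : ∀ t : Fin r →₀ ℕ, wt d t < x → t ∈ T) :
    x ^ r * (∏ i, d i) / (r.factorial : ℝ) ≤ T.card := by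
  have := count_lower_fun r d hd x hx (T.map Finsupp.equivFunOnFinite.toEmbedding) fun t ht => by
    refine Finset.mem_map.mpr ⟨Finsupp.equivFunOnFinite.symm t, hT _ ?_, by simp⟩
    simpa [wt] using ht
  rwa [Finset.card_map] at this

theorem count_upper (r : ℕ) (d : Fin r → ℝ) (hd : ∀ i, 0 < d i) (x : ℝ) (hx : 0 ≤ x)
    (T : Finset (Fin r →₀ ℕ)) (hT : ∀ t ∈ T, wt d t ≤ x) :
    (T.card : ℝ) ≤ (x + ∑ i, 1 / d i) ^ r * (∏ i, d i) / (r.factorial : ℝ) := by
  have := count_upper_fun r d hd x hx (T.map Finsupp.equivFunOnFinite.toEmbedding) fun t ht => by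
    obtain ⟨u, hu, rfl⟩ := Finset.mem_map.mp ht
    simpa [wt] using hT u hu
  rwa [Finset.card_map] at this

/-- the exponents of weight at most `x` form a finite set -/
theorem exists_finset_wt_le (r : ℕ) (d : Fin r → ℝ) (hd : ∀ i, 0 < d i) (x : ℝ) :
    ∃ T : Finset (Fin r →₀ ℕ), ∀ t, t ∈ T ↔ wt d t ≤ x := by
  have hfin : {t : Fin r →₀ ℕ | wt d t ≤ x}.Finite := by
    refine (Set.finite_Iic (Finsupp.equivFunOnFinite.symm fun i => ⌊x * d i⌋₊)).subset fun t ht => ?_
    intro i
    simp only [Finsupp.equivFunOnFinite_symm_apply_apply]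
    apply Nat.le_floor
    rw [← div_le_iff₀ (hd i)]
    exact (Finset.single_le_sum (f := fun i => (t i : ℝ) / d i)
      (fun j _ => div_nonneg (Nat.cast_nonneg _) (hd j).le) (Finset.mem_univ i)).trans ht
  exact ⟨hfin.toFinset, fun t => by simp⟩

theorem exists_finset_wt_lt (r : ℕ) (d : Fin r → ℝ) (hd : ∀ i, 0 < d i) (x : ℝ) :
    ∃ T : Finset (Fin r →₀ ℕ), ∀ t, t ∈ T ↔ wt d t < x := by
  classical
  obtain ⟨T, hT⟩ := exists_finset_wt_le r d hd x
  exact ⟨T.filter fun t => wt d t < x, fun t => by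
    rw [Finset.mem_filter, hT]; exact ⟨fun h => h.2, fun h => ⟨h.le, h⟩⟩⟩

end Crest.Agent.R11Z
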