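import Crest.Agent.R11Z.An1
import Crest.Agent.R11Z.An2
import Crest.Agent.R11Z.Arith
import Crest.Agent.R11Z.Count

/-!
# Row 11: the auxiliary polynomial
-/

set_option autoImplicit false
open MvPolynomial Module

namespace Crest.Agent.R11Z

variable {m : ℕ}

namespace AuxPA

def box (D : Fin m → ℕ) : Finset (Fin m → ℕ) := Fintype.piFinset (fun j => Finset.range (D j + 1))

theorem card_box (D : Fin m → ℕ) : ((box D).card : ℝ) ≤ 2 ^ (∑ j, D j) := by
  rw [box, Fintype.card_piFinset, ← Finset.prod_pow_eq_pow_sum]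
  push_cast
  apply Finset.prod_le_prod (fun _ _ => by positivity)
  intro j _
  rw [Finset.card_range]
  exact_mod_cast Nat.lt_two_pow_self (n := D j)

theorem le_of_sum_le {D : Fin m → ℕ} (hD : ∀ j, 0 < D j) {t : Fin m → ℕ}
    (h : ∑ j, (t j : ℝ) / (D j : ℝ) ≤ 1) (j : Fin m) : t j ≤ D j := by
  have h1 : (t j : ℝ) / (D j : ℝ) ≤ ∑ j, (t j : ℝ) / (D j : ℝ) :=
    Finset.single_le_sum (f := fun j => (t j : ℝ) / (D j : ℝ)) (fun _ _ => by positivity)
      (Finset.mem_univ j)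
  have hDj : (0 : ℝ) < D j := by exact_mod_cast hD j
  have := (div_le_one hDj).mp (h1.trans h)
  exact_mod_cast this

theorem exists_A (ℓ : ℕ) (D : Fin m → ℕ) (hD : ∀ j, 0 < D j) :
    ∃ A : Finset (Fin (m + 1) →₀ ℕ),
      (∀ a ∈ A, a 0 ≤ ℓ ∧ ∑ j : Fin m, (a j.succ : ℝ) / (D j : ℝ) ≤ 1) ∧
      ((ℓ : ℝ) + 1) * ((∏ j, (D j : ℝ)) / (m.factorial : ℝ)) ≤ A.card ∧
      (A.card : ℝ) ≤ ((ℓ : ℝ) + 1) * 2 ^ (∑ j, D j) := by
  classical
  let T0 := (box D).filter (fun t => ∑ j, (t j : ℝ) / (D j : ℝ) ≤ 1)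
  let e : ℕ × (Fin m → ℕ) → (Fin (m + 1) →₀ ℕ) := fun x =>
    Finsupp.equivFunOnFinite.symm (Fin.cons x.1 x.2 : Fin (m + 1) → ℕ)
  have he : Function.Injective e := by
    intro x y h
    have := Finsupp.equivFunOnFinite.symm.injective h
    rw [Fin.cons_inj] at this
    exact Prod.ext this.1 this.2
  have hcard : (((Finset.range (ℓ + 1) ×ˢ T0).image e).card : ℝ) = ((ℓ : ℝ) + 1) * T0.card := by
    rw [Finset.card_image_of_injective _ he, Finset.card_product, Finset.card_range]; push_cast; ring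
  refine ⟨(Finset.range (ℓ + 1) ×ˢ T0).image e, ?_, ?_, ?_⟩
  · intro a ha
    obtain ⟨x, hx, rfl⟩ := Finset.mem_image.mp ha
    rw [Finset.mem_product, Finset.mem_range, Finset.mem_filter] at hx
    refine ⟨by simpa [e] using Nat.lt_succ_iff.mp hx.1, by simpa [e] using hx.2.2⟩
  · rw [hcard]
    have := count_lower_fun m (fun j => (D j : ℝ)) (fun j => by exact_mod_cast hD j) 1 one_pos T0 (by
      intro t ht
      refine Finset.mem_filter.mpr ⟨?_, ht.le⟩
      rw [box, Fintype.mem_piFinset]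
      intro j
      exact Finset.mem_range.mpr (Nat.lt_succ_of_le (le_of_sum_le hD ht.le j)))
    rw [one_pow, one_mul] at this
    gcongr
  · rw [hcard]
    have : (T0.card : ℝ) ≤ (box D).card := by exact_mod_cast Finset.card_filter_le _ _
    gcongr
    exact this.trans (card_box D)

/-- `∏ Q ^ a ≤ exp c` on the simplex -/
theorem prod_pow_le {D : Fin m → ℕ} (hD : ∀ j, 0 < D j) (Q : Fin m → ℝ) (hQ : ∀ j, 0 < Q j)
    (c : ℝ) (hc : 0 ≤ c) (h : ∀ j, D j * Real.log (Q j) ≤ c) (a : Fin m → ℕ)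
    (ha : ∑ j, (a j : ℝ) / (D j : ℝ) ≤ 1) : ∏ j, Q j ^ a j ≤ Real.exp c := by
  have : ∏ j, Q j ^ a j ≤ ∏ j, Real.exp ((a j : ℝ) / D j * c) := by
    apply Finset.prod_le_prod (fun j _ => (pow_pos (hQ j) _).le)
    intro j _
    have hDj : (0 : ℝ) < D j := by exact_mod_cast hD j
    rw [← Real.exp_log (pow_pos (hQ j) (a j)), Real.log_pow]
    apply Real.exp_le_exp.mpr
    have : (a j : ℝ) * Real.log (Q j) = (a j : ℝ) / D j * (D j * Real.log (Q j)) := by field_simp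
    rw [this]
    exact mul_le_mul_of_nonneg_left (h j) (by positivity)
  refine this.trans ?_
  rw [← Real.exp_sum, ← Finset.sum_mul]
  apply Real.exp_le_exp.mpr
  nlinarith

/-- `exp (c * ∑ a / D) ≤ ∏ Q ^ a` -/
theorem le_prod_pow {D : Fin m → ℕ} (hD : ∀ j, 0 < D j) (Q : Fin m → ℝ) (hQ : ∀ j, 0 < Q j)
    (c : ℝ) (h : ∀ j, c ≤ D j * Real.log (Q j)) (a : Fin m → ℕ) :
    Real.exp (c * ∑ j, (a j : ℝ) / (D j : ℝ)) ≤ ∏ j, Q j ^ a j := by
  rw [Finset.mul_sum, Real.exp_sum]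
  apply Finset.prod_le_prod (fun j _ => (Real.exp_pos _).le)
  intro j _
  have hDj : (0 : ℝ) < D j := by exact_mod_cast hD j
  rw [← Real.exp_log (pow_pos (hQ j) (a j)), Real.log_pow]
  apply Real.exp_le_exp.mpr
  have : (a j : ℝ) * Real.log (Q j) = (D j * Real.log (Q j)) * ((a j : ℝ) / D j) := by field_simp
  rw [this]
  exact mul_le_mul_of_nonneg_right (h j) (by positivity)

/-- the factor in front of `Φ_{t'}` -/
theorem factor_le {D : Fin m → ℕ} (hD : ∀ j, 0 < D j) (q : Fin m → ℕ) (hq : ∀ j, 0 < q j)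
    (ν H κ' : ℝ) (hν : 0 ≤ ν) (hκ' : 1 ≤ κ') (hD1 : ∀ j, H ≤ D j * Real.log (q j))
    (d : Fin m → ℂ) (hd : ∀ j, ‖d j‖ ≤ κ' * (1 / (q j : ℝ) ^ ν)) (t t' : Fin m → ℕ)
    (ht' : t' ∈ box D) (htt : ∀ j, t j ≤ t' j) :
    ‖∏ j, ((t' j).choose (t j) : ℂ) * d j ^ (t' j - t j)‖ ≤
      2 ^ (∑ j, D j) * κ' ^ (∑ j, D j) *
        Real.exp (-(ν * H * (∑ j, (t' j : ℝ) / (D j : ℝ) - ∑ j, (t j : ℝ) / (D j : ℝ)))) := by
  rw [norm_prod, ← Finset.prod_pow_eq_pow_sum, ← Finset.prod_pow_eq_pow_sum,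
    ← Finset.sum_sub_distrib, Finset.mul_sum, ← Finset.sum_neg_distrib, Real.exp_sum,
    ← Finset.prod_mul_distrib, ← Finset.prod_mul_distrib]
  apply Finset.prod_le_prod (fun j _ => norm_nonneg _)
  intro j _
  have hDj : (0 : ℝ) < D j := by exact_mod_cast hD j
  have hqj : (0 : ℝ) < q j := by exact_mod_cast hq j
  have hle : t' j ≤ D j := by
    rw [box, Fintype.mem_piFinset] at ht'
    exact Nat.lt_succ_iff.mp (Finset.mem_range.mp (ht' j))
  rw [norm_mul, norm_pow, Complex.norm_natCast]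
  have h1 : (((t' j).choose (t j) : ℕ) : ℝ) ≤ 2 ^ D j := by
    have : (t' j).choose (t j) ≤ 2 ^ D j :=
      (Nat.choose_le_two_pow _ _).trans (Nat.pow_le_pow_right two_pos hle)
    exact_mod_cast this
  have h2 : ‖d j‖ ^ (t' j - t j) ≤ κ' ^ D j *
      Real.exp (-(ν * H * ((t' j : ℝ) / D j - (t j : ℝ) / D j))) := by
    have e1 : ‖d j‖ ^ (t' j - t j) ≤ (κ' * (1 / (q j : ℝ) ^ ν)) ^ (t' j - t j) :=
      pow_le_pow_left₀ (norm_nonneg _) (hd j) _
    rw [mul_pow] at e1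
    have e2 : κ' ^ (t' j - t j) ≤ κ' ^ D j := pow_le_pow_right₀ hκ' (by omega)
    have e3 : (1 / (q j : ℝ) ^ ν) ^ (t' j - t j) ≤
        Real.exp (-(ν * H * ((t' j : ℝ) / D j - (t j : ℝ) / D j))) := by
      rw [Real.rpow_def_of_pos hqj, one_div, ← Real.exp_neg, ← Real.exp_nat_mul]
      apply Real.exp_le_exp.mpr
      rw [Nat.cast_sub (htt j), ← sub_div]
      have hnn : (0 : ℝ) ≤ (t' j : ℝ) - t j := by
        have : (t j : ℝ) ≤ t' j := by exact_mod_cast htt j
        linarith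
      have e4 : H * (((t' j : ℝ) - t j) / D j) ≤ Real.log (q j) * ((t' j : ℝ) - t j) := by
        have : Real.log (q j) * ((t' j : ℝ) - t j) =
          (D j * Real.log (q j)) * (((t' j : ℝ) - t j) / D j) := by field_simp
        rw [this]
        exact mul_le_mul_of_nonneg_right (hD1 j) (by positivity)
      nlinarith
    calc ‖d j‖ ^ (t' j - t j) ≤ _ := e1
      _ ≤ _ := by gcongr
  calc _ ≤ 2 ^ D j * (κ' ^ D j * Real.exp (-(ν * H * ((t' j : ℝ) / D j - (t j : ℝ) / D j)))) := by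
        gcongr
    _ = _ := by ring

end AuxPA

theorem aux_poly (ν κ H ρ τ x₁ : ℝ) (K ℓ S : ℕ) (p : Fin m → ℤ) (q D n : Fin m → ℕ)
    (hν : 1 ≤ ν) (hκ : 0 < κ) (hH : 1 ≤ κ * H) (hρ : 1 ≤ ρ) (hK : 1 ≤ K) (hτ : 0 < τ)
    (hx₁ : 0 < x₁) (hS0 : 0 < S) (hq : ∀ j, 0 < q j) (hD : ∀ j, 0 < D j)
    (happ : ∀ j, |Real.pi - (p j : ℝ) / (q j : ℝ)| < 1 / (q j : ℝ) ^ ν)
    (hD1 : ∀ j, H ≤ D j * Real.log (q j))
    (hD2 : ∀ j, D j * Real.log ((q j * Nat.lcmUpto (n j) : ℕ) : ℝ) ≤ (1 + κ) * H)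
    (hn : ∀ j, (S : ℝ) < ((n j : ℝ) + 1) * (τ * D j))
    (hE : (∑ j, (D j : ℝ)) * Real.log (7 * K * ρ) ≤ κ * H)
    (hℓ : ℓ * (7 * K * ρ) ≤ κ * H) (hS : (S : ℝ) ≤ κ * H)
    (hρS : (1 + 11 * κ) * H ≤ S * Real.log ρ)
    (hgain : 1 + 10 * κ < ν * x₁ - (ν - 1) * τ)
    (hMN : (1 + 13 * κ) * (x₁ + ∑ j, 1 / (D j : ℝ)) ^ m * S ≤ κ * (ℓ + 1)) :
    ∃ P : PR m, P ≠ 0 ∧ Deg ℓ D 1 P ∧
      ∀ k < K, Ind (scl S τ D) 1 (psi (fun j => (k : ℂ) * (2 * Complex.I * p j / q j)) n P) := by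
  classical
  have hH0 : 0 < H := by
    by_contra h
    push Not at h
    nlinarith
  have hKR : (1 : ℝ) ≤ K := by exact_mod_cast hK
  set X : ℝ := Real.exp (κ * H) with hX
  have hX2 : 2 < X := by
    have h1 : Real.exp 1 ≤ X := Real.exp_le_exp.mpr hH
    have h2 := Real.exp_one_gt_d9
    linarith
  have hX1 : 1 ≤ X := by linarith
  have hX0 : 0 < X := by linarith
  set E : ℕ := ∑ j, D j with hEdef
  set r : ℝ := 7 * K with hr
  have hr1 : 7 ≤ r := by rw [hr]; linarith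
  have hZ : r ≤ ρ * r := by nlinarith
  have hZE : (ρ * r) ^ E ≤ X := by
    rw [← Real.exp_log (show 0 < (ρ * r) ^ E by positivity), Real.log_pow]
    apply Real.exp_le_exp.mpr
    rw [hEdef, Nat.cast_sum, mul_comm ρ r]; exact hE
  have hpowE : ∀ u : ℝ, 0 ≤ u → u ≤ r → u ^ E ≤ X := fun u hu hu' =>
    (pow_le_pow_left₀ hu (hu'.trans hZ) E).trans hZE
  have h2E : (2 : ℝ) ^ E ≤ X := hpowE 2 (by norm_num) (by linarith)
  have hrE : r ^ E ≤ X := hpowE r (by linarith) le_rfl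
  have hKE : (2 * K : ℝ) ^ E ≤ X := hpowE _ (by positivity) (by rw [hr]; linarith)
  have hℓ0 : (0 : ℝ) ≤ ℓ := Nat.cast_nonneg _
  have hℓρ : (ℓ : ℝ) * (ρ * r) ≤ κ * H := by rw [mul_comm ρ r]; exact hℓ
  have hexpρ : Real.exp (ℓ * (ρ * r)) ≤ X := Real.exp_le_exp.mpr hℓρ
  have hexpr : Real.exp (ℓ * r) ≤ X :=
    Real.exp_le_exp.mpr ((mul_le_mul_of_nonneg_left hZ hℓ0).trans hℓρ)
  have hℓX : (ℓ : ℝ) + 1 ≤ X := by
    have h1 : (ℓ : ℝ) ≤ κ * H := by nlinarith
    have := Real.add_one_le_exp (κ * H)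
    linarith
  have hSX : (S : ℝ) ≤ X := by
    have := Real.add_one_le_exp (κ * H)
    linarith
  set eH : ℝ := Real.exp H with heH
  have heH1 : 1 ≤ eH := Real.one_le_exp hH0.le
  obtain ⟨A, hA, hAlow, hAup⟩ := AuxPA.exists_A ℓ D hD
  have hAX : (A.card : ℝ) ≤ X ^ 2 := by
    refine hAup.trans ?_
    rw [pow_two]; gcongr
  have hAle : ∀ a ∈ A, ∀ j : Fin m, a j.succ ≤ D j := fun a ha j =>
    AuxPA.le_of_sum_le hD (t := fun j => a j.succ) (hA a ha).2 j
  have hAE : ∀ a ∈ A, ∑ j : Fin m, a j.succ ≤ E := fun a ha =>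
    Finset.sum_le_sum fun j _ => hAle a ha j
  let Q : Fin m → ℕ := fun j => q j * Nat.lcmUpto (n j)
  have hQ : ∀ j, 0 < Q j := fun j => Nat.mul_pos (hq j) (Nat.lcmUpto_pos _)
  have hQa : ∀ a ∈ A, ∏ j : Fin m, (Q j : ℝ) ^ a j.succ ≤ eH * X := by
    intro a ha
    have := AuxPA.prod_pow_le hD (fun j => (Q j : ℝ)) (fun j => by exact_mod_cast hQ j)
      ((1 + κ) * H) (by positivity) hD2 (fun j => a j.succ) (hA a ha).2
    rwa [add_mul, one_mul, Real.exp_add] at this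
  let 𝒯 := (AuxPA.box D).filter (fun t => ∑ j, (t j : ℝ) / (D j : ℝ) < x₁)
  have hfac : (0 : ℝ) < m.factorial := by exact_mod_cast m.factorial_pos
  set V : ℝ := (∏ j, (D j : ℝ)) / (m.factorial : ℝ) with hV
  have hV0 : 0 < V := div_pos (Finset.prod_pos fun j _ => by exact_mod_cast hD j) hfac
  have h𝒯 : (𝒯.card : ℝ) ≤ (x₁ + ∑ j, 1 / (D j : ℝ)) ^ m * V := by
    have := count_upper_fun m (fun j => (D j : ℝ)) (fun j => by exact_mod_cast hD j) x₁ hx₁.le 𝒯
      (fun t ht => (Finset.mem_filter.mp ht).2.le)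
    rwa [mul_div_assoc] at this
  set B : ℕ := ⌊X⌋₊ with hB
  have hBX : (B : ℝ) ≤ X := Nat.floor_le hX0.le
  have hXB : X < (B : ℝ) + 1 := Nat.lt_floor_add_one X
  set η : ℝ := 1 / X ^ 5 with hη
  have hη0 : 0 < η := by positivity
  let Mx : 𝒯 × Fin S → A → ℝ := fun k a =>
    (∏ j : Fin m, (Q j : ℝ) ^ a.1 j.succ) * (ent a.1 k.1.1 k.2 * r ^ (k.2 : ℕ))
  have hApos : 0 < A.card := by
    have : (0 : ℝ) < A.card := lt_of_lt_of_le (by positivity) hAlow
    exact_mod_cast this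
  obtain ⟨b, hb0, hbB, hbη⟩ := pigeon Mx (eH * X ^ 4) η hη0 (by positivity) (by
    intro k a
    refine ⟨mul_nonneg (by positivity) (mul_nonneg (ent_nonneg _ _ _) (by positivity)), ?_⟩
    have h1 := ent_le a.1 k.1.1 k.2 ℓ E r (by linarith) (hA _ a.2).1 (hAE _ a.2)
    have h2 : ent a.1 k.1.1 k.2 * r ^ (k.2 : ℕ) ≤ X * X * X := h1.trans (by gcongr)
    calc _ ≤ (eH * X) * (X * X * X) :=
          mul_le_mul (hQa _ a.2) h2 (mul_nonneg (ent_nonneg _ _ _) (by positivity)) (by positivity)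
      _ = _ := by ring) B (by
    rw [Fintype.card_prod, Fintype.card_coe, Fintype.card_coe, Fintype.card_fin]
    have h1 : A.card * B * (eH * X ^ 4) / η + 1 ≤ Real.exp ((1 + 13 * κ) * H) := by
      have e1 : A.card * B * (eH * X ^ 4) / η ≤ eH * X ^ 12 := by
        rw [hη, div_div_eq_mul_div, div_one]
        calc _ ≤ X ^ 2 * X * (eH * X ^ 4) * X ^ 5 := by gcongr
          _ = _ := by ring
      have e2 : Real.exp ((1 + 13 * κ) * H) = eH * X ^ 13 := by
        rw [heH, hX, ← Real.exp_nat_mul, ← Real.exp_add]; congr 1; push_cast; ring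
      have e3 : 1 ≤ eH * X ^ 12 := one_le_mul_of_one_le_of_one_le heH1 (one_le_pow₀ hX1)
      rw [e2]
      have : eH * X ^ 13 = (eH * X ^ 12) * X := by ring
      nlinarith
    have h2 : (1 + 13 * κ) * ((𝒯.card * S : ℕ) : ℝ) ≤ κ * A.card := by
      push_cast
      calc (1 + 13 * κ) * ((𝒯.card : ℝ) * S)
          ≤ (1 + 13 * κ) * (((x₁ + ∑ j, 1 / (D j : ℝ)) ^ m * V) * S) := by gcongr
        _ = ((1 + 13 * κ) * (x₁ + ∑ j, 1 / (D j : ℝ)) ^ m * S) * V := by ring
        _ ≤ (κ * (ℓ + 1)) * V := by gcongr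
        _ = κ * ((ℓ + 1) * V) := by ring
        _ ≤ κ * A.card := by gcongr
    calc _ ≤ Real.exp ((1 + 13 * κ) * H) ^ (𝒯.card * S) := by gcongr
      _ ≤ X ^ A.card := by
        rw [hX, ← Real.exp_nat_mul, ← Real.exp_nat_mul]
        apply Real.exp_le_exp.mpr
        nlinarith
      _ < _ := pow_lt_pow_left₀ hXB hX0.le hApos.ne')
  let b' : (Fin (m + 1) →₀ ℕ) → ℤ := fun a => if h : a ∈ A then b ⟨a, h⟩ else 0
  let cf : (Fin (m + 1) →₀ ℕ) → ℂ := fun a => (b' a : ℂ) * ∏ j : Fin m, (Q j : ℂ) ^ a j.succ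
  have hcf : ∀ a ∈ A, ‖cf a‖ ≤ eH * X ^ 2 ∧ a 0 ≤ ℓ ∧ ∑ j : Fin m, a j.succ ≤ E := by
    intro a ha
    refine ⟨?_, (hA a ha).1, hAE a ha⟩
    simp only [cf, norm_mul, norm_prod, norm_pow, Complex.norm_natCast, Complex.norm_intCast, b',
      dif_pos ha]
    calc _ ≤ X * (eH * X) := mul_le_mul ((hbB _).trans hBX) (hQa a ha) (by positivity) hX0.le
      _ = _ := by ring
  have hsmall : ∀ t ∈ 𝒯, ∀ σ < S, ‖∑ a ∈ A, cf a * (ent a t σ : ℂ)‖ * r ^ σ ≤ η := by
    intro t ht σ hσ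
    have h1 := hbη (⟨t, ht⟩, ⟨σ, hσ⟩)
    have h2 : ∑ a ∈ A, cf a * (ent a t σ : ℂ) =
        ((∑ a : A, (b a : ℝ) * ((∏ j : Fin m, (Q j : ℝ) ^ a.1 j.succ) * ent a.1 t σ) : ℝ) : ℂ) := by
      rw [← Finset.sum_coe_sort A]
      push_cast
      refine Finset.sum_congr rfl fun a _ => ?_
      simp only [cf, b', dif_pos a.2]; ring
    rw [h2, Complex.norm_real, Real.norm_eq_abs, ← abs_of_nonneg (show 0 ≤ r ^ σ by positivity),
      ← abs_mul, Finset.sum_mul]
    refine le_of_eq_of_le ?_ h1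
    congr 1
    refine Finset.sum_congr rfl fun a _ => ?_
    simp only [Mx]; ring
  have hcoeff : ∀ a, coeff a (∑ a ∈ A, monomial a (cf a) : PR m) = if a ∈ A then cf a else 0 := by
    intro a
    simp only [coeff_sum, coeff_monomial]
    rw [Finset.sum_ite_eq']
  refine ⟨∑ a ∈ A, monomial a (cf a), ?_, ?_, ?_⟩
  · obtain ⟨i, hi⟩ := Function.ne_iff.mp hb0
    intro h
    have := hcoeff i.1
    rw [h, if_pos i.2, coeff_zero] at this
    refine mul_ne_zero ?_ ?_ this.symm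
    · simp only [b', dif_pos i.2]; exact_mod_cast hi
    · exact Finset.prod_ne_zero_iff.mpr fun j _ => pow_ne_zero _ (by exact_mod_cast (hQ j).ne')
  · intro a ha
    rw [MvPolynomial.mem_support_iff, hcoeff] at ha
    have haA : a ∈ A := by by_contra h; exact ha (if_neg h)
    simpa using hA a haA
  intro k hk
  set g : Fin m → ℂ := fun j => (k : ℂ) * (2 * Complex.I * p j / q j) with hg
  set s := scl S τ D with hs
  have hspos : ∀ i, 0 < s i := by
    intro i
    refine Fin.cases ?_ (fun j => ?_) i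
    · simpa [hs, scl] using hS0
    · have : (0 : ℝ) < D j := by exact_mod_cast hD j
      simp only [hs, scl, Fin.cons_succ]; positivity
  by_contra hcon
  unfold Ind at hcon
  push Not at hcon
  obtain ⟨t₀, ht₀, ht₀1⟩ := hcon
  obtain ⟨t, ht, hmin⟩ := Finset.exists_min_image _ (wt s) ⟨t₀, ht₀⟩
  have ht1 : wt s t < 1 := (hmin t₀ ht₀).trans_lt ht₀1
  set y : ℝ := ∑ j : Fin m, (t j.succ : ℝ) / (D j : ℝ) with hy
  have hy0 : 0 ≤ y := Finset.sum_nonneg fun j _ => by positivity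
  have hyτ : y ≤ τ := by
    have h1 : wt s t = (t 0 : ℝ) / S + y / τ := by
      rw [wt, Fin.sum_univ_succ, hy, Finset.sum_div]
      simp only [hs, scl, Fin.cons_zero, Fin.cons_succ]
      congr 1
      refine Finset.sum_congr rfl fun j _ => ?_
      rw [div_div, mul_comm]
    have h2 : (0 : ℝ) ≤ (t 0 : ℝ) / S := by positivity
    have h3 : y / τ ≤ 1 := by linarith
    rwa [div_le_one hτ] at h3
  have hlow : Real.exp (H * y) ≤ ‖coeff t (psi g n (∑ a ∈ A, monomial a (cf a)))‖ :=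
    (AuxPA.le_prod_pow hD (fun j => (q j : ℝ)) (fun j => by exact_mod_cast hq j) H hD1
      (fun j => t j.succ)).trans (arith A b' p q n hq k t (MvPolynomial.mem_support_iff.mp ht))
  set Mb : ℝ := max (2 / X ^ 2) (X ^ 9 * eH * Real.exp (-(ν * H * (x₁ - y)))) with hMb
  have hup : ‖coeff t (psi g n (∑ a ∈ A, monomial a (cf a)))‖ ≤ X * Mb := by
    refine coeff_bound hspos (fun j => by simpa [hs, scl] using hn j) g A cf t hmin _ ?_
    intro w hw
    set z : ℂ := 2 * Real.pi * Complex.I * k + w with hz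
    let d : Fin m → ℂ := fun j => g j - 2 * Real.pi * Complex.I * k
    have hkK : (k : ℝ) + 1 ≤ K := by exact_mod_cast hk
    have hk0 : (0 : ℝ) ≤ k := Nat.cast_nonneg _
    have hzr : ‖z‖ ≤ r := by
      have h1 : ‖z‖ ≤ 2 * Real.pi * k + 1 := by
        refine (norm_add_le _ _).trans ?_
        rw [hw]
        simp [abs_of_pos Real.pi_pos]
      have h2 := Real.pi_lt_d2
      rw [hr]; nlinarith
    have hd : ∀ j, ‖d j‖ ≤ 2 * K * (1 / (q j : ℝ) ^ ν) := by
      intro j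
      have h1 : d j = -(2 * Complex.I * k) * ((Real.pi - (p j : ℝ) / (q j : ℝ) : ℝ) : ℂ) := by
        simp only [d, hg]; push_cast; ring
      rw [h1, norm_mul, Complex.norm_real, Real.norm_eq_abs]
      have h2 : ‖-(2 * Complex.I * k)‖ = 2 * k := by simp
      rw [h2]
      exact mul_le_mul (by linarith) (happ j).le (abs_nonneg _) (by positivity)
    have hsum : ∑ a ∈ A, cf a * (∏ j : Fin m, ((a j.succ).choose (t j.succ) : ℂ) *
        (g j + w) ^ (a j.succ - t j.succ)) * Complex.exp (a 0 * w) =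
        ∑ a ∈ A, cf a * (∏ j : Fin m, ((a j.succ).choose (t j.succ) : ℂ) *
        (z + d j) ^ (a j.succ - t j.succ)) * Complex.exp (a 0 * z) := by
      refine Finset.sum_congr rfl fun a _ => ?_
      have h1 : ∀ j, z + d j = g j + w := fun j => by simp only [hz, d]; ring
      have h2 : Complex.exp (a 0 * z) = Complex.exp (a 0 * w) := by
        have : (a 0 : ℂ) * z = a 0 * w + ((a 0 * k : ℕ) : ℂ) * (2 * Real.pi * Complex.I) := by
          rw [hz]; push_cast; ring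
        rw [this, Complex.exp_add, Complex.exp_nat_mul_two_pi_mul_I, mul_one]
      simp only [h1, h2]
    rw [hsum, expand A cf D hAle (fun j => t j.succ) z d]
    refine (norm_sum_le _ _).trans ?_
    have hMb0 : 0 ≤ Mb := le_max_of_le_left (by positivity)
    have hterm : ∀ t' ∈ AuxPA.box D,
        ‖(∏ j, ((t' j).choose (t j.succ) : ℂ) * d j ^ (t' j - t j.succ)) * Phi A cf t' z‖ ≤ Mb := by
      intro t' ht'
      by_cases htt : ∀ j, t j.succ ≤ t' j
      swap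
      · push Not at htt
        obtain ⟨j, hj⟩ := htt
        rw [Finset.prod_eq_zero (Finset.mem_univ j) (by simp [Nat.choose_eq_zero_of_lt hj])]
        simpa using hMb0
      have hf := AuxPA.factor_le hD q hq ν H (2 * K) (by linarith) (by linarith) hD1 d hd
        (fun j => t j.succ) t' ht' htt
      rw [← hEdef, ← hy] at hf
      set y' : ℝ := ∑ j, (t' j : ℝ) / (D j : ℝ) with hy'
      have hyy : y ≤ y' := Finset.sum_le_sum fun j _ => by
        have : (t j.succ : ℝ) ≤ t' j := by exact_mod_cast htt j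
        gcongr
      have hνH : 0 ≤ ν * H := by positivity
      rw [norm_mul]
      by_cases hT : t' ∈ 𝒯
      · have h1 := Phi_small A cf t' ℓ E S (eH * X ^ 2) r ρ η (by linarith) hρ (by positivity) hcf
          (hsmall t' hT) z hzr
        have h2 : eH * X ^ 11 ≤ ρ ^ S := by
          rw [← Real.exp_log (show 0 < ρ ^ S by positivity), Real.log_pow, heH, hX,
            ← Real.exp_nat_mul, ← Real.exp_add]
          apply Real.exp_le_exp.mpr
          push_cast; linarith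
        have h3 : ‖Phi A cf t' z‖ ≤ 2 / X ^ 4 := by
          refine h1.trans ?_
          have e1 : S * η ≤ 1 / X ^ 4 := by
            calc S * η ≤ X * η := by gcongr
              _ = 1 / X ^ 4 := by rw [hη]; field_simp
          have e2 : A.card * (eH * X ^ 2) * (2 ^ E * (ρ * r) ^ E * Real.exp (ℓ * (ρ * r))) / ρ ^ S ≤
              1 / X ^ 4 := by
            calc _ ≤ X ^ 2 * (eH * X ^ 2) * (X * X * X) / (eH * X ^ 11) := by gcongr
              _ = 1 / X ^ 4 := by field_simp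
          have : 2 / X ^ 4 = 1 / X ^ 4 + 1 / X ^ 4 := by ring
          linarith
        have h4 : Real.exp (-(ν * H * (y' - y))) ≤ 1 := by
          apply Real.exp_le_one_iff.mpr
          have : 0 ≤ ν * H * (y' - y) := mul_nonneg hνH (by linarith)
          linarith
        refine le_trans ?_ (le_max_left _ _)
        calc _ ≤ (X * X * 1) * (2 / X ^ 4) :=
              mul_le_mul (hf.trans (by gcongr)) h3 (norm_nonneg _) (by positivity)
          _ = 2 / X ^ 2 := by field_simp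
      · have hx : x₁ ≤ y' := by
          by_contra h
          exact hT (Finset.mem_filter.mpr ⟨ht', lt_of_not_ge h⟩)
        have h1 := Phi_le A cf t' ℓ E (eH * X ^ 2) r (by linarith) (by positivity) hcf z hzr
        have h3 : ‖Phi A cf t' z‖ ≤ X ^ 2 * (eH * X ^ 2) * (X * X * X) := h1.trans (by gcongr)
        have h4 : Real.exp (-(ν * H * (y' - y))) ≤ Real.exp (-(ν * H * (x₁ - y))) := by
          apply Real.exp_le_exp.mpr
          have : ν * H * (x₁ - y) ≤ ν * H * (y' - y) := by gcongr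
          linarith
        refine le_trans ?_ (le_max_right _ _)
        calc _ ≤ (X * X * Real.exp (-(ν * H * (x₁ - y)))) * (X ^ 2 * (eH * X ^ 2) * (X * X * X)) :=
              mul_le_mul (hf.trans (by gcongr)) h3 (norm_nonneg _) (by positivity)
          _ = _ := by ring
    calc _ ≤ (AuxPA.box D).card • Mb := Finset.sum_le_card_nsmul _ _ _ hterm
      _ ≤ X * Mb := by
        rw [nsmul_eq_mul]
        gcongr
        exact (AuxPA.card_box D).trans h2E
  have hlt : X * Mb < Real.exp (H * y) := by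
    rw [hMb, mul_max_of_nonneg _ _ hX0.le, max_lt_iff]
    constructor
    · have h1 : 1 ≤ Real.exp (H * y) := Real.one_le_exp (by positivity)
      have h2 : X * (2 / X ^ 2) = 2 / X := by field_simp
      have h3 : 2 / X < 1 := (div_lt_one hX0).mpr hX2
      linarith
    · have h1 : X * (X ^ 9 * eH * Real.exp (-(ν * H * (x₁ - y)))) =
          Real.exp (H * (10 * κ + 1 - ν * (x₁ - y))) := by
        rw [← mul_assoc, ← mul_assoc, ← pow_succ', heH, hX, ← Real.exp_nat_mul, ← Real.exp_add,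
          ← Real.exp_add]
        congr 1; push_cast; ring
      rw [h1]
      apply Real.exp_lt_exp.mpr
      apply mul_lt_mul_of_pos_left _ hH0
      nlinarith
  linarith

end Crest.Agent.R11Z
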