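import Mathlib

/-!
# Row 11, zero estimate: definitions (helper29)

`PR m = ℂ[Y, x_1, …, x_m]`, variable `0` is `Y`, variable `j.succ` is `x_j`.
The analytic curve is `z ↦ (Y, x) = (e^z, z, …, z)`; `dv m 0 = Y ∂_Y + ∑ ∂_{x_j}` is the
derivation along it, `dv m j.succ = ∂_{x_j}`.
`psi g n` rewrites a polynomial in the local coordinates `u = Y - 1` (variable `0`) and
`ξ_j = x_j - g j - Lg (n j) (u)` (variable `j.succ`), `Lg n` the truncated `log (1+u)`.
-/

set_option autoImplicit false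
open MvPolynomial Module

namespace Crest.Agent.R11Z

/-- dimension of the image of `V` in `R ⧸ a` -/
noncomputable def hdim {F R : Type*} [Field F] [CommRing R] [Algebra F R]
    (V : Submodule F R) (a : Ideal R) : ℕ :=
  finrank F (V.map (Ideal.Quotient.mkₐ F a).toLinearMap)

/-- dimension of `R ⧸ a` -/
noncomputable def qdim (F : Type*) {R : Type*} [Field F] [CommRing R] [Algebra F R]
    (a : Ideal R) : ℕ :=
  finrank F (R ⧸ a)

/-- exhaustive multiplicative filtration by finite-dimensional subspaces -/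
structure Filt (F R : Type*) [Field F] [CommRing R] [Algebra F R] where
  V : ℕ → Submodule F R
  fin : ∀ n, FiniteDimensional F (V n)
  mono : Monotone V
  one : (1 : R) ∈ V 0
  mul : ∀ a b x y, x ∈ V a → y ∈ V b → x * y ∈ V (a + b)
  exh : ∀ x, ∃ n, x ∈ V n

/-- decreasing multiplicative filtration by ideals of finite codimension -/
structure IFilt (F R : Type*) [Field F] [CommRing R] [Algebra F R] where
  I : ℕ → Ideal R
  anti : Antitone I
  mul : ∀ a b x y, x ∈ I a → y ∈ I b → x * y ∈ I (a + b)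
  fin : ∀ n, FiniteDimensional F (R ⧸ I n)

/-- apply the derivations listed in `l` (head first) -/
def dl {σ R : Type*} [CommRing R] [Algebra ℂ R] (δ : σ → Derivation ℂ R R) :
    List σ → R → R
  | [], x => x
  | b :: l, x => dl δ l (δ b x)

/-- weight of a list of derivations, `s b` = scale of the direction `b` -/
noncomputable def wl {σ : Type*} (s : σ → ℝ) (l : List σ) : ℝ := (l.map fun b => 1 / s b).sum

/-- elements all of whose derivatives of weight `< β` lie in `q` (an ideal, see `Der`) -/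
def Jet {σ R : Type*} [CommRing R] [Algebra ℂ R] (δ : σ → Derivation ℂ R R) (s : σ → ℝ)
    (q : Ideal R) (β : ℝ) (x : R) : Prop :=
  ∀ l : List σ, wl s l < β → dl δ l x ∈ q

abbrev PR (m : ℕ) := MvPolynomial (Fin (m + 1)) ℂ

/-- truncated `log (1 + u)`, `u = X 0` -/
noncomputable def Lg (m n : ℕ) : PR m :=
  ∑ i ∈ Finset.range n, C ((-1 : ℂ) ^ i / ((i : ℂ) + 1)) * X 0 ^ (i + 1)

/-- change to local coordinates at the point `(Y, x) = (1, g)` -/
noncomputable def psi {m : ℕ} (g : Fin m → ℂ) (n : Fin m → ℕ) : PR m →ₐ[ℂ] PR m :=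
  aeval (Fin.cons (1 + X 0) (fun j => C (g j) + X j.succ + Lg m (n j)) : Fin (m + 1) → PR m)

/-- the point `(Y, x) = (1, g)` -/
def pt {m : ℕ} (g : Fin m → ℂ) : Fin (m + 1) → ℂ := Fin.cons 1 g

/-- weight of an exponent vector for the scales `s` -/
noncomputable def wt {r : ℕ} (s : Fin r → ℝ) (t : Fin r →₀ ℕ) : ℝ := ∑ i, (t i : ℝ) / s i

/-- the jet scales `S` (for `u`) and `τ D_j` (for `ξ_j`) -/
noncomputable def scl {m : ℕ} (S : ℕ) (τ : ℝ) (D : Fin m → ℕ) : Fin (m + 1) → ℝ :=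
  Fin.cons (S : ℝ) (fun j => τ * (D j : ℝ))

/-- all monomials of `Q` have weight at least `β` -/
def Ind {m : ℕ} (s : Fin (m + 1) → ℝ) (β : ℝ) (Q : PR m) : Prop :=
  ∀ t ∈ Q.support, β ≤ wt s t

/-- the derivations `∂ = Y ∂_Y + ∑ ∂_{x_j}` (index `0`) and `∂_{x_j}` (index `j.succ`) -/
noncomputable def dv (m : ℕ) : Fin (m + 1) → Derivation ℂ (PR m) (PR m) :=
  Fin.cons (mkDerivation ℂ (Fin.cons (X 0) (fun _ => 1) : Fin (m + 1) → PR m))
    (fun j => pderiv j.succ)

/-- Newton polytope contained in `n • ([0, ℓ] × simplex D)` -/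
def Deg {m : ℕ} (ℓ : ℕ) (D : Fin m → ℕ) (n : ℕ) (P : PR m) : Prop :=
  ∀ a ∈ P.support, a 0 ≤ n * ℓ ∧ ∑ j : Fin m, (a j.succ : ℝ) / (D j : ℝ) ≤ n

end Crest.Agent.R11Z
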