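import Crest.Agent.R11Z.Defs

/-!
# Row 11: jets along an ideal

`Jet δ s q β` is an ideal (`jetI`), multiplicative (Leibniz, induction on the list generalising
the elements and the weights), and the monomials in "local parameters" are independent modulo it.

`jet_indep`: take `t₀` with `α t₀ ≠ 0` of minimal total degree `r`; let `l` be a list with
`t₀ j` copies of `β j`. For `x ∈ q ^ (r+1)` a list of length `r` gives an element of `q`
(`dl_pow_mem`). For `|t| = r`, `dl l (α * ∏ g^t) ≡ α * (∏ t j !) * s₀ ^ r * [t = t₀]` mod `q`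
(induction on `r`: `δ (β j) (α g^t) ≡ α * t j * s₀ * g^(t - e_j)` mod `q ^ r`). As `q` is prime,
`s₀ ∉ q` and nonzero naturals are units, `α t₀ ∈ q`, so `α t₀ = 0`.
-/

set_option autoImplicit false
open MvPolynomial Module

namespace Crest.Agent.R11Z

variable {σ R : Type*} [CommRing R] [Algebra ℂ R]

theorem dl_append (δ : σ → Derivation ℂ R R) (l₁ l₂ : List σ) (x : R) :
    dl δ (l₁ ++ l₂) x = dl δ l₂ (dl δ l₁ x) := by
  induction l₁ generalizing x with
  | nil => rfl
  | cons b l ih => exact ih _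

theorem wl_append (s : σ → ℝ) (l₁ l₂ : List σ) : wl s (l₁ ++ l₂) = wl s l₁ + wl s l₂ := by
  simp [wl]

theorem wl_nonneg (s : σ → ℝ) (hs : ∀ b, 0 < s b) (l : List σ) : 0 ≤ wl s l := by
  refine List.sum_nonneg fun x hx => ?_
  obtain ⟨b, -, rfl⟩ := List.mem_map.mp hx
  exact (one_div_pos.mpr (hs b)).le

theorem dl_add (δ : σ → Derivation ℂ R R) (l : List σ) (x y : R) :
    dl δ l (x + y) = dl δ l x + dl δ l y := by
  induction l generalizing x y with
  | nil => rfl
  | cons b l ih => simp only [dl, map_add, ih]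

theorem Jet.mono {δ : σ → Derivation ℂ R R} {s : σ → ℝ} {q : Ideal R} {β β' : ℝ} {x : R}
    (h : Jet δ s q β x) (hβ : β' ≤ β) : Jet δ s q β' x := by
  exact fun l hl => h l (lt_of_lt_of_le hl hβ)

theorem wl_cons (s : σ → ℝ) (b : σ) (l : List σ) : wl s (b :: l) = 1 / s b + wl s l := by
  simp [wl]

theorem dl_zero (δ : σ → Derivation ℂ R R) (l : List σ) : dl δ l (0 : R) = 0 := by
  induction l with
  | nil => rfl
  | cons b l ih => simp only [dl, map_zero, ih]

theorem dl_sum (δ : σ → Derivation ℂ R R) (l : List σ) {α : Type*} (T : Finset α) (f : α → R) :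
    dl δ l (∑ t ∈ T, f t) = ∑ t ∈ T, dl δ l (f t) := by
  classical
  induction T using Finset.induction_on with
  | empty => simp [dl_zero]
  | insert a T ha ih => rw [Finset.sum_insert ha, Finset.sum_insert ha, dl_add, ih]

theorem Jet.der {δ : σ → Derivation ℂ R R} {s : σ → ℝ} {q : Ideal R} {β : ℝ} {x : R}
    (h : Jet δ s q β x) (b : σ) : Jet δ s q (β - 1 / s b) (δ b x) := by
  intro l hl
  exact h (b :: l) (by rw [wl_cons]; linarith)

theorem Jet.mul {δ : σ → Derivation ℂ R R} {s : σ → ℝ} {q : Ideal R}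
    {β β' : ℝ} {x y : R} (hx : Jet δ s q β x) (hy : Jet δ s q β' y) :
    Jet δ s q (β + β') (x * y) := by
  intro l
  induction l generalizing x y β β' with
  | nil =>
    intro hl
    have h0 : wl s ([] : List σ) = 0 := rfl
    by_cases hβ : 0 < β
    · exact q.mul_mem_right _ (hx [] (by rw [h0]; exact hβ))
    · exact q.mul_mem_left _ (hy [] (by rw [h0] at hl ⊢; linarith))
  | cons b l ih =>
    intro hl
    rw [wl_cons] at hl
    show dl δ l (δ b (x * y)) ∈ q
    rw [Derivation.leibniz, smul_eq_mul, smul_eq_mul, dl_add, mul_comm y]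
    exact q.add_mem (ih hx (hy.der b) (by linarith)) (ih (hx.der b) hy (by linarith))

/-- `Jet` as an ideal -/
noncomputable def jetI (δ : σ → Derivation ℂ R R) (s : σ → ℝ) (hs : ∀ b, 0 < s b) (q : Ideal R)
    (β : ℝ) : Ideal R where
  carrier := {x | Jet δ s q β x}
  add_mem' := by
    intro x y hx hy l hl
    rw [dl_add]
    exact q.add_mem (hx l hl) (hy l hl)
  zero_mem' := by
    intro l _
    rw [dl_zero]
    exact q.zero_mem
  smul_mem' := by
    intro c x hx
    have hc : Jet δ s q 0 c := fun l hl => absurd hl (not_lt.mpr (wl_nonneg s hs l))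
    have := hc.mul hx
    rwa [zero_add] at this

theorem mem_jetI {δ : σ → Derivation ℂ R R} {s : σ → ℝ} {hs : ∀ b, 0 < s b} {q : Ideal R}
    {β : ℝ} {x : R} : x ∈ jetI δ s hs q β ↔ Jet δ s q β x := Iff.rfl

/-- every element of `q` has a power in every jet ideal -/
theorem exists_pow_jet [Fintype σ] (δ : σ → Derivation ℂ R R) (s : σ → ℝ) (hs : ∀ b, 0 < s b)
    (q : Ideal R) (β : ℝ) : ∃ N : ℕ, 0 < N ∧ ∀ x ∈ q, Jet δ s q β (x ^ N) := by
  have hS : 0 ≤ ∑ b, s b := Finset.sum_nonneg fun b _ => (hs b).le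
  set ε : ℝ := 1 / (1 + ∑ b, s b) with hε
  have hε0 : 0 < ε := by positivity
  have h1 : ∀ x ∈ q, Jet δ s q ε x := by
    intro x hx l hl
    cases l with
    | nil => exact hx
    | cons b l =>
      exfalso
      rw [wl_cons] at hl
      have h2 : s b ≤ ∑ b, s b := Finset.single_le_sum (fun b _ => (hs b).le) (Finset.mem_univ b)
      have h3 : ε ≤ 1 / s b := one_div_le_one_div_of_le (hs b) (by linarith)
      linarith [wl_nonneg s hs l]
  have h2 : ∀ x ∈ q, ∀ N : ℕ, Jet δ s q (N * ε) (x ^ N) := by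
    intro x hx N
    induction N with
    | zero => exact fun l hl => absurd hl (by simpa using wl_nonneg s hs l)
    | succ N ih =>
      rw [pow_succ]
      exact (ih.mul (h1 x hx)).mono (by push_cast; linarith)
  obtain ⟨N, hN⟩ := exists_nat_ge (β / ε)
  refine ⟨N + 1, by omega, fun x hx => (h2 x hx (N + 1)).mono ?_⟩
  rw [div_le_iff₀ hε0] at hN
  push_cast
  linarith

theorem der_mem_pow (D : Derivation ℂ R R) (q : Ideal R) (k : ℕ) :
    ∀ x ∈ q ^ (k + 1), D x ∈ q ^ k := by
  induction k with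
  | zero => intro x _; simp
  | succ k ih =>
    intro x hx
    rw [pow_succ] at hx
    refine Submodule.mul_induction_on hx (fun a ha b hb => ?_) fun x y hx hy => ?_
    · rw [Derivation.leibniz, smul_eq_mul, smul_eq_mul]
      refine Ideal.add_mem _ (Ideal.mul_mem_right _ _ ha) ?_
      rw [pow_succ']
      exact Ideal.mul_mem_mul hb (ih a ha)
    · rw [map_add]; exact Ideal.add_mem _ hx hy

theorem dl_pow_mem (δ : σ → Derivation ℂ R R) (q : Ideal R) (l : List σ) :
    ∀ x ∈ q ^ (l.length + 1), dl δ l x ∈ q := by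
  induction l with
  | nil => intro x hx; simpa [dl] using hx
  | cons b l ih => intro x hx; exact ih _ (der_mem_pow _ q _ x hx)

theorem der_pow_sub (D : Derivation ℂ R R) (q : Ideal R) {g u : R} (hg : g ∈ q) (hu : D g - u ∈ q)
    (n : ℕ) : D (g ^ n) - n * u * g ^ (n - 1) ∈ q ^ n := by
  cases n with
  | zero => simp
  | succ n =>
    have : D (g ^ (n + 1)) - ((n + 1 : ℕ) : R) * u * g ^ (n + 1 - 1) =
        ((n + 1 : ℕ) : R) * (g ^ n * (D g - u)) := by
      rw [Derivation.leibniz_pow]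
      simp only [Nat.add_sub_cancel, smul_eq_mul, nsmul_eq_mul]
      ring
    rw [this, pow_succ]
    exact Ideal.mul_mem_left _ _ (Ideal.mul_mem_mul (Ideal.pow_mem_pow hg n) hu)

omit [Algebra ℂ R] in
theorem prod_pow_mem {J : Type*} (q : Ideal R) (g : J → R) (t : J → ℕ) (S : Finset J)
    (hg : ∀ j ∈ S, g j ∈ q) : ∏ j ∈ S, g j ^ t j ∈ q ^ ∑ j ∈ S, t j := by
  rw [← Finset.prod_pow_eq_pow_sum]
  exact Ideal.prod_mem_prod fun j hj => Ideal.pow_mem_pow (hg j hj) _

theorem der_prod_mem {J : Type*} (D : Derivation ℂ R R) (q : Ideal R) (g : J → R) (t : J → ℕ)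
    (S : Finset J) (hg : ∀ j ∈ S, g j ∈ q ∧ D (g j) ∈ q) :
    D (∏ j ∈ S, g j ^ t j) ∈ q ^ ∑ j ∈ S, t j := by
  classical
  induction S using Finset.induction_on with
  | empty => simp
  | insert a S ha ih =>
    have h1 := hg a (Finset.mem_insert_self _ _)
    have h2 := fun j hj => hg j (Finset.mem_insert_of_mem (b := a) hj)
    rw [Finset.prod_insert ha, Finset.sum_insert ha, Derivation.leibniz, smul_eq_mul, smul_eq_mul,
      pow_add, mul_comm (∏ j ∈ S, g j ^ t j)]
    refine Ideal.add_mem _ (Ideal.mul_mem_mul (Ideal.pow_mem_pow h1.1 _) (ih h2))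
      (Ideal.mul_mem_mul ?_ (prod_pow_mem q g t S fun j hj => (h2 j hj).1))
    simpa using der_pow_sub D q (u := 0) h1.1 (by simpa using h1.2) (t a)

theorem dl_mon {J : Type*} [Fintype J] [DecidableEq J] (δ : σ → Derivation ℂ R R)
    (q : Ideal R) (β : J → σ) (g : J → R) (s₀ : R) (hg : ∀ j, g j ∈ q)
    (hδ : ∀ j j', δ (β j') (g j) - (if j' = j then s₀ else 0) ∈ q) (l : List J) :
    ∀ (t : J → ℕ) (α : R), ∑ j, t j = l.length → ∃ c : ℕ, (c = 0 ↔ t ≠ fun j => l.count j) ∧
      dl δ (l.map β) (α * ∏ j, g j ^ t j) - c * α * s₀ ^ l.length ∈ q := by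
  induction l with
  | nil =>
    intro t α ht
    have h0 : t = fun _ => 0 := by
      funext j
      exact (Finset.sum_eq_zero_iff.mp ht) j (Finset.mem_univ j)
    subst h0
    exact ⟨1, by simp, by simp [dl]⟩
  | cons j₀ l ih =>
    intro t α ht
    set r := ∏ j ∈ Finset.univ.erase j₀, g j ^ t j with hr
    have e1 : ∏ j, g j ^ t j = g j₀ ^ t j₀ * r := (Finset.mul_prod_erase _ _ (Finset.mem_univ j₀)).symm
    have e2 : t j₀ + ∑ j ∈ Finset.univ.erase j₀, t j = l.length + 1 :=
      (Finset.add_sum_erase _ _ (Finset.mem_univ j₀)).trans ht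
    have hr1 : r ∈ q ^ ∑ j ∈ Finset.univ.erase j₀, t j := prod_pow_mem q g t _ fun j _ => hg j
    have hr2 : δ (β j₀) r ∈ q ^ ∑ j ∈ Finset.univ.erase j₀, t j :=
      der_prod_mem _ q g t _ fun j hj => ⟨hg j, by
        simpa [(Finset.ne_of_mem_erase hj).symm] using hδ j j₀⟩
    have hg0 := der_pow_sub (δ (β j₀)) q (u := s₀) (hg j₀) (by simpa using hδ j₀ j₀) (t j₀)
    set E := δ (β j₀) (α * ∏ j, g j ^ t j) - α * t j₀ * s₀ * (g j₀ ^ (t j₀ - 1) * r) with hE
    have hEq : E ∈ q ^ (l.length + 1) := by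
      have : E = δ (β j₀) α * (g j₀ ^ t j₀ * r) + α * (g j₀ ^ t j₀ * δ (β j₀) r) +
          α * ((δ (β j₀) (g j₀ ^ t j₀) - t j₀ * s₀ * g j₀ ^ (t j₀ - 1)) * r) := by
        rw [hE, e1, Derivation.leibniz, Derivation.leibniz]
        simp only [smul_eq_mul]
        ring
      rw [this, ← e2, pow_add]
      exact Ideal.add_mem _ (Ideal.add_mem _
        (Ideal.mul_mem_left _ _ (Ideal.mul_mem_mul (Ideal.pow_mem_pow (hg j₀) _) hr1))
        (Ideal.mul_mem_left _ _ (Ideal.mul_mem_mul (Ideal.pow_mem_pow (hg j₀) _) hr2)))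
        (Ideal.mul_mem_left _ _ (Ideal.mul_mem_mul hg0 hr1))
    have hE2 : dl δ (l.map β) E ∈ q := dl_pow_mem δ q _ E (by simpa using hEq)
    have e3 : dl δ ((j₀ :: l).map β) (α * ∏ j, g j ^ t j) =
        dl δ (l.map β) E + dl δ (l.map β) (α * t j₀ * s₀ * (g j₀ ^ (t j₀ - 1) * r)) := by
      rw [← dl_add, hE, sub_add_cancel]; rfl
    rw [e3]
    rcases Nat.eq_zero_or_pos (t j₀) with h0 | h0
    · refine ⟨0, ⟨fun _ e => ?_, fun _ => rfl⟩, ?_⟩
      · have := congrFun e j₀
        rw [h0] at this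
        simp at this
      · simpa [h0, dl_zero] using hE2
    · have e4 : g j₀ ^ (t j₀ - 1) * r = ∏ j, g j ^ Function.update t j₀ (t j₀ - 1) j := by
        rw [← Finset.mul_prod_erase _ _ (Finset.mem_univ j₀), Function.update_self, hr]
        congr 1
        exact Finset.prod_congr rfl fun j hj => by rw [Function.update_of_ne (Finset.ne_of_mem_erase hj)]
      have e5 : ∑ j, Function.update t j₀ (t j₀ - 1) j = l.length := by
        rw [← Finset.add_sum_erase _ _ (Finset.mem_univ j₀), Function.update_self,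
          Finset.sum_congr rfl fun j hj => Function.update_of_ne (Finset.ne_of_mem_erase hj) _ _]
        omega
      obtain ⟨c, hc1, hc2⟩ := ih _ (α * t j₀ * s₀) e5
      refine ⟨c * t j₀, ?_, ?_⟩
      · rw [Nat.mul_eq_zero, or_iff_left h0.ne', hc1, not_iff_not, funext_iff, funext_iff]
        refine forall_congr' fun j => ?_
        by_cases hj : j = j₀
        · subst hj
          rw [Function.update_self, List.count_cons_self]
          omega
        · rw [Function.update_of_ne hj, List.count_cons_of_ne (Ne.symm hj)]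
      · rw [e4]
        convert q.add_mem hE2 hc2 using 1
        rw [List.length_cons]
        push_cast
        ring

theorem list_sum_count {J K : Type*} [Fintype J] [DecidableEq J] [Semiring K] (f : J → K) (l : List J) :
    (l.map f).sum = ∑ j, (l.count j : K) * f j := by
  induction l with
  | nil => simp
  | cons a l ih =>
    simp only [List.map_cons, List.sum_cons, ih, List.count_cons, Nat.cast_add, add_mul,
      Finset.sum_add_distrib, beq_iff_eq]
    rw [add_comm]
    congr 1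
    simp

theorem exists_list_count {J : Type*} [Fintype J] [DecidableEq J] (t : J → ℕ) :
    ∃ l : List J, ∀ j, l.count j = t j := by
  refine ⟨(∑ j, Multiset.replicate (t j) j).toList, fun j => ?_⟩
  rw [← Multiset.coe_count, Multiset.coe_toList, Multiset.count_sum']
  simp [Multiset.count_replicate]

theorem jet_indep {J : Type*} [Fintype J] [DecidableEq J] (δ : σ → Derivation ℂ R R) (s : σ → ℝ)
    (q : Ideal R) [q.IsPrime] (β : J → σ) (g : J → R) (s₀ : R) (hg : ∀ j, g j ∈ q) (hs₀ : s₀ ∉ q)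
    (hδ : ∀ j j', δ (β j') (g j) - (if j' = j then s₀ else 0) ∈ q)
    (T : Finset (J → ℕ)) (b : ℝ) (hT : ∀ t ∈ T, ∑ j, (t j : ℝ) / s (β j) < b)
    (α : (J → ℕ) → R) (hα : ∀ t ∈ T, α t ∈ q → α t = 0)
    (h : Jet δ s q b (∑ t ∈ T, α t * ∏ j, g j ^ t j)) : ∀ t ∈ T, α t = 0 := by
  classical
  by_contra hc
  push Not at hc
  obtain ⟨t₁, h1, h2⟩ := hc
  obtain ⟨t₀, ht₀, hmin⟩ := Finset.exists_min_image (T.filter fun t => α t ≠ 0) (fun t => ∑ j, t j)
    ⟨t₁, Finset.mem_filter.mpr ⟨h1, h2⟩⟩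
  obtain ⟨ht₀T, ht₀0⟩ := Finset.mem_filter.mp ht₀
  obtain ⟨l, hl⟩ := exists_list_count t₀
  have hlen : ∑ j, t₀ j = l.length := by
    have := list_sum_count (fun _ : J => (1 : ℕ)) l
    simp only [List.map_const', List.sum_replicate, smul_eq_mul, mul_one, Nat.cast_id, hl] at this
    exact this.symm
  have hw : wl s (l.map β) < b := by
    unfold wl
    rw [List.map_map, list_sum_count]
    simpa [hl, div_eq_mul_inv] using hT t₀ ht₀T
  have hq := h _ hw
  rw [dl_sum, ← Finset.add_sum_erase _ _ ht₀T] at hq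
  have hrest : ∑ t ∈ T.erase t₀, dl δ (l.map β) (α t * ∏ j, g j ^ t j) ∈ q := by
    refine q.sum_mem fun t ht => ?_
    by_cases h0 : α t = 0
    · rw [h0, zero_mul, dl_zero]; exact q.zero_mem
    · have hle := hmin t (Finset.mem_filter.mpr ⟨Finset.mem_of_mem_erase ht, h0⟩)
      rcases hle.lt_or_eq with hlt | heq
      · refine dl_pow_mem δ q _ _ (Ideal.mul_mem_left _ _ (Ideal.pow_le_pow_right ?_
          (prod_pow_mem q g t _ fun j _ => hg j)))
        rw [List.length_map]
        omega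
      · obtain ⟨c, hc1, hc2⟩ := dl_mon δ q β g s₀ hg hδ l t (α t) (heq.symm.trans hlen)
        have : c = 0 := hc1.mpr fun e => Finset.ne_of_mem_erase ht (e.trans (funext hl))
        simpa [this] using hc2
  obtain ⟨c, hc1, hc2⟩ := dl_mon δ q β g s₀ hg hδ l t₀ (α t₀) hlen
  have hc0 : c ≠ 0 := fun e => hc1.mp e (funext hl).symm
  have h3 : (c : R) * α t₀ * s₀ ^ l.length ∈ q := by
    have := q.sub_mem ((q.add_mem_iff_left hrest).mp hq) hc2
    simpa using this
  have hp : q.IsPrime := inferInstance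
  rcases hp.mem_or_mem h3 with h4 | h4
  · rcases hp.mem_or_mem h4 with h5 | h5
    · refine hp.ne_top (q.eq_top_of_isUnit_mem h5 ?_)
      rw [← map_natCast (algebraMap ℂ R)]
      exact (IsUnit.mk0 _ (Nat.cast_ne_zero.mpr hc0)).map _
    · exact ht₀0 (hα t₀ ht₀T h5)
  · exact hs₀ (hp.mem_of_pow_mem _ h4)

end Crest.Agent.R11Z
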