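import Crest.Agent.R11Z.Defs

/-!
# Row 11: the Hilbert–Samuel comparison lemma (Noetherian induction)

Write `H_a(n) = hdim (V n) a`, `J_a(n) = ∑ k, qdim F (a ⊔ I k n)`.

* `hdim_step`: `W = image of V n in R/a` maps onto the image in `R/(a ⊔ (f))`; the kernel of
  `R/a → R/(a ⊔ (f))` meets `W` in a space containing the image of (`V (n-d)` mod `a.colon {f}`)
  under the injective map "multiply by `f`" `R/(a : f) → R/a`; rank–nullity.
* `qdim_step`: multiplication by `f` maps `R/c` onto the kernel of `R/b → R/(b ⊔ (f))`.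
* `HS_aux` by `IsNoetherian.induction` / well-founded `>` on ideals `a`, statement for all `L`:
  - `a = ⊤`: trivial (all `qdim = 0`).
  - `a` not prime, `f g ∈ a`, `f, g ∉ a`: both `a.colon {f}` and `a ⊔ (f)` are larger; use `2 L`
    for them, `qdim_step` with `c = a.colon {f} ⊔ I k n`, `hdim_step`, monotonicity and
    `n + n/(2L) + d ≤ n + n/L` for large `n`.
  - `a` prime, first alternative: `J ≤ qdim a = hdim (V N) a` for large `N` (exhaustive).
  - `a` prime, `f ∉ a` so `a.colon {f} = a`: `J(n) ≤ J(n-d) + J'(n)` (`c = a ⊔ I k (n-d)`),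
    `H(N) ≥ H(N-d) + H'(N)`. If `a ⊔ (f) = ⊤` then `a ⊔ I k n = ⊤` for all `n` (powers, antitone).
    Otherwise `H' ≥ 1`, strong induction gives `J(n) ≤ H(n + n/(2L)) + C`, and
    `H(N + C d) ≥ H(N) + C`.
-/

set_option autoImplicit false
open MvPolynomial Module Filter

namespace Crest.Agent.R11Z

variable {F R : Type*} [Field F] [CommRing R] [Algebra F R]

namespace HSA

theorem rank_null {M N : Type*} [AddCommGroup M] [Module F M] [AddCommGroup N] [Module F N]
    (φ : M →ₗ[F] N) (W U : Submodule F M) [FiniteDimensional F W] (h1 : U ≤ W)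
    (h2 : U ≤ LinearMap.ker φ) : finrank F U + finrank F (W.map φ) ≤ finrank F W := by
  have e := LinearMap.finrank_range_add_finrank_ker (φ.domRestrict W)
  rw [LinearMap.range_domRestrict, LinearMap.ker_domRestrict] at e
  have h3 : finrank F U ≤ finrank F ((LinearMap.ker φ).comap W.subtype) := by
    rw [← (Submodule.comapSubtypeEquivOfLe h1).finrank_eq]
    exact Submodule.finrank_mono (Submodule.comap_mono h2)
  omega

/-- multiplication by `f` between quotients -/
noncomputable def mu (F : Type*) {R : Type*} [Field F] [CommRing R] [Algebra F R] (c b : Ideal R) (f : R)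
    (h : ∀ x ∈ c, x * f ∈ b) : (R ⧸ c) →ₗ[F] (R ⧸ b) :=
  (Submodule.liftQ c (Submodule.mkQ b ∘ₗ LinearMap.toSpanSingleton R R f) fun x hx =>
    (Submodule.Quotient.mk_eq_zero b).mpr (h x hx)).restrictScalars F

theorem mu_mk (c b : Ideal R) (f : R) (h : ∀ x ∈ c, x * f ∈ b) (x : R) :
    mu F c b f h (Ideal.Quotient.mk c x) = Ideal.Quotient.mk b (x * f) := rfl

theorem fac_surj {b c : Ideal R} (h : b ≤ c) : Function.Surjective (Ideal.Quotient.factorₐ F h) := by
  intro y
  obtain ⟨x, rfl⟩ := Ideal.Quotient.mk_surjective y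
  exact ⟨Ideal.Quotient.mk b x, rfl⟩

theorem fin_of_le {b c : Ideal R} (h : b ≤ c) [FiniteDimensional F (R ⧸ b)] :
    FiniteDimensional F (R ⧸ c) :=
  Module.Finite.of_surjective (Ideal.Quotient.factorₐ F h).toLinearMap (fac_surj (F := F) h)

theorem qdim_anti {b c : Ideal R} (h : b ≤ c) [FiniteDimensional F (R ⧸ b)] : qdim F c ≤ qdim F b :=
  LinearMap.finrank_le_finrank_of_surjective (f := (Ideal.Quotient.factorₐ F h).toLinearMap) (fac_surj (F := F) h)

theorem qdim_top : qdim F (⊤ : Ideal R) = 0 := by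
  have : Subsingleton (R ⧸ (⊤ : Ideal R)) := Ideal.Quotient.subsingleton_iff.mpr rfl
  exact Module.finrank_zero_of_subsingleton

theorem hdim_mono (V : Filt F R) (a : Ideal R) {n n' : ℕ} (h : n ≤ n') :
    hdim (V.V n) a ≤ hdim (V.V n') a := by
  have := V.fin n'
  exact Submodule.finrank_mono (Submodule.map_mono (V.mono h))

theorem hdim_pos (V : Filt F R) {a : Ideal R} (ha : a ≠ ⊤) (n : ℕ) : 1 ≤ hdim (V.V n) a := by
  have := V.fin n
  refine Submodule.one_le_finrank_iff.mpr ((Submodule.ne_bot_iff _).mpr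
    ⟨_, ⟨1, V.mono (Nat.zero_le n) V.one, rfl⟩, fun e => ha ?_⟩)
  exact (Ideal.eq_top_iff_one a).mpr (Ideal.Quotient.eq_zero_iff_mem.mp e)

theorem hdim_full (V : Filt F R) (a : Ideal R) [FiniteDimensional F (R ⧸ a)] :
    ∃ N, qdim F a ≤ hdim (V.V N) a := by
  obtain ⟨N, hN⟩ := monotone_stabilizes_iff_noetherian.mpr (inferInstance : IsNoetherian F (R ⧸ a))
    ⟨fun n => (V.V n).map (Ideal.Quotient.mkₐ F a).toLinearMap,
      fun _ _ h => Submodule.map_mono (V.mono h)⟩
  refine ⟨N, le_of_eq ?_⟩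
  have e : (V.V N).map (Ideal.Quotient.mkₐ F a).toLinearMap = ⊤ := by
    rw [eq_top_iff]
    intro y _
    obtain ⟨x, rfl⟩ := Ideal.Quotient.mk_surjective y
    obtain ⟨n, hn⟩ := V.exh x
    have h1 : (V.V N).map (Ideal.Quotient.mkₐ F a).toLinearMap =
      (V.V (max N n)).map (Ideal.Quotient.mkₐ F a).toLinearMap := hN (max N n) (le_max_left _ _)
    rw [h1]
    exact ⟨x, V.mono (le_max_right _ _) hn, rfl⟩
  unfold hdim qdim
  rw [e, finrank_top]

theorem ev_div (L : ℕ) (hL : 0 < L) (C : ℕ) : ∀ᶠ n in atTop, n / (2 * L) + C ≤ n / L := by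
  filter_upwards [eventually_ge_atTop (C * (2 * L))] with n hn
  have h1 : C ≤ n / (2 * L) := (Nat.le_div_iff_mul_le (by omega)).mpr hn
  have h2 : n / (2 * L) = n / L / 2 := by rw [Nat.div_div_eq_div_mul, mul_comm]
  omega

theorem mul_mem_sup (I : IFilt F R) (a : Ideal R) {p q : ℕ} {x y : R} (hx : x ∈ a ⊔ I.I p)
    (hy : y ∈ a ⊔ I.I q) : x * y ∈ a ⊔ I.I (p + q) := by
  obtain ⟨x₁, hx₁, x₂, hx₂, rfl⟩ := Submodule.mem_sup.mp hx
  obtain ⟨y₁, hy₁, y₂, hy₂, rfl⟩ := Submodule.mem_sup.mp hy
  have : (x₁ + x₂) * (y₁ + y₂) = (x₁ * (y₁ + y₂) + x₂ * y₁) + x₂ * y₂ := by ring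
  rw [this]
  exact Submodule.add_mem_sup (a.add_mem (a.mul_mem_right _ hx₁) (a.mul_mem_left _ hy₁))
    (I.mul _ _ _ _ hx₂ hy₂)

end HSA

theorem hdim_step (V : Filt F R) (a : Ideal R) (f : R) (d n : ℕ) (hf : f ∈ V.V d) (hn : d ≤ n) :
    hdim (V.V (n - d)) (a.colon {f}) + hdim (V.V n) (a ⊔ Ideal.span {f}) ≤ hdim (V.V n) a := by
  have := V.fin n
  have := V.fin (n - d)
  have hc : ∀ x ∈ a.colon {f}, x * f ∈ a := fun x hx => Submodule.mem_colon_singleton.mp hx
  have hinj : Function.Injective (HSA.mu F _ a f hc) := by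
    rw [injective_iff_map_eq_zero]
    intro y hy
    obtain ⟨x, rfl⟩ := Ideal.Quotient.mk_surjective y
    rw [HSA.mu_mk, Ideal.Quotient.eq_zero_iff_mem] at hy
    exact Ideal.Quotient.eq_zero_iff_mem.mpr (Submodule.mem_colon_singleton.mpr hy)
  have h := HSA.rank_null (Ideal.Quotient.factorₐ F (le_sup_left : a ≤ a ⊔ Ideal.span {f})).toLinearMap
    ((V.V n).map (Ideal.Quotient.mkₐ F a).toLinearMap)
    (((V.V (n - d)).map (Ideal.Quotient.mkₐ F (a.colon {f})).toLinearMap).map (HSA.mu F _ a f hc))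
    (by
      rintro _ ⟨_, ⟨x, hx, rfl⟩, rfl⟩
      refine ⟨x * f, ?_, rfl⟩
      have := V.mul _ _ _ _ hx hf
      rwa [Nat.sub_add_cancel hn] at this)
    (by
      rintro _ ⟨_, ⟨x, -, rfl⟩, rfl⟩
      exact Ideal.Quotient.eq_zero_iff_mem.mpr
        (Ideal.mem_sup_right (Ideal.mul_mem_left _ _ (Ideal.mem_span_singleton_self f))))
  rw [← (Submodule.equivMapOfInjective _ hinj _).finrank_eq, ← Submodule.map_comp] at h
  exact h

theorem qdim_step (b c : Ideal R) (f : R) [FiniteDimensional F (R ⧸ b)]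
    [FiniteDimensional F (R ⧸ c)] (h : ∀ x ∈ c, x * f ∈ b) :
    qdim F b ≤ qdim F c + qdim F (b ⊔ Ideal.span {f}) := by
  have e := LinearMap.finrank_range_add_finrank_ker
    (Ideal.Quotient.factorₐ F (le_sup_left : b ≤ b ⊔ Ideal.span {f})).toLinearMap
  have h1 : LinearMap.ker (Ideal.Quotient.factorₐ F (le_sup_left : b ≤ b ⊔ Ideal.span {f})).toLinearMap ≤
      LinearMap.range (HSA.mu F c b f h) := by
    intro y hy
    obtain ⟨x, rfl⟩ := Ideal.Quotient.mk_surjective y
    have hx : x ∈ b ⊔ Ideal.span {f} := Ideal.Quotient.eq_zero_iff_mem.mp hy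
    obtain ⟨x₁, hx₁, x₂, hx₂, rfl⟩ := Submodule.mem_sup.mp hx
    obtain ⟨z, rfl⟩ := Ideal.mem_span_singleton'.mp hx₂
    refine ⟨Ideal.Quotient.mk c z, ?_⟩
    rw [HSA.mu_mk, map_add, Ideal.Quotient.eq_zero_iff_mem.mpr hx₁, zero_add]
  have h2 := (Submodule.finrank_mono h1).trans (LinearMap.finrank_range_le _)
  rw [LinearMap.range_eq_top.mpr (HSA.fac_surj (F := F) le_sup_left), finrank_top] at e
  unfold qdim
  omega

theorem HS_aux [IsNoetherianRing R] (V : Filt F R) {ι : Type*} [Fintype ι] (I : ι → IFilt F R)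
    (h : ∀ p : Ideal R, p.IsPrime →
      (FiniteDimensional F (R ⧸ p) ∧ ∃ k₀, ∀ k, k ≠ k₀ → ∀ n, p ⊔ (I k).I n = ⊤) ∨
      ∃ d, 0 < d ∧ ∃ f ∈ V.V d, f ∉ p ∧ ∀ k, f ∈ p ⊔ (I k).I d) (a : Ideal R) :
    ∀ L : ℕ, 0 < L → ∀ᶠ n in atTop, ∑ k, qdim F (a ⊔ (I k).I n) ≤ hdim (V.V (n + n / L)) a := by
  classical
  have hfin : ∀ (a : Ideal R) k n, FiniteDimensional F (R ⧸ (a ⊔ (I k).I n)) := fun a k n =>
    have := (I k).fin n
    HSA.fin_of_le le_sup_right
  induction a using IsNoetherian.induction with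
  | hgt a ih =>
    change Ideal R at a
    intro L hL
    by_cases htop : a = ⊤
    · subst htop
      exact Eventually.of_forall fun n => by simp [HSA.qdim_top]
    by_cases hp : a.IsPrime
    · rcases h a hp with ⟨hf, k₀, hk₀⟩ | ⟨d, hd, f, hfV, hfa, hfI⟩
      · obtain ⟨N, hN⟩ := HSA.hdim_full V a
        filter_upwards [eventually_ge_atTop N] with n hn
        rw [Finset.sum_eq_single k₀ (fun k _ hk => by rw [hk₀ k hk, HSA.qdim_top]) (by simp)]
        exact (HSA.qdim_anti le_sup_left).trans (hN.trans (HSA.hdim_mono V a (le_add_right hn)))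
      · have hlt : a < a ⊔ Ideal.span {f} := lt_of_le_of_ne le_sup_left fun e =>
          hfa (e ▸ Ideal.mem_sup_right (Ideal.mem_span_singleton_self f))
        by_cases hb : a ⊔ Ideal.span {f} = ⊤
        · have h1 : ∀ k, a ⊔ (I k).I d = ⊤ := fun k => by
            rw [eq_top_iff, ← hb]
            exact sup_le le_sup_left ((Ideal.span_singleton_le_iff_mem _).mpr (hfI k))
          have h2 : ∀ k m, (1 : R) ∈ a ⊔ (I k).I ((m + 1) * d) := by
            intro k m
            induction m with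
            | zero => rw [zero_add, one_mul, h1]; trivial
            | succ m ih =>
              have := HSA.mul_mem_sup (I k) a ih (show (1 : R) ∈ a ⊔ (I k).I d by rw [h1]; trivial)
              rwa [one_mul, ← add_one_mul] at this
          refine Eventually.of_forall fun n => ?_
          have h3 : ∀ k, a ⊔ (I k).I n = ⊤ := fun k => (Ideal.eq_top_iff_one _).mpr
            (sup_le_sup_left ((I k).anti (show n ≤ (n + 1) * d by nlinarith)) a (h2 k n))
          simp [h3, HSA.qdim_top]
        · have hcol : a.colon {f} = a := by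
            ext x
            rw [Submodule.mem_colon_singleton]
            exact ⟨fun hx => (hp.mem_or_mem hx).resolve_right hfa, fun hx => a.mul_mem_right _ hx⟩
          have hH : ∀ N, d ≤ N → hdim (V.V (N - d)) a + hdim (V.V N) (a ⊔ Ideal.span {f}) ≤
              hdim (V.V N) a := fun N hN => by
            have := hdim_step V a f d N hfV hN
            rwa [hcol] at this
          have hJ : ∀ n, d ≤ n → ∑ k, qdim F (a ⊔ (I k).I n) ≤ ∑ k, qdim F (a ⊔ (I k).I (n - d)) +
              ∑ k, qdim F (a ⊔ Ideal.span {f} ⊔ (I k).I n) := fun n hn => by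
            rw [← Finset.sum_add_distrib]
            refine Finset.sum_le_sum fun k _ => ?_
            rw [sup_right_comm]
            refine qdim_step _ _ f fun x hx => ?_
            have := HSA.mul_mem_sup (I k) a hx (hfI k)
            rwa [Nat.sub_add_cancel hn] at this
          obtain ⟨n₀, hn₀⟩ := eventually_atTop.mp (ih _ hlt (2 * L) (by omega))
          set C := ∑ n ∈ Finset.range (n₀ + d), ∑ k, qdim F (a ⊔ (I k).I n) with hC
          have hJ2 : ∀ n, ∑ k, qdim F (a ⊔ (I k).I n) ≤ hdim (V.V (n + n / (2 * L))) a + C := by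
            intro n
            induction n using Nat.strong_induction_on with
            | _ n ihn =>
              by_cases hn : n < n₀ + d
              · exact le_add_left (Finset.single_le_sum
                  (f := fun n => ∑ k, qdim F (a ⊔ (I k).I n)) (fun _ _ => Nat.zero_le _)
                  (Finset.mem_range.mpr hn))
              · have h1 := hJ n (by omega)
                have h2 := ihn (n - d) (by omega)
                have h3 := hn₀ n (by omega)
                have h4 := hH (n + n / (2 * L)) (le_add_right (by omega))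
                have h5 : (n - d) / (2 * L) ≤ n / (2 * L) := Nat.div_le_div_right (Nat.sub_le _ _)
                have h6 := HSA.hdim_mono V a
                  (show n - d + (n - d) / (2 * L) ≤ n + n / (2 * L) - d by
                    generalize (n - d) / (2 * L) = q₁ at h5 ⊢
                    generalize n / (2 * L) = q₂ at h5 ⊢
                    omega)
                omega
          have hH2 : ∀ N c, hdim (V.V N) a + c ≤ hdim (V.V (N + c * d)) a := by
            intro N c
            induction c with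
            | zero => simp
            | succ c ihc =>
              have h1 := hH (N + (c + 1) * d) (by nlinarith)
              have h2 := HSA.hdim_pos V hb (N + (c + 1) * d)
              rw [show N + (c + 1) * d - d = N + c * d by rw [add_one_mul]; omega] at h1
              omega
          filter_upwards [HSA.ev_div L hL (C * d)] with n hn
          exact (hJ2 n).trans ((hH2 _ C).trans (HSA.hdim_mono V a (by omega)))
    · obtain ⟨g, hg, f, hf, hgf⟩ := (Ideal.not_isPrime_iff.mp hp).resolve_left htop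
      obtain ⟨d, hd⟩ := V.exh f
      have hlt : a < a ⊔ Ideal.span {f} := lt_of_le_of_ne le_sup_left fun e =>
        hf (e ▸ Ideal.mem_sup_right (Ideal.mem_span_singleton_self f))
      have hlt' : a < a.colon {f} := lt_of_le_of_ne
        (fun x hx => Submodule.mem_colon_singleton.mpr (a.mul_mem_right _ hx)) fun e =>
        hg (e ▸ Submodule.mem_colon_singleton.mpr hgf)
      filter_upwards [ih _ hlt (2 * L) (by omega), ih _ hlt' (2 * L) (by omega), HSA.ev_div L hL d]
        with n h1 h2 h3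
      have h4 : ∑ k, qdim F (a ⊔ (I k).I n) ≤ ∑ k, qdim F (a.colon {f} ⊔ (I k).I n) +
          ∑ k, qdim F (a ⊔ Ideal.span {f} ⊔ (I k).I n) := by
        rw [← Finset.sum_add_distrib]
        refine Finset.sum_le_sum fun k _ => ?_
        rw [sup_right_comm]
        refine qdim_step _ _ f fun x hx => ?_
        obtain ⟨x₁, hx₁, x₂, hx₂, rfl⟩ := Submodule.mem_sup.mp hx
        rw [add_mul]
        exact Submodule.add_mem_sup (Submodule.mem_colon_singleton.mp hx₁) (Ideal.mul_mem_right _ _ hx₂)
      generalize n / (2 * L) = q₁ at *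
      generalize n / L = q₂ at *
      have h5 := hdim_step V a f d (n + q₂) hd (by omega)
      have h6 := HSA.hdim_mono V (a.colon {f}) (show n + q₁ ≤ n + q₂ - d by omega)
      have h7 := HSA.hdim_mono V (a ⊔ Ideal.span {f}) (show n + q₁ ≤ n + q₂ by omega)
      omega

theorem HS [IsNoetherianRing R] (V : Filt F R) {ι : Type*} [Fintype ι] (I : ι → IFilt F R)
    (h : ∀ p : Ideal R, p.IsPrime →
      (FiniteDimensional F (R ⧸ p) ∧ ∃ k₀, ∀ k, k ≠ k₀ → ∀ n, p ⊔ (I k).I n = ⊤) ∨
      ∃ d, 0 < d ∧ ∃ f ∈ V.V d, f ∉ p ∧ ∀ k, f ∈ p ⊔ (I k).I d)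
    (L : ℕ) (hL : 0 < L) :
    ∀ᶠ n in atTop, ∑ k, qdim F ((I k).I n) ≤ finrank F (V.V (n + n / L)) := by
  filter_upwards [HS_aux V I h ⊥ L hL] with n hn
  simp only [bot_sup_eq] at hn
  have := V.fin (n + n / L)
  exact hn.trans (Submodule.finrank_map_le _ _)

end Crest.Agent.R11Z
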