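import Crest.Agent.R11Z.Psi
import Crest.Agent.R11Z.Count

/-!
# Row 11: the ideal filtration at a point, and the degree filtration

`ptI g n s β = psi⁻¹ (indI s β)`. The linear map `P ↦ (coeff t (psi P))_{wt t < β}` is onto
(`psi_surjective`) with kernel `ptI`, so the quotient has dimension `#{t | wt t < β}`.
-/

set_option autoImplicit false
open MvPolynomial Module

namespace Crest.Agent.R11Z

variable {m : ℕ}

noncomputable def ptI (g : Fin m → ℂ) (n : Fin m → ℕ) (s : Fin (m + 1) → ℝ) (hs : ∀ i, 0 < s i)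
    (β : ℝ) : Ideal (PR m) :=
  (indI s hs β).comap (psi g n)

theorem mem_ptI {g : Fin m → ℂ} {n : Fin m → ℕ} {s : Fin (m + 1) → ℝ} {hs : ∀ i, 0 < s i}
    {β : ℝ} {P : PR m} : P ∈ ptI g n s hs β ↔ Ind s β (psi g n P) := Iff.rfl

namespace PtA

theorem equiv (g : Fin m → ℂ) (n : Fin m → ℕ) (s : Fin (m + 1) → ℝ) (hs : ∀ i, 0 < s i) (β : ℝ)
    (T : Finset (Fin (m + 1) →₀ ℕ)) (hT : ∀ t, t ∈ T ↔ wt s t < β) :
    Nonempty ((PR m ⧸ ptI g n s hs β) ≃ₗ[ℂ] (T → ℂ)) := by
  classical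
  let φ : PR m →ₗ[ℂ] (T → ℂ) := LinearMap.pi fun t => lcoeff ℂ t.1 ∘ₗ (psi g n).toLinearMap
  have hφ : ∀ P t, φ P t = coeff t.1 (psi g n P) := fun P t => rfl
  have hsurj : Function.Surjective φ := by
    intro c
    obtain ⟨P, hP⟩ := psi_surjective g n (∑ t : T, monomial t.1 (c t))
    refine ⟨P, funext fun t => ?_⟩
    rw [hφ, hP, coeff_sum, Finset.sum_eq_single t]
    · simp
    · intro b _ hb
      rw [coeff_monomial, if_neg fun h => hb (Subtype.ext h)]
    · simp
  have hker : (ptI g n s hs β).restrictScalars ℂ = LinearMap.ker φ := by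
    ext P
    rw [Submodule.restrictScalars_mem, LinearMap.mem_ker, funext_iff]
    refine (mem_ptI.trans PsiA.ind_iff).trans ⟨fun h t => h t.1 ((hT _).mp t.2), fun h t ht => ?_⟩
    exact h ⟨t, (hT _).mpr ht⟩
  exact ⟨(Submodule.Quotient.restrictScalarsEquiv ℂ _).symm.trans
    ((Submodule.quotEquivOfEq _ _ hker).trans (φ.quotKerEquivOfSurjective hsurj))⟩

theorem ind_pow {s : Fin (m + 1) → ℝ} (hs : ∀ i, 0 < s i) {β : ℝ} {Q : PR m} (h : Ind s β Q) (k : ℕ) :
    Ind s (k * β) (Q ^ k) := by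
  induction k with
  | zero => simpa using ind_zero hs 1
  | succ k ih =>
    have := ih.mul h
    rw [pow_succ]
    push_cast
    rwa [add_mul, one_mul]

theorem fin_of_support (V : Submodule ℂ (PR m)) (T : Finset (Fin (m + 1) →₀ ℕ))
    (h : ∀ P ∈ V, P.support ⊆ T) : FiniteDimensional ℂ V ∧ finrank ℂ V ≤ T.card := by
  let φ : V →ₗ[ℂ] (T → ℂ) := LinearMap.pi fun t => lcoeff ℂ t.1 ∘ₗ V.subtype
  have hinj : Function.Injective φ := by
    rw [← LinearMap.ker_eq_bot, LinearMap.ker_eq_bot']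
    intro P hP
    ext t
    by_cases ht : t ∈ T
    · exact congrFun hP ⟨t, ht⟩
    · simpa using fun h' => ht (h P.1 P.2 h')
  refine ⟨FiniteDimensional.of_injective φ hinj, ?_⟩
  simpa using LinearMap.finrank_le_finrank_of_injective hinj

theorem exists_T (ℓ : ℕ) (D : Fin m → ℕ) (hD : ∀ j, 0 < D j) (k : ℕ) :
    ∃ T : Finset (Fin (m + 1) →₀ ℕ), (∀ P, Deg ℓ D k P → P.support ⊆ T) ∧
      (T.card : ℝ) ≤ ((k : ℝ) * ℓ + 1) *
        (((k : ℝ) + ∑ j, 1 / (D j : ℝ)) ^ m * (∏ j, (D j : ℝ)) / (m.factorial : ℝ)) := by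
  classical
  have hD' : ∀ j, (0 : ℝ) < D j := fun j => by exact_mod_cast hD j
  obtain ⟨T, hT⟩ := exists_finset_wt_le m (fun j => (D j : ℝ)) hD' k
  refine ⟨(Finset.range (k * ℓ + 1) ×ˢ T).image fun x => Finsupp.cons x.1 x.2, fun P hP a ha => ?_, ?_⟩
  · obtain ⟨h1, h2⟩ := hP a ha
    refine Finset.mem_image.mpr ⟨(a 0, a.tail), Finset.mem_product.mpr ⟨?_, (hT _).mpr ?_⟩, a.cons_tail⟩
    · simpa [Nat.lt_succ_iff] using h1
    · simpa [wt, Finsupp.tail_apply] using h2
  · have h1 := count_upper m (fun j => (D j : ℝ)) hD' k (Nat.cast_nonneg _) T fun t ht => (hT t).mp ht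
    refine le_trans (Nat.cast_le.mpr Finset.card_image_le) ?_
    rw [Finset.card_product, Finset.card_range]
    push_cast
    exact mul_le_mul_of_nonneg_left h1 (by positivity)

theorem deg_of {ℓ : ℕ} {D : Fin m → ℕ} {k : ℕ} {P Q : PR m} (h : Deg ℓ D k P)
    (hQ : ∀ a ∈ Q.support, ∃ b ∈ P.support, a ≤ b) : Deg ℓ D k Q := by
  intro a ha
  obtain ⟨b, hb, hab⟩ := hQ a ha
  obtain ⟨h1, h2⟩ := h b hb
  refine ⟨(hab 0).trans h1, le_trans (Finset.sum_le_sum fun j _ => ?_) h2⟩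
  exact div_le_div_of_nonneg_right (by exact_mod_cast hab j.succ) (Nat.cast_nonneg _)

theorem deg_pderiv {ℓ : ℕ} {D : Fin m → ℕ} {k : ℕ} {P : PR m} (h : Deg ℓ D k P) (i : Fin (m + 1)) :
    Deg ℓ D k (pderiv i P) := by
  refine deg_of h fun a ha => ?_
  rw [MvPolynomial.mem_support_iff, coeff_pderiv] at ha
  exact ⟨_, MvPolynomial.mem_support_iff.mpr (left_ne_zero_of_mul ha), le_self_add⟩

theorem deg_euler {ℓ : ℕ} {D : Fin m → ℕ} {k : ℕ} {P : PR m} (h : Deg ℓ D k P) (i : Fin (m + 1)) :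
    Deg ℓ D k (X i * pderiv i P) := by
  refine deg_of h fun a ha => ?_
  rw [MvPolynomial.mem_support_iff, coeff_X_mul'] at ha
  split_ifs at ha with hi
  · rw [coeff_pderiv] at ha
    exact ⟨_, MvPolynomial.mem_support_iff.mpr (left_ne_zero_of_mul ha), le_tsub_add⟩
  · exact absurd rfl ha

theorem der_sum_apply {α : Type*} (T : Finset α) (δ : α → Derivation ℂ (PR m) (PR m)) (P : PR m) :
    (∑ a ∈ T, δ a) P = ∑ a ∈ T, δ a P := by
  classical
  induction T using Finset.induction_on with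
  | empty => simp
  | insert a T ha ih => rw [Finset.sum_insert ha, Finset.sum_insert ha, Derivation.add_apply, ih]

theorem dv_zero (P : PR m) : dv m 0 P = X 0 * pderiv 0 P + ∑ j : Fin m, pderiv j.succ P := by
  have : dv m 0 = (X 0 : PR m) • pderiv 0 + ∑ j : Fin m, pderiv j.succ := by
    apply derivation_ext
    intro i
    refine Fin.cases ?_ (fun k => ?_) i
    · simp [dv, mkDerivation_X, der_sum_apply, pderiv_X_of_ne (Fin.succ_ne_zero _).symm]
    · simp only [dv, Fin.cons_zero, mkDerivation_X, Fin.cons_succ, Derivation.add_apply,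
        Derivation.smul_apply, der_sum_apply, pderiv_X_of_ne (Fin.succ_ne_zero k), smul_zero, zero_add]
      rw [Finset.sum_eq_single k]
      · simp
      · intro j _ hj
        exact pderiv_X_of_ne (by simpa using hj.symm)
      · simp
  rw [this]
  simp [der_sum_apply]

theorem supp_pow_lin (i : Fin (m + 1)) (c : ℂ) (e : ℕ) :
    ∀ a ∈ ((X i - C c : PR m) ^ e).support, a ≤ Finsupp.single i e := by
  induction e with
  | zero =>
    intro a ha
    rw [pow_zero, ← C_1, ← monomial_zero'] at ha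
    have := support_monomial_subset ha
    rw [Finset.mem_singleton] at this
    simp [this]
  | succ e ih =>
    intro a ha
    rw [pow_succ] at ha
    obtain ⟨x, hx, y, hy, rfl⟩ := Finset.mem_add.mp (support_mul _ _ ha)
    rw [Finsupp.single_add]
    refine add_le_add (ih x hx) ?_
    rcases Finset.mem_union.mp (support_sub _ _ _ hy) with h | h
    · rw [support_X, Finset.mem_singleton] at h
      exact h.le
    · rw [← monomial_zero'] at h
      have := support_monomial_subset h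
      rw [Finset.mem_singleton] at this
      simp [this]

end PtA

theorem ptI_finite (g : Fin m → ℂ) (n : Fin m → ℕ) (s : Fin (m + 1) → ℝ) (hs : ∀ i, 0 < s i)
    (β : ℝ) : FiniteDimensional ℂ (PR m ⧸ ptI g n s hs β) := by
  obtain ⟨T, hT⟩ := exists_finset_wt_lt (m + 1) s hs β
  obtain ⟨e⟩ := PtA.equiv g n s hs β T hT
  exact e.symm.finiteDimensional

theorem ptI_qdim (g : Fin m → ℂ) (n : Fin m → ℕ) (s : Fin (m + 1) → ℝ) (hs : ∀ i, 0 < s i)
    (β : ℝ) (hβ : 0 < β) :
    β ^ (m + 1) * (∏ i, s i) / ((m + 1).factorial : ℝ) ≤ qdim ℂ (ptI g n s hs β) := by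
  obtain ⟨T, hT⟩ := exists_finset_wt_lt (m + 1) s hs β
  obtain ⟨e⟩ := PtA.equiv g n s hs β T hT
  rw [qdim, e.finrank_eq]
  simpa using count_lower (m + 1) s hs β hβ T fun t ht => (hT t).mpr ht

/-- if `f (pt g) ≠ 0` then `f` and `ptI` generate the unit ideal:
`psi (f - C (f (pt g)))` has no constant term, so a power of `f - C _` lies in `ptI`. -/
theorem sup_ptI_eq_top (g : Fin m → ℂ) (n : Fin m → ℕ) (s : Fin (m + 1) → ℝ) (hs : ∀ i, 0 < s i)
    (β : ℝ) (p : Ideal (PR m)) (f : PR m) (hf : f ∈ p) (h0 : eval (pt g) f ≠ 0) :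
    p ⊔ ptI g n s hs β = ⊤ := by
  obtain ⟨i₀, -, hi₀⟩ := Finset.exists_min_image Finset.univ (fun i => 1 / s i) Finset.univ_nonempty
  have hε : 0 < 1 / s i₀ := one_div_pos.mpr (hs _)
  set c := eval (pt g) f with hc
  have h1 : Ind s (1 / s i₀) (psi g n (f - C c)) := by
    intro t ht
    have ht0 : t ≠ 0 := by
      rintro rfl
      apply MvPolynomial.mem_support_iff.mp ht
      rw [← constantCoeff_eq, constantCoeff_psi]
      simp [hc]
    obtain ⟨i, hi⟩ := Finsupp.ne_iff.mp ht0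
    refine (hi₀ i (Finset.mem_univ _)).trans (le_trans ?_ (Finset.single_le_sum
      (f := fun i => (t i : ℝ) / s i) (fun j _ => div_nonneg (Nat.cast_nonneg _) (hs j).le) (Finset.mem_univ i)))
    exact div_le_div_of_nonneg_right (by exact_mod_cast Nat.one_le_iff_ne_zero.mpr hi) (hs i).le
  obtain ⟨k, hk⟩ := exists_nat_ge (β / (1 / s i₀))
  rw [div_le_iff₀ hε] at hk
  have h2 : (f - C c) ^ k ∈ ptI g n s hs β := by
    rw [mem_ptI, map_pow]
    exact (PtA.ind_pow hs h1 k).mono hk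
  have h3 : (f - C c) ^ k - (-C c) ^ k ∈ p := by
    refine Ideal.mem_of_dvd _ ?_ hf
    have := sub_dvd_pow_sub_pow (f - C c) (-C c) k
    rwa [show f - C c - -C c = f by ring] at this
  have h4 : (-C c) ^ k ∈ p ⊔ ptI g n s hs β := by
    have := sub_mem (Ideal.mem_sup_right (S := p) h2) (Ideal.mem_sup_left (T := ptI g n s hs β) h3)
    rwa [sub_sub_cancel] at this
  exact Ideal.eq_top_of_isUnit_mem _ h4 (((isUnit_iff_ne_zero.mpr h0).map C).neg.pow k)

/-- `x_j - g j ≡ x_j - g j - Lg (Y - 1)` modulo `Y - 1`, and `psi` of the latter is `ξ_j`. -/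
theorem pow_mem_sup_ptI (g : Fin m → ℂ) (n : Fin m → ℕ) (s : Fin (m + 1) → ℝ) (hs : ∀ i, 0 < s i)
    (β : ℝ) (p : Ideal (PR m)) (hY : (X 0 - 1 : PR m) ∈ p) (j : Fin m) (e : ℕ)
    (he : β ≤ (e : ℝ) / s j.succ) :
    (X j.succ - C (g j) : PR m) ^ e ∈ p ⊔ ptI g n s hs β := by
  let L : PR m := ∑ i ∈ Finset.range (n j), C ((-1 : ℂ) ^ i / ((i : ℂ) + 1)) * (X 0 - 1) ^ (i + 1)
  have hL : L ∈ p := Ideal.sum_mem _ fun i _ =>
    Ideal.mul_mem_left _ _ (Ideal.pow_mem_of_mem _ hY _ (Nat.succ_pos i))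
  have hpsi : psi g n L = Lg m (n j) := by
    simp [L, Lg, map_sum, PsiA.psi_X_zero]
  have h2 : (X j.succ - C (g j) - L) ^ e ∈ ptI g n s hs β := by
    rw [mem_ptI, map_pow, map_sub, map_sub, hpsi, PsiA.psi_X_succ, algHom_C, algebraMap_eq,
      show C (g j) + X j.succ + Lg m (n j) - C (g j) - Lg m (n j) = X j.succ by ring]
    exact (PsiA.ind_X_pow s _ e).mono he
  have h3 : (X j.succ - C (g j)) ^ e - (X j.succ - C (g j) - L) ^ e ∈ p := by
    refine Ideal.mem_of_dvd _ ?_ hL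
    have := sub_dvd_pow_sub_pow (X j.succ - C (g j)) (X j.succ - C (g j) - L) e
    rwa [sub_sub_cancel] at this
  have := add_mem (Ideal.mem_sup_left (T := ptI g n s hs β) h3) (Ideal.mem_sup_right (S := p) h2)
  rwa [sub_add_cancel] at this

theorem finite_quot_of_mem (g : Fin m → ℂ) (p : Ideal (PR m)) (hY : (X 0 - 1 : PR m) ∈ p)
    (hx : ∀ j : Fin m, (X j.succ - C (g j) : PR m) ∈ p) : FiniteDimensional ℂ (PR m ⧸ p) := by
  have h1 : ∀ i, (X i - C (pt g i) : PR m) ∈ p := by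
    intro i
    refine Fin.cases ?_ (fun k => ?_) i
    · simpa [pt] using hY
    · simpa [pt] using hx k
  have h2 : ∀ P : PR m, P - C (eval (pt g) P) ∈ p := by
    intro P
    induction P using MvPolynomial.induction_on with
    | C c => simp
    | add a b ha hb =>
      have := add_mem ha hb
      rw [map_add, map_add]
      convert this using 1
      ring
    | mul_X a i ha =>
      have := add_mem (Ideal.mul_mem_right (X i) _ ha) (Ideal.mul_mem_left _ (C (eval (pt g) a)) (h1 i))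
      rw [map_mul, map_mul, eval_X]
      convert this using 1
      ring
  refine Module.Finite.of_surjective (Algebra.linearMap ℂ (PR m ⧸ p)) fun x => ?_
  obtain ⟨P, rfl⟩ := Ideal.Quotient.mk_surjective x
  exact ⟨eval (pt g) P, (Ideal.Quotient.eq.mpr (h2 P)).symm⟩

noncomputable def ptFilt (g : Fin m → ℂ) (n : Fin m → ℕ) (s : Fin (m + 1) → ℝ)
    (hs : ∀ i, 0 < s i) (b : ℝ) (hb : 0 ≤ b) : IFilt ℂ (PR m) where
  I := fun k => ptI g n s hs (k * b)
  anti := by
    intro a c hac P hP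
    exact Ind.mono hP (mul_le_mul_of_nonneg_right (by exact_mod_cast hac) hb)
  mul := by
    intro a c x y hx hy
    rw [mem_ptI] at hx hy ⊢
    rw [map_mul]
    push_cast
    rw [add_mul]
    exact hx.mul hy
  fin := fun k => ptI_finite g n s hs _

/-- polynomials with `Deg ℓ D k` -/
noncomputable def degV (ℓ : ℕ) (D : Fin m → ℕ) (k : ℕ) : Submodule ℂ (PR m) where
  carrier := {P | Deg ℓ D k P}
  add_mem' := by
    intro a b ha hb t ht
    rcases Finset.mem_union.mp (support_add ht) with h | h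
    · exact ha t h
    · exact hb t h
  zero_mem' := by
    intro t ht
    simp at ht
  smul_mem' := by
    intro c P hP t ht
    exact hP t (support_smul ht)

theorem mem_degV {ℓ : ℕ} {D : Fin m → ℕ} {k : ℕ} {P : PR m} : P ∈ degV ℓ D k ↔ Deg ℓ D k P :=
  Iff.rfl

noncomputable def degFilt (ℓ : ℕ) (hℓ : 0 < ℓ) (D : Fin m → ℕ) (hD : ∀ j, 0 < D j) :
    Filt ℂ (PR m) where
  V := degV ℓ D
  fin := by
    intro k
    obtain ⟨T, hT, -⟩ := PtA.exists_T ℓ D hD k
    exact (PtA.fin_of_support _ T hT).1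
  mono := by
    intro a b hab P hP t ht
    obtain ⟨h1, h2⟩ := hP t ht
    exact ⟨h1.trans (Nat.mul_le_mul_right _ hab), h2.trans (by exact_mod_cast hab)⟩
  one := by
    intro t ht
    rw [← C_1, ← monomial_zero'] at ht
    have := support_monomial_subset ht
    rw [Finset.mem_singleton] at this
    simp [this]
  mul := by
    intro a b x y hx hy t ht
    obtain ⟨u, hu, v, hv, rfl⟩ := Finset.mem_add.mp (support_mul _ _ ht)
    obtain ⟨h1, h2⟩ := hx u hu
    obtain ⟨h3, h4⟩ := hy v hv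
    refine ⟨by rw [Finsupp.add_apply, add_mul]; omega, ?_⟩
    simp only [Finsupp.add_apply, Nat.cast_add, add_div, Finset.sum_add_distrib]
    exact add_le_add h2 h4
  exh := by
    intro P
    refine ⟨∑ a ∈ P.support, (a 0 + ∑ j : Fin m, a j.succ), fun t ht => ?_⟩
    have h1 := Finset.single_le_sum (f := fun a : Fin (m + 1) →₀ ℕ => a 0 + ∑ j : Fin m, a j.succ)
      (fun _ _ => Nat.zero_le _) ht
    refine ⟨le_trans (by omega) (Nat.le_mul_of_pos_right _ hℓ), ?_⟩
    refine le_trans (b := ((∑ j : Fin m, t j.succ : ℕ) : ℝ)) ?_ (by exact_mod_cast (by omega))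
    push_cast
    exact Finset.sum_le_sum fun j _ => div_le_self (Nat.cast_nonneg _) (by exact_mod_cast hD j)

theorem finrank_degV (ℓ : ℕ) (D : Fin m → ℕ) (hD : ∀ j, 0 < D j) (k : ℕ) :
    (finrank ℂ (degV ℓ D k) : ℝ) ≤ ((k : ℝ) * ℓ + 1) *
      (((k : ℝ) + ∑ j, 1 / (D j : ℝ)) ^ m * (∏ j, (D j : ℝ)) / (m.factorial : ℝ)) := by
  obtain ⟨T, hT, h⟩ := PtA.exists_T ℓ D hD k
  exact le_trans (by exact_mod_cast (PtA.fin_of_support (degV ℓ D k) T hT).2) h

theorem Deg.dl {ℓ : ℕ} {D : Fin m → ℕ} {k : ℕ} {P : PR m} (h : Deg ℓ D k P)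
    (l : List (Fin (m + 1))) : Deg ℓ D k (dl (dv m) l P) := by
  induction l generalizing P with
  | nil => exact h
  | cons b l ih =>
    apply ih
    refine Fin.cases ?_ (fun j => ?_) b
    · rw [PtA.dv_zero]
      exact (degV ℓ D k).add_mem (PtA.deg_euler h 0)
        ((degV ℓ D k).sum_mem fun j _ => PtA.deg_pderiv h j.succ)
    · exact PtA.deg_pderiv h j.succ

theorem Deg.degreeOf_le {ℓ : ℕ} {D : Fin m → ℕ} (hD : ∀ j, 0 < D j) {P : PR m} (h : Deg ℓ D 1 P)
    (i : Fin (m + 1)) : degreeOf i P ≤ (Fin.cons ℓ D : Fin (m + 1) → ℕ) i := by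
  rw [degreeOf_le_iff]
  intro a ha
  obtain ⟨h1, h2⟩ := h a ha
  refine Fin.cases ?_ (fun j => ?_) i
  · simpa using h1
  · have h3 := (Finset.single_le_sum (f := fun j : Fin m => (a j.succ : ℝ) / D j)
      (fun j _ => by positivity) (Finset.mem_univ j)).trans h2
    rw [div_le_iff₀ (by exact_mod_cast hD j)] at h3
    simp only [Fin.cons_succ]
    exact_mod_cast (by simpa using h3 : (a j.succ : ℝ) ≤ D j)

theorem deg_pow_lin (ℓ : ℕ) (D : Fin m → ℕ) (hD : ∀ j, 0 < D j) (j : Fin m) (c : ℂ) :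
    Deg ℓ D 1 ((X j.succ - C c : PR m) ^ D j) := by
  intro a ha
  have h := PtA.supp_pow_lin j.succ c (D j) a ha
  refine ⟨(h 0).trans (by simp), ?_⟩
  rw [Finset.sum_eq_single j]
  · have := h j.succ
    rw [Finsupp.single_eq_same] at this
    rw [div_le_iff₀ (by exact_mod_cast hD j)]
    simpa using this
  · intro k _ hk
    have := h k.succ
    rw [Finsupp.single_eq_of_ne (by simpa using hk)] at this
    simp [Nat.le_zero.mp this]
  · simp

end Crest.Agent.R11Z
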