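import Crest.Agent.R11Z.Prod3
import Crest.Agent.R11Z.Pt

/-!
# Row 11: the sharp zero estimate
-/

set_option autoImplicit false
open MvPolynomial Module Filter

namespace Crest.Agent.R11Z

variable {m : ℕ}

namespace ZeroEstA

theorem scl_pos (S : ℕ) (hS : 0 < S) (τ : ℝ) (hτ : 0 < τ) (D : Fin m → ℕ) (hD : ∀ j, 0 < D j)
    (i : Fin (m + 1)) : 0 < scl S τ D i := by
  refine Fin.cases ?_ (fun j => ?_) i
  · simpa [scl] using hS
  · have : (0 : ℝ) < D j := by exact_mod_cast hD j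
    simp only [scl, Fin.cons_succ]; positivity

theorem exists_L (r : ℕ) : ∃ L : ℕ, 0 < L ∧ (1 + 2 / (L : ℝ)) ^ r ≤ 2 := by
  have h : Tendsto (fun L : ℕ => (1 + 2 / (L : ℝ)) ^ r) atTop (nhds ((1 + 0) ^ r)) :=
    ((tendsto_const_div_atTop_nhds_zero_nat 2).const_add 1).pow r
  have h2 : ∀ᶠ L : ℕ in atTop, (1 + 2 / (L : ℝ)) ^ r < 2 := h.eventually (gt_mem_nhds (by simp))
  obtain ⟨L, hL, hL'⟩ := (h2.and (eventually_gt_atTop 0)).exists
  exact ⟨L, hL', hL.le⟩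

end ZeroEstA

theorem zero_estimate (K ℓ S : ℕ) (c : Fin m → ℂ) (hc : ∀ j, c j ≠ 0) (D n : Fin m → ℕ)
    (hD : ∀ j, 0 < D j) (hℓ : 0 < ℓ) (hℓS : ℓ ≤ S) (τ ε G : ℝ) (hτ : 0 < τ) (hτ1 : τ ≤ 1)
    (hε : 0 < ε) (hε1 : ε < 1) (hn : ∀ j, (S : ℝ) < ((n j : ℝ) + 1) * (τ * D j))
    (hgap : ∀ i j, i < j → G * D j ≤ D i) (hgapℓ : ∀ j, G * D j ≤ ℓ)
    (hG : (2 * ((m : ℝ) + 1) * (m + 2) / (τ * ε)) ^ (m + 1) < G)
    (hS : 2 * ((m : ℝ) + 2) * ℓ < ε * S)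
    (P : PR m) (hP : P ≠ 0) (hdeg : Deg ℓ D 1 P)
    (hind : ∀ k < K, Ind (scl S τ D) 1 (psi (fun j => (k : ℂ) * c j) n P)) :
    (K : ℝ) * (1 - ε) ^ (m + 1) * τ ^ m * S ≤ 2 * (m + 1) * ℓ := by
  classical
  have hSpos : 0 < S := lt_of_lt_of_le hℓ hℓS
  set s := scl S τ D with hsdef
  have hs : ∀ i, 0 < s i := ZeroEstA.scl_pos S hSpos τ hτ D hD
  have hn' : ∀ j : Fin m, s 0 < ((n j : ℝ) + 1) * s j.succ := by
    intro j; simpa [hsdef, scl] using hn j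
  have hb : (0 : ℝ) ≤ 1 - ε := by linarith
  let g : Fin K → Fin m → ℂ := fun k j => ((k : ℕ) : ℂ) * c j
  let I : Fin K → IFilt ℂ (PR m) := fun k => ptFilt (g k) n s hs (1 - ε) hb
  have hI : ∀ k N, (I k).I N = ptI (g k) n s hs (N * (1 - ε)) := fun _ _ => rfl
  let V : Filt ℂ (PR m) := degFilt ℓ hℓ D hD
  have hV : ∀ N, V.V N = degV ℓ D N := fun _ => rfl
  let deg : Fin (m + 1) → ℕ := Fin.cons ℓ D
  have hdegpos : ∀ i, 0 < deg i := fun i => Fin.cases hℓ hD i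
  have hsep : ∀ (p : Ideal (PR m)) (k : Fin K) (j : Fin m), (X j.succ - C (g k j) : PR m) ∈ p →
      ∀ k', k' ≠ k → ∀ β, p ⊔ ptI (g k') n s hs β = ⊤ := by
    intro p k j hj k' hk' β
    refine sup_ptI_eq_top _ _ _ _ _ p _ hj ?_
    simp only [map_sub, eval_X, eval_C, pt, Fin.cons_succ, g]
    rw [← sub_mul]
    refine mul_ne_zero (sub_ne_zero.mpr ?_) (hc j)
    intro h
    exact hk' (Fin.ext (by exact_mod_cast h))
  have hyp : ∀ p : Ideal (PR m), p.IsPrime →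
      (FiniteDimensional ℂ (PR m ⧸ p) ∧ ∃ k₀, ∀ k, k ≠ k₀ → ∀ N, p ⊔ (I k).I N = ⊤) ∨
      ∃ d, 0 < d ∧ ∃ f ∈ V.V d, f ∉ p ∧ ∀ k, f ∈ p ⊔ (I k).I d := by
    intro p hp
    by_cases hex : ∃ k : Fin K, ∀ f ∈ p, eval (pt (g k)) f = 0
    swap
    · push Not at hex
      refine Or.inr ⟨1, one_pos, 1, V.mono (Nat.zero_le 1) V.one,
        (Ideal.ne_top_iff_one p).mp hp.ne_top, fun k => ?_⟩
      obtain ⟨f, hf, h0⟩ := hex k
      rw [hI, sup_ptI_eq_top _ _ _ _ _ p f hf h0]; trivial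
    obtain ⟨k, hk⟩ := hex
    by_cases hjet : Jet (dv m) s p ε P
    swap
    · unfold Jet at hjet
      push Not at hjet
      obtain ⟨l, hl, hlp⟩ := hjet
      refine Or.inr ⟨1, one_pos, dl (dv m) l P, hdeg.dl l, hlp, fun k' => ?_⟩
      apply Ideal.mem_sup_right
      rw [hI, mem_ptI]
      refine (ind_psi_dl hs hn' (g k') l (hind k' k'.2)).mono ?_
      push_cast; linarith
    have hprod := product_thm s hs deg hdegpos τ ε G hτ hτ1 hε hε1.le ?_ ?_ hG ?_ P hP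
      (fun l i => (hdeg.dl l).degreeOf_le hD i) p (g k) hk hjet
    rotate_left
    · intro i
      refine Fin.cases ?_ (fun j => ?_) i
      · have h1 : (ℓ : ℝ) ≤ S := by exact_mod_cast hℓS
        have h2 : (0 : ℝ) ≤ ℓ := Nat.cast_nonneg _
        simp only [deg, hsdef, scl, Fin.cons_zero]; nlinarith
      · simp [deg, hsdef, scl]
    · intro i j hij
      obtain ⟨j', rfl⟩ := Fin.exists_succ_eq.mpr (Fin.pos_iff_ne_zero.mp (lt_of_le_of_lt (Fin.zero_le i) hij))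
      refine Fin.cases (fun _ => ?_) (fun i' hij' => ?_) i hij
      · simpa [deg] using hgapℓ j'
      · simpa [deg] using hgap i' j' (Fin.succ_lt_succ_iff.mp hij')
    · simpa [deg, hsdef, scl] using hS
    obtain ⟨hY, j, hj⟩ := hprod
    by_cases hall : ∀ i : Fin m, (X i.succ - C (g k i) : PR m) ∈ p
    · exact Or.inl ⟨finite_quot_of_mem (g k) p hY hall, k, fun k' hk' N => hsep p k j hj k' hk' _⟩
    push Not at hall
    obtain ⟨i, hi⟩ := hall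
    refine Or.inr ⟨1, one_pos, (X i.succ - C (g k i)) ^ D i, deg_pow_lin ℓ D hD i _,
      fun h => hi (hp.mem_of_pow_mem _ h), fun k' => ?_⟩
    by_cases hk' : k' = k
    · subst hk'
      rw [hI]
      refine pow_mem_sup_ptI _ _ _ _ _ p hY i _ ?_
      have hDi : (0 : ℝ) < D i := by exact_mod_cast hD i
      simp only [hsdef, scl, Fin.cons_succ]
      rw [le_div_iff₀ (by positivity)]
      push_cast
      have : (1 - ε) * τ ≤ 1 := mul_le_one₀ (by linarith) hτ.le hτ1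
      nlinarith
    · rw [hI, hsep p k j hj k' hk']; trivial
  obtain ⟨L, hL, hL2⟩ := ZeroEstA.exists_L (m + 1)
  have hev := HS V I hyp L hL
  set σ : ℝ := ∑ j, 1 / (D j : ℝ) with hσ
  have hσ0 : 0 ≤ σ := Finset.sum_nonneg fun j _ => by positivity
  have hLR : (0 : ℝ) < L := by exact_mod_cast hL
  have hev2 : ∀ᶠ N : ℕ in atTop, (1 + σ) * L ≤ (N : ℝ) :=
    tendsto_natCast_atTop_atTop.eventually_ge_atTop _
  obtain ⟨N, ⟨hN, hN2⟩, hN0⟩ := ((hev.and hev2).and (eventually_gt_atTop 0)).exists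
  have hNR : (0 : ℝ) < N := by exact_mod_cast hN0
  have hβ : (0 : ℝ) < N * (1 - ε) := mul_pos hNR (by linarith)
  set PD : ℝ := ∏ j, (D j : ℝ) with hPi
  have hPipos : 0 < PD := Finset.prod_pos fun j _ => by exact_mod_cast hD j
  have hprods : ∏ i, s i = S * (τ ^ m * PD) := by
    rw [Fin.prod_univ_succ]
    simp [hsdef, scl, Finset.prod_mul_distrib, hPi]
  have hlow : (K : ℝ) * ((N * (1 - ε)) ^ (m + 1) * (S * (τ ^ m * PD)) / ((m + 1).factorial : ℝ)) ≤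
      ((∑ k, qdim ℂ ((I k).I N) : ℕ) : ℝ) := by
    push_cast
    have : ∑ _k : Fin K, ((N * (1 - ε)) ^ (m + 1) * (S * (τ ^ m * PD)) / ((m + 1).factorial : ℝ)) ≤
        ∑ k, (qdim ℂ ((I k).I N) : ℝ) := by
      apply Finset.sum_le_sum
      intro k _
      rw [hI, ← hprods]
      exact ptI_qdim _ _ _ _ _ hβ
    simpa using this
  have hup := finrank_degV ℓ D hD (N + N / L)
  rw [← hσ, ← hPi] at hup
  set M : ℝ := ((N + N / L : ℕ) : ℝ) with hM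
  have hM0 : 0 ≤ M := Nat.cast_nonneg _
  have hMle : M + 1 + σ ≤ N * (1 + 2 / L) := by
    have h1 : ((N / L : ℕ) : ℝ) ≤ N / L := Nat.cast_div_le
    have h2 : 1 + σ ≤ N / L := by rw [le_div_iff₀ hLR]; exact hN2
    rw [hM]; push_cast
    have : (N : ℝ) * (1 + 2 / L) = N + N / L + N / L := by ring
    linarith
  have hℓR : (1 : ℝ) ≤ ℓ := by exact_mod_cast hℓ
  have hfac : (0 : ℝ) < m.factorial := by exact_mod_cast m.factorial_pos
  have hup2 : (M * ℓ + 1) * ((M + σ) ^ m * PD / (m.factorial : ℝ)) ≤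
      ℓ * (N ^ (m + 1) * 2) * PD / (m.factorial : ℝ) := by
    have e1 : M * ℓ + 1 ≤ ℓ * (N * (1 + 2 / L)) := by nlinarith
    have e2 : (M + σ) ^ m ≤ (N * (1 + 2 / L)) ^ m := by gcongr; linarith
    have e3 : (N * (1 + 2 / L) : ℝ) ^ (m + 1) ≤ N ^ (m + 1) * 2 := by rw [mul_pow]; gcongr
    calc (M * ℓ + 1) * ((M + σ) ^ m * PD / (m.factorial : ℝ))
        ≤ (ℓ * (N * (1 + 2 / L))) * ((N * (1 + 2 / L)) ^ m * PD / (m.factorial : ℝ)) := by gcongr
      _ = ℓ * (N * (1 + 2 / L)) ^ (m + 1) * PD / (m.factorial : ℝ) := by ring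
      _ ≤ ℓ * (N ^ (m + 1) * 2) * PD / (m.factorial : ℝ) := by gcongr
  have hNcast : ((∑ k, qdim ℂ ((I k).I N) : ℕ) : ℝ) ≤ (finrank ℂ (degV ℓ D (N + N / L)) : ℝ) := by
    exact_mod_cast hN
  have hfin := hlow.trans (hNcast.trans (hup.trans hup2))
  rw [Nat.factorial_succ] at hfin
  push_cast at hfin
  have hpos : 0 < (N : ℝ) ^ (m + 1) * PD / (((m : ℝ) + 1) * m.factorial) := by positivity
  refine le_of_mul_le_mul_right ?_ hpos
  calc (K : ℝ) * (1 - ε) ^ (m + 1) * τ ^ m * S * (N ^ (m + 1) * PD / (((m : ℝ) + 1) * m.factorial))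
      = K * ((N * (1 - ε)) ^ (m + 1) * (S * (τ ^ m * PD)) / (((m : ℝ) + 1) * m.factorial)) := by
        rw [mul_pow]; ring
    _ ≤ ℓ * (N ^ (m + 1) * 2) * PD / (m.factorial : ℝ) := hfin
    _ = 2 * (m + 1) * ℓ * (N ^ (m + 1) * PD / (((m : ℝ) + 1) * m.factorial)) := by
        field_simp

end Crest.Agent.R11Z
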