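import Crest.Agent.R11Z.AuxP
import Crest.Agent.R11Z.ZeroEst

/-!
# Row 11: choice of the parameters
-/

set_option autoImplicit false
open MvPolynomial Module Filter

namespace Crest.Agent.R11Z

namespace ParamsA

theorem ev_lin_lt (c r : ℝ) (hc : 0 < c) (hr : 1 < r) :
    ∀ᶠ m : ℕ in atTop, 2 * ((m : ℝ) + 2) < c * r ^ m := by
  have h1 := tendsto_pow_const_div_const_pow_of_one_lt 1 hr
  have h0 := tendsto_pow_const_div_const_pow_of_one_lt 0 hr
  have h : Tendsto (fun m : ℕ => 2 * ((m : ℝ) ^ 1 / r ^ m) + 4 * ((m : ℝ) ^ 0 / r ^ m)) atTop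
      (nhds (2 * 0 + 4 * 0)) := (h1.const_mul 2).add (h0.const_mul 4)
  have h2 := h.eventually (gt_mem_nhds (show 2 * 0 + 4 * 0 < c by simpa using hc))
  filter_upwards [h2] with m hm
  have hp : 0 < r ^ m := by positivity
  have : 2 * ((m : ℝ) ^ 1 / r ^ m) + 4 * ((m : ℝ) ^ 0 / r ^ m) = 2 * ((m : ℝ) + 2) / r ^ m := by
    field_simp; ring
  rwa [this, div_lt_iff₀ hp] at hm

/-- the constants depending only on `ν` -/
theorem exists_consts (ν : ℝ) (hν : 2 < ν) :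
    ∃ x₁ x₂ τ ε κ : ℝ, 0 < x₁ ∧ x₁ < x₂ ∧ x₂ < 1 ∧ 0 < τ ∧ τ ≤ 1 ∧ 0 < ε ∧ ε < 1 ∧ 0 < κ ∧
      x₂ ^ 2 < τ * (1 - ε) ∧ 1 + 10 * κ < ν * x₁ - (ν - 1) * τ := by
  have h1 : 0 < ν - 1 := by linarith
  set x₁ : ℝ := ν / (2 * (ν - 1)) with hx₁
  have hx0 : 0 < x₁ := by positivity
  have hx1 : x₁ < 1 := by rw [hx₁, div_lt_one (by positivity)]; linarith
  have hx2 : 1 < (ν - 1) * x₁ := by
    have : (ν - 1) * x₁ = ν / 2 := by rw [hx₁]; field_simp
    linarith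
  set τ₀ : ℝ := (ν * x₁ - 1) / (ν - 1) with hτ₀
  have hτ₀' : (ν - 1) * τ₀ = ν * x₁ - 1 := by rw [hτ₀]; field_simp
  have hlt : x₁ ^ 2 < τ₀ := by
    rw [hτ₀, lt_div_iff₀ h1]
    nlinarith [mul_pos (sub_pos.mpr hx1) (sub_pos.mpr hx2)]
  have hτ₀1 : τ₀ < 1 := by
    rw [hτ₀, div_lt_one h1]; nlinarith
  set τ : ℝ := (x₁ ^ 2 + τ₀) / 2 with hτ
  have hτ1 : x₁ ^ 2 < τ := by linarith
  have hτ2 : τ < τ₀ := by linarith
  have hτpos : 0 < τ := lt_trans (by positivity) hτ1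
  have hc : ContinuousAt (fun e : ℝ => τ * (1 - e) - (x₁ + e) ^ 2) 0 := by fun_prop
  have hev : ∀ᶠ e in nhds (0 : ℝ), 0 < τ * (1 - e) - (x₁ + e) ^ 2 :=
    hc.eventually (lt_mem_nhds (by simpa using hτ1))
  have hev2 : ∀ᶠ e in nhds (0 : ℝ), e < 1 - x₁ := gt_mem_nhds (by linarith)
  obtain ⟨e, ⟨he1, he2⟩, he0⟩ :=
    (((hev.and hev2).filter_mono nhdsWithin_le_nhds).and
      (self_mem_nhdsWithin (s := Set.Ioi (0 : ℝ)))).exists
  have he0' : 0 < e := he0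
  have hg : 0 < ν * x₁ - (ν - 1) * τ - 1 := by nlinarith
  refine ⟨x₁, x₁ + e, τ, e, (ν * x₁ - (ν - 1) * τ - 1) / 20, hx0, by linarith, by linarith, hτpos,
    by linarith, he0', by linarith, by linarith, by linarith, by linarith⟩

/-- the number of variables and of points -/
theorem exists_mK (x₂ τ ε κ ρ : ℝ) (hx0 : 0 < x₂) (hx1 : x₂ < 1) (hτ : 0 < τ) (hε : 0 < ε)
    (hε1 : ε < 1) (hκ : 0 < κ) (hρ : 1 ≤ ρ) (hx : x₂ ^ 2 < τ * (1 - ε)) :
    ∃ m K : ℕ, 1 ≤ K ∧ (1 + 13 * κ) * x₂ ^ m * (7 * K * ρ) ≤ κ ∧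
      2 * ((m : ℝ) + 1) < K * (1 - ε) ^ (m + 1) * τ ^ m * (7 * K * ρ) ∧
      2 * ((m : ℝ) + 2) < ε * (7 * K * ρ) := by
  set a : ℝ := κ / ((1 + 13 * κ) * (7 * ρ)) with ha
  have ha0 : 0 < a := by positivity
  have hε' : 0 < 1 - ε := by linarith
  have hr1 : 1 < 1 / x₂ := one_lt_one_div hx0 hx1
  have hr2 : 1 < τ * (1 - ε) / x₂ ^ 2 := (one_lt_div (by positivity)).mpr hx
  obtain ⟨m, ⟨h1, h2⟩, h3⟩ := (((ev_lin_lt a _ ha0 hr1).and
    (ev_lin_lt (ε * (7 * ρ) * (a / 2)) _ (by positivity) hr1)).and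
    (ev_lin_lt ((a / 2) ^ 2 * (7 * ρ) * (1 - ε)) _ (by positivity) hr2)).exists
  set y : ℝ := a * (1 / x₂) ^ m with hy
  have hm0 : (0 : ℝ) ≤ m := Nat.cast_nonneg m
  have hy1 : 2 ≤ y := by linarith
  have hK1 : (⌊y⌋₊ : ℝ) ≤ y := Nat.floor_le (by linarith)
  have hK2 : y / 2 ≤ (⌊y⌋₊ : ℝ) := by
    have := Nat.lt_floor_add_one y
    linarith
  have hxm : 0 < x₂ ^ m := by positivity
  refine ⟨m, ⌊y⌋₊, Nat.one_le_floor_iff _ |>.mpr (by linarith), ?_, ?_, ?_⟩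
  · calc (1 + 13 * κ) * x₂ ^ m * (7 * ⌊y⌋₊ * ρ) ≤ (1 + 13 * κ) * x₂ ^ m * (7 * y * ρ) := by gcongr
      _ = κ := by rw [hy, ha, one_div, inv_pow]; field_simp
  · calc 2 * ((m : ℝ) + 1) < 2 * ((m : ℝ) + 2) := by linarith
      _ < _ := h3
      _ = (y / 2) * (1 - ε) ^ (m + 1) * τ ^ m * (7 * (y / 2) * ρ) := by
        rw [hy, div_pow (τ * (1 - ε)), mul_pow, ← pow_mul, mul_comm 2 m, pow_mul, one_div, inv_pow]
        field_simp
        ring
      _ ≤ _ := by gcongr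
  · calc 2 * ((m : ℝ) + 2) < _ := h2
      _ = ε * (7 * (y / 2) * ρ) := by rw [hy]; ring
      _ ≤ _ := by gcongr

/-- a rapidly increasing sequence of approximations -/
theorem exists_seq (R : ℤ → ℕ → Prop) (h : ∀ Q : ℕ, ∃ p q, Q ≤ q ∧ R p q) (L₀ G : ℝ)
    (hL₀ : 0 < L₀) (hG : 1 ≤ G) :
    ∃ (p : ℕ → ℤ) (q : ℕ → ℕ), (∀ i, R (p i) (q i)) ∧ (∀ i, 0 < q i) ∧
      (∀ i, L₀ ≤ Real.log (q i)) ∧ ∀ i j, i < j → G * Real.log (q i) ≤ Real.log (q j) := by
  have h' : ∀ L : ℝ, ∃ x : ℤ × ℕ, R x.1 x.2 ∧ 0 < x.2 ∧ L ≤ Real.log x.2 := by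
    intro L
    obtain ⟨p, q, hq, hR⟩ := h ⌈Real.exp L⌉₊
    have h1 : Real.exp L ≤ q := (Nat.le_ceil _).trans (by exact_mod_cast hq)
    have h2 : (0 : ℝ) < q := (Real.exp_pos L).trans_le h1
    exact ⟨(p, q), hR, by exact_mod_cast h2, (Real.le_log_iff_exp_le h2).mpr h1⟩
  choose f hf using h'
  let x : ℕ → ℤ × ℕ := fun i => Nat.rec (f L₀) (fun _ y => f (G * Real.log y.2)) i
  have hx : ∀ i, R (x i).1 (x i).2 ∧ 0 < (x i).2 := by
    intro i
    cases i with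
    | zero => exact ⟨(hf _).1, (hf _).2.1⟩
    | succ i => exact ⟨(hf _).1, (hf _).2.1⟩
  have hstep : ∀ i, G * Real.log (x i).2 ≤ Real.log (x (i + 1)).2 := fun i => (hf _).2.2
  have hlog : ∀ i, 0 ≤ Real.log (x i).2 := fun i => Real.log_natCast_nonneg _
  have hmono : Monotone fun i => Real.log (x i).2 := by
    apply monotone_nat_of_le_succ
    intro i
    have := hstep i
    have := hlog i
    nlinarith
  refine ⟨fun i => (x i).1, fun i => (x i).2, fun i => (hx i).1, fun i => (hx i).2, ?_, ?_⟩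
  · intro i
    exact ((hf L₀).2.2).trans (hmono (Nat.zero_le i))
  · intro i j hij
    exact (hstep i).trans (hmono (Nat.succ_le_of_lt hij))

end ParamsA

theorem no_approx (ν : ℝ) (hν : 2 < ν)
    (h : ∀ Q : ℕ, ∃ (p : ℤ) (q : ℕ), Q ≤ q ∧ |Real.pi - (p : ℝ) / (q : ℝ)| < 1 / (q : ℝ) ^ ν) :
    False := by
  obtain ⟨x₁, x₂, τ, ε, κ, hx₁, hx₁₂, hx₂, hτ, hτ1, hε, hε1, hκ, hx, hgain⟩ :=
    ParamsA.exists_consts ν hν
  set Cc : ℝ := Real.log 4 + 4 with hCc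
  have hCc4 : 4 ≤ Cc := by
    have : 0 ≤ Real.log 4 := Real.log_nonneg (by norm_num)
    linarith
  set θ : ℝ := κ * τ / (2 * Cc) with hθ
  have hθ0 : 0 < θ := by positivity
  have hθκ : θ ≤ κ := by
    rw [hθ, div_le_iff₀ (by positivity)]; nlinarith
  set ρ : ℝ := Real.exp (2 * (1 + 11 * κ) / θ) with hρ
  have hρ1 : 1 ≤ ρ := Real.one_le_exp (by positivity)
  obtain ⟨m, K, hK, hm1, hm2, hm3⟩ :=
    ParamsA.exists_mK x₂ τ ε κ ρ (by linarith) hx₂ hτ hε hε1 hκ hρ1 hx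
  have hKR : (1 : ℝ) ≤ K := by exact_mod_cast hK
  set Z : ℝ := 7 * K * ρ with hZ
  have hZ7 : 7 ≤ Z := by rw [hZ]; nlinarith
  have hlogZ : 0 < Real.log Z := Real.log_pos (by linarith)
  set G : ℝ := (2 * ((m : ℝ) + 1) * (m + 2) / (τ * ε)) ^ (m + 1) + 1 with hG
  have hG1 : 1 ≤ G := by
    have : 0 ≤ (2 * ((m : ℝ) + 1) * (m + 2) / (τ * ε)) ^ (m + 1) := by positivity
    linarith
  set L₀ : ℝ := 8 * G * Z / θ + 2 * m * Real.log Z / κ with hL₀
  have hL₀a : 0 < 8 * G * Z / θ := by positivity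
  have hL₀b : 0 ≤ 2 * m * Real.log Z / κ := by positivity
  obtain ⟨p', q', hR, hq', hL, hgap⟩ := ParamsA.exists_seq
    (fun p q => |Real.pi - (p : ℝ) / (q : ℝ)| < 1 / (q : ℝ) ^ ν) h L₀ (2 * G) (by linarith)
    (by linarith)
  let p : Fin m → ℤ := fun j => p' j
  let q : Fin m → ℕ := fun j => q' j
  let lq : Fin m → ℝ := fun j => Real.log (q j)
  have hlq : ∀ j, L₀ ≤ lq j := fun j => hL j
  have hlq0 : ∀ j, 0 < lq j := fun j => lt_of_lt_of_le (by linarith) (hlq j)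
  set Λ : ℝ := ∑ j, lq j with hΛ
  have hΛ0 : 0 ≤ Λ := Finset.sum_nonneg fun j _ => (hlq0 j).le
  have hΛj : ∀ j, lq j ≤ Λ := fun j =>
    Finset.single_le_sum (f := lq) (fun j _ => (hlq0 j).le) (Finset.mem_univ j)
  have hx12 : 0 < x₂ - x₁ := by linarith
  set H : ℝ := Λ + 2 * Λ / κ + Λ / (x₂ - x₁) + 4 * Z / θ with hH
  have hHa : 0 ≤ 2 * Λ / κ := by positivity
  have hHb : 0 ≤ Λ / (x₂ - x₁) := by positivity
  have hHc : 0 < 4 * Z / θ := by positivity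
  have hH0 : 0 < H := by linarith
  have hθH : 4 * Z ≤ θ * H := by
    have : 4 * Z / θ ≤ H := by linarith
    rwa [div_le_iff₀ hθ0, mul_comm H] at this
  have hκΛ : 2 * Λ ≤ κ * H := by
    have : 2 * Λ / κ ≤ H := by linarith
    rwa [div_le_iff₀ hκ, mul_comm H] at this
  have hθκH : θ * H ≤ κ * H := by gcongr
  let D : Fin m → ℕ := fun j => ⌈H / lq j⌉₊
  have hD1 : ∀ j, H / lq j ≤ D j := fun j => Nat.le_ceil _
  have hD2 : ∀ j, (D j : ℝ) ≤ H / lq j + 1 := fun j =>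
    (Nat.ceil_lt_add_one (div_pos hH0 (hlq0 j)).le).le
  have hD3 : ∀ j, (D j : ℝ) ≤ 2 * H / lq j := by
    intro j
    have : 1 ≤ H / lq j := by rw [one_le_div (hlq0 j)]; linarith [hΛj j]
    have h2 : 2 * H / lq j = H / lq j + H / lq j := by ring
    linarith [hD2 j]
  have hDR : ∀ j, (0 : ℝ) < D j := fun j => (div_pos hH0 (hlq0 j)).trans_le (hD1 j)
  have hD : ∀ j, 0 < D j := fun j => by exact_mod_cast hDR j
  set S : ℕ := ⌊θ * H⌋₊ with hS
  have hS1 : (S : ℝ) ≤ θ * H := Nat.floor_le (by positivity)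
  have hS2 : θ * H / 2 ≤ S := by
    have := Nat.lt_floor_add_one (θ * H)
    linarith
  have hSR : (0 : ℝ) < S := by linarith
  have hS0 : 0 < S := by exact_mod_cast hSR
  have hZ0 : 0 < Z := by linarith
  set ℓ : ℕ := ⌊(S : ℝ) / Z⌋₊ with hℓ
  have hℓ1 : (ℓ : ℝ) * Z ≤ S := by
    have : (ℓ : ℝ) ≤ S / Z := Nat.floor_le (by positivity)
    rwa [le_div_iff₀ hZ0] at this
  have hℓ2 : (S : ℝ) ≤ (ℓ + 1) * Z := by
    have := Nat.lt_floor_add_one ((S : ℝ) / Z)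
    rw [div_lt_iff₀ hZ0] at this
    exact this.le
  have hℓ3 : θ * H / 4 ≤ ℓ * Z := by nlinarith
  have hℓR : (0 : ℝ) < ℓ := by
    by_contra hh
    push Not at hh
    nlinarith
  have hℓ0 : 0 < ℓ := by exact_mod_cast hℓR
  let n : Fin m → ℕ := fun j => ⌊(S : ℝ) / (τ * D j)⌋₊
  have hn1 : ∀ j, (S : ℝ) < ((n j : ℝ) + 1) * (τ * D j) := by
    intro j
    have := Nat.lt_floor_add_one ((S : ℝ) / (τ * D j))
    rwa [div_lt_iff₀ (mul_pos hτ (hDR j))] at this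
  have hn2 : ∀ j, (n j : ℝ) * (τ * D j) ≤ S := by
    intro j
    have : (n j : ℝ) ≤ S / (τ * D j) := Nat.floor_le (div_pos hSR (mul_pos hτ (hDR j))).le
    rwa [le_div_iff₀ (mul_pos hτ (hDR j))] at this
  have hσ : ∑ j, 1 / (D j : ℝ) ≤ x₂ - x₁ := by
    have h1 : ∑ j, 1 / (D j : ℝ) ≤ ∑ j, lq j / H := by
      apply Finset.sum_le_sum
      intro j _
      rw [div_le_div_iff₀ (hDR j) hH0]
      have := hD1 j
      rw [div_le_iff₀ (hlq0 j)] at this
      linarith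
    rw [← Finset.sum_div, ← hΛ] at h1
    refine h1.trans ?_
    rw [div_le_iff₀ hH0]
    have : Λ / (x₂ - x₁) ≤ H := by linarith
    rw [div_le_iff₀ hx12] at this
    linarith
  obtain ⟨P, hP, hdeg, hind⟩ := aux_poly ν κ H ρ τ x₁ K ℓ S p q D n (by linarith) hκ (by linarith)
    hρ1 hK hτ hx₁ hS0 (fun j => hq' j) hD (fun j => hR j)
    (fun j => by have := hD1 j; rwa [div_le_iff₀ (hlq0 j)] at this)
    (by
      intro j
      have hqj : (0 : ℝ) < q j := by exact_mod_cast hq' j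
      have hl : (0 : ℝ) < Nat.lcmUpto (n j) := by exact_mod_cast Nat.lcmUpto_pos _
      rw [Nat.cast_mul, Real.log_mul hqj.ne' hl.ne', ← Chebyshev.psi_eq_log_lcmUpto, mul_add]
      have h1 : (D j : ℝ) * Real.log (q j) ≤ H + Λ := by
        have e1 : (D j : ℝ) * lq j ≤ (H / lq j + 1) * lq j :=
          mul_le_mul_of_nonneg_right (hD2 j) (hlq0 j).le
        have e2 : (H / lq j + 1) * lq j = H + lq j := by
          have := (hlq0 j).ne'
          field_simp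
        have := hΛj j
        show (D j : ℝ) * lq j ≤ H + Λ
        linarith
      have h2 : (D j : ℝ) * Chebyshev.psi (n j) ≤ κ * H / 2 := by
        have e1 : Chebyshev.psi (n j) ≤ Cc * n j := Chebyshev.psi_le_const_mul_self (Nat.cast_nonneg _)
        have e2 : (D j : ℝ) * (Cc * n j) = Cc / τ * (n j * (τ * D j)) := by field_simp
        have e3 : Cc / τ * (θ * H) = κ * H / 2 := by rw [hθ]; field_simp
        calc (D j : ℝ) * Chebyshev.psi (n j) ≤ D j * (Cc * n j) :=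
              mul_le_mul_of_nonneg_left e1 (hDR j).le
          _ = Cc / τ * (n j * (τ * D j)) := e2
          _ ≤ Cc / τ * (θ * H) :=
              mul_le_mul_of_nonneg_left ((hn2 j).trans hS1) (by positivity)
          _ = _ := e3
      linarith)
    hn1
    (by
      rw [← hZ]
      have h1 : ∀ j, (m : ℝ) * ((D j : ℝ) * Real.log Z) ≤ κ * H := by
        intro j
        have e1 : 2 * m * Real.log Z ≤ lq j * κ := by
          have : 2 * m * Real.log Z / κ ≤ lq j := by linarith [hlq j]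
          rwa [div_le_iff₀ hκ] at this
        calc (m : ℝ) * ((D j : ℝ) * Real.log Z) ≤ m * ((2 * H / lq j) * Real.log Z) := by
              gcongr; exact hD3 j
          _ = (2 * m * Real.log Z) * (H / lq j) := by ring
          _ ≤ (lq j * κ) * (H / lq j) :=
              mul_le_mul_of_nonneg_right e1 (div_pos hH0 (hlq0 j)).le
          _ = κ * H := by have := (hlq0 j).ne'; field_simp
      rcases Nat.eq_zero_or_pos m with hm | hm
      · subst hm; simp; positivity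
      · have hmR : (0 : ℝ) < m := by exact_mod_cast hm
        refine le_of_mul_le_mul_left ?_ hmR
        rw [Finset.sum_mul, Finset.mul_sum]
        calc _ ≤ ∑ _j : Fin m, κ * H := Finset.sum_le_sum fun j _ => h1 j
          _ = _ := by simp)
    (by rw [← hZ]; linarith) (by linarith)
    (by
      rw [hρ, Real.log_exp]
      calc (1 + 11 * κ) * H = (θ * H / 2) * (2 * (1 + 11 * κ) / θ) := by field_simp
        _ ≤ _ := by gcongr)
    hgain
    (by
      have h1 : (x₁ + ∑ j, 1 / (D j : ℝ)) ^ m ≤ x₂ ^ m := by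
        apply pow_le_pow_left₀ _ (by linarith)
        have : 0 ≤ ∑ j, 1 / (D j : ℝ) := Finset.sum_nonneg fun j _ => by positivity
        linarith
      calc _ ≤ (1 + 13 * κ) * x₂ ^ m * ((ℓ + 1) * Z) := by
            have : 0 ≤ x₂ ^ m := pow_nonneg (by linarith) _
            gcongr
        _ = ((1 + 13 * κ) * x₂ ^ m * Z) * (ℓ + 1) := by ring
        _ ≤ κ * (ℓ + 1) := by gcongr)
  have hc : ∀ j, (2 * Complex.I * p j / q j : ℂ) ≠ 0 := by
    intro j
    have hqj : (1 : ℝ) ≤ q j := by exact_mod_cast hq' j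
    have hp : p j ≠ 0 := by
      intro h0
      have h1 := hR j
      change |Real.pi - (p j : ℝ) / (q j : ℝ)| < 1 / (q j : ℝ) ^ ν at h1
      rw [h0] at h1
      simp only [Int.cast_zero, zero_div, sub_zero, abs_of_pos Real.pi_pos] at h1
      have h2 : 1 / (q j : ℝ) ^ ν ≤ 1 := by
        rw [div_le_one (by positivity)]
        exact Real.one_le_rpow hqj (by linarith)
      linarith [Real.pi_gt_three]
    refine div_ne_zero (mul_ne_zero (mul_ne_zero two_ne_zero Complex.I_ne_zero) ?_) ?_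
    · exact_mod_cast hp
    · exact_mod_cast (hq' j).ne'
  have key := zero_estimate K ℓ S (fun j => 2 * Complex.I * p j / q j) hc D n hD hℓ0
    (by
      have : (ℓ : ℝ) ≤ S := by nlinarith
      exact_mod_cast this) τ ε G hτ hτ1 hε hε1 hn1
    (by
      intro i j hij
      have h1 : 2 * G * lq i ≤ lq j := hgap i j hij
      calc G * D j ≤ G * (2 * H / lq j) := by gcongr; exact hD3 j
        _ ≤ G * (2 * H / (2 * G * lq i)) := by
            gcongr
            exact mul_pos (by linarith) (hlq0 i)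
        _ = H / lq i := by have := (hlq0 i).ne'; field_simp
        _ ≤ D i := hD1 i)
    (by
      intro j
      have h1 : 8 * G * Z / θ ≤ lq j := by linarith [hlq j]
      refine le_of_mul_le_mul_right ?_ hZ0
      calc G * D j * Z ≤ G * (2 * H / lq j) * Z := by gcongr; exact hD3 j
        _ ≤ G * (2 * H / (8 * G * Z / θ)) * Z := by gcongr
        _ = θ * H / 4 := by field_simp; ring
        _ ≤ _ := hℓ3)
    (by rw [hG]; linarith)
    (by
      calc 2 * ((m : ℝ) + 2) * ℓ < ε * Z * ℓ := by gcongr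
        _ = ε * (ℓ * Z) := by ring
        _ ≤ ε * S := by gcongr)
    P hP hdeg hind
  have hε' : 0 < 1 - ε := by linarith
  have h1 : 2 * ((m : ℝ) + 1) * ℓ < K * (1 - ε) ^ (m + 1) * τ ^ m * Z * ℓ := by gcongr
  have h2 : (K : ℝ) * (1 - ε) ^ (m + 1) * τ ^ m * Z * ℓ ≤ K * (1 - ε) ^ (m + 1) * τ ^ m * S := by
    rw [mul_assoc _ Z, mul_comm Z]; gcongr
  linarith

end Crest.Agent.R11Z
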