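import Crest.Agent.R11Z.HS
import Crest.Agent.R11Z.Der

/-!
# Row 11: the inequality of the product theorem

`T` is a set of variables independent modulo the prime `q`, the others (`J = {j // j ∉ T}`) are
algebraic over them. Put `A = ℂ[x_T]`, `F = FractionRing A`, `R' = MvPolynomial J F`,
`φ : PR m → R'` (`x_i ↦ C (x_i)` for `i ∈ T`, `x_j ↦ X j` otherwise); `φ` is injective and every
element of `R'` is `φ x / a` with `a ∈ A \ 0`; so `φ x ∈ I.map φ` iff `a x ∈ I` for some
`a ∈ A \ 0`. Apply `HS` (`ι = Unit`, `L = 2`) to `V n = {degreeOf j ≤ n * deg j}` and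
`I n = (jetI (n b)).map φ`:
* `R' / I n` is finite: each `X j` is a root of the nonzero polynomial `φ (f_j ^ N)` over `F`
  (`exists_pow_jet`);
* a prime `p'` with `comap φ p' ⊉ 𝒢` has `f = φ G`; if `𝒢 ⊆ p = comap φ p'` and `p ≤ q` then `p = q`
  by minimality and `R'/p'` is finite (first alternative); if `p ≰ q`, take `y ∈ p \ q`: as
  `R'/q'` is a finite domain over `F` (a field), `q' + (φ y) = ⊤`, hence `p' ⊔ I n = ⊤` and `f = 1`
  works;
* `qdim (I n) ≥ #{t | t j < n b s (β j) / c} ≥ ∏ (n b s (β j) / c)` by `jet_indep` (clear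
  denominators; coefficients in `A` meet `q` only in `0`);
* `finrank V (n + n/2) ≤ ∏ ((n + n/2) deg j + 1) ≤ ∏ (2 n deg j)` for `n ≥ 2`.
-/

set_option autoImplicit false
open MvPolynomial Module

namespace Crest.Agent.R11Z

variable {m : ℕ}

namespace P1A

section Loc

variable {A R R' : Type*} [CommRing A] [IsDomain A] [CommRing R] [CommRing R']

/-- `R'` is the localization of `R` at the images of the nonzero elements of `A` -/
structure Loc (ψ : A →+* R) (φ : R →+* R') : Prop where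
  unit : ∀ a, a ≠ 0 → IsUnit (φ (ψ a))
  inj : Function.Injective φ
  surj : ∀ y : R', ∃ a : A, a ≠ 0 ∧ ∃ x, φ x = φ (ψ a) * y

variable {ψ : A →+* R} {φ : R →+* R'}

theorem Loc.mem_map (h : Loc ψ φ) (I : Ideal R) {y : R'} (hy : y ∈ I.map φ) :
    ∃ a : A, a ≠ 0 ∧ ∃ x ∈ I, φ x = φ (ψ a) * y := by
  induction hy using Submodule.span_induction with
  | mem y hy =>
    obtain ⟨x, hx, rfl⟩ := hy
    exact ⟨1, one_ne_zero, x, hx, by simp⟩
  | zero => exact ⟨1, one_ne_zero, 0, I.zero_mem, by simp⟩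
  | add y z _ _ hy hz =>
    obtain ⟨a, ha, x, hx, e⟩ := hy
    obtain ⟨a', ha', x', hx', e'⟩ := hz
    refine ⟨a * a', mul_ne_zero ha ha', ψ a' * x + ψ a * x',
      I.add_mem (I.mul_mem_left _ hx) (I.mul_mem_left _ hx'), ?_⟩
    simp only [map_add, map_mul, e, e']
    ring
  | smul r y _ hy =>
    obtain ⟨a, ha, x, hx, e⟩ := hy
    obtain ⟨a', ha', x', e'⟩ := h.surj r
    refine ⟨a * a', mul_ne_zero ha ha', x' * x, I.mul_mem_left _ hx, ?_⟩
    simp only [map_mul, e, e', smul_eq_mul]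
    ring

theorem Loc.mem_map' (h : Loc ψ φ) (I : Ideal R) {x : R} (hx : φ x ∈ I.map φ) :
    ∃ a : A, a ≠ 0 ∧ ψ a * x ∈ I := by
  obtain ⟨a, ha, x', hx', e⟩ := h.mem_map I hx
  rw [← map_mul] at e
  exact ⟨a, ha, h.inj e ▸ hx'⟩

theorem Loc.mem_of_map (h : Loc ψ φ) (q : Ideal R) [hq : q.IsPrime] (hA : ∀ a, ψ a ∈ q → a = 0)
    {x : R} (hx : φ x ∈ q.map φ) : x ∈ q := by
  obtain ⟨a, ha, hx⟩ := h.mem_map' q hx
  exact (hq.mem_or_mem hx).resolve_left fun h => ha (hA a h)

theorem Loc.prime (h : Loc ψ φ) (q : Ideal R) [hq : q.IsPrime] (hA : ∀ a, ψ a ∈ q → a = 0) :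
    (q.map φ).IsPrime := by
  refine ⟨fun e => hq.ne_top ((Ideal.eq_top_iff_one q).mpr (h.mem_of_map q hA ?_)), ?_⟩
  · rw [e]; trivial
  · intro y z hyz
    obtain ⟨a, ha, x, e⟩ := h.surj y
    obtain ⟨a', ha', x', e'⟩ := h.surj z
    have h1 : φ (x * x') ∈ q.map φ := by
      rw [map_mul, e, e', mul_mul_mul_comm]
      exact Ideal.mul_mem_left _ _ hyz
    refine (hq.mem_or_mem (h.mem_of_map q hA h1)).imp (fun hx => ?_) fun hx => ?_
    · exact (Ideal.unit_mul_mem_iff_mem _ (h.unit a ha)).mp (e ▸ Ideal.mem_map_of_mem φ hx)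
    · exact (Ideal.unit_mul_mem_iff_mem _ (h.unit a' ha')).mp (e' ▸ Ideal.mem_map_of_mem φ hx)

end Loc

section Poly

variable {J F : Type*} [Fintype J] [Field F]

theorem fin_of_alg (I : Ideal (MvPolynomial J F))
    (h : ∀ j, ∃ P : Polynomial F, P ≠ 0 ∧ Polynomial.aeval (X j : MvPolynomial J F) P ∈ I) :
    FiniteDimensional F (MvPolynomial J F ⧸ I) := by
  have : Algebra.IsIntegral F (MvPolynomial J F ⧸ I) := ⟨fun y => by
    obtain ⟨x, rfl⟩ := Ideal.Quotient.mk_surjective y
    induction x using MvPolynomial.induction_on with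
    | C a => exact isIntegral_algebraMap
    | add p q hp hq => rw [map_add]; exact hp.add hq
    | mul_X p j hp =>
      rw [map_mul]
      refine hp.mul (IsAlgebraic.isIntegral ?_)
      obtain ⟨P, hP, hI⟩ := h j
      refine ⟨P, hP, ?_⟩
      rw [← Ideal.Quotient.mkₐ_eq_mk F, Polynomial.aeval_algHom_apply]
      exact Ideal.Quotient.eq_zero_iff_mem.mpr hI⟩
  exact Algebra.IsIntegral.finite

/-- box of exponents -/
def box (N : J → ℕ) : Set (J →₀ ℕ) := {a | ∀ j, a j ≤ N j}

/-- the box is in bijection with a product -/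
noncomputable def boxEquiv (N : J → ℕ) : box N ≃ ∀ j, Fin (N j + 1) where
  toFun a j := ⟨a.1 j, Nat.lt_succ_of_le (a.2 j)⟩
  invFun t := ⟨Finsupp.equivFunOnFinite.symm fun j => t j, fun j => Nat.le_of_lt_succ (t j).2⟩
  left_inv a := by ext j; rfl
  right_inv t := by ext j; rfl

omit [Fintype J] in
theorem mem_box {N : J → ℕ} {y : MvPolynomial J F} :
    y ∈ restrictSupport F (box N) ↔ ∀ j, degreeOf j y ≤ N j := by
  simp only [mem_restrictSupport_iff, degreeOf_le_iff]
  exact ⟨fun h j a ha => h ha j, fun h a ha j => h j a ha⟩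

theorem finrank_box (N : J → ℕ) : finrank F (restrictSupport F (box N)) = ∏ j, (N j + 1) := by
  classical
  rw [finrank_eq_nat_card_basis (basisRestrictSupport F (box N)), Nat.card_congr (boxEquiv N),
    Nat.card_pi]
  simp

/-- the degree filtration -/
noncomputable def degFilt (F : Type*) [Field F] (deg : J → ℕ) (hdeg : ∀ j, 0 < deg j) :
    Filt F (MvPolynomial J F) where
  V n := restrictSupport F (box fun j => n * deg j)
  fin n := by
    classical
    have : Finite (box fun j => n * deg j) := Finite.of_equiv _ (boxEquiv _).symm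
    exact Module.Finite.of_basis (basisRestrictSupport F _)
  mono a b h := restrictSupport_mono F fun t ht j => (ht j).trans (Nat.mul_le_mul_right _ h)
  one := mem_box.mpr fun j => by rw [← C_1, degreeOf_C]; exact Nat.zero_le _
  mul a b x y hx hy := mem_box.mpr fun j => by
    rw [add_mul]
    exact (degreeOf_mul_le j x y).trans (add_le_add (mem_box.mp hx j) (mem_box.mp hy j))
  exh x := ⟨x.totalDegree, mem_box.mpr fun j => (degreeOf_le_totalDegree x j).trans
    (Nat.le_mul_of_pos_right _ (hdeg j))⟩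

end Poly

variable (T : Finset (Fin (m + 1)))

/-- polynomials in the variables of `T` -/
abbrev AT := MvPolynomial {i // i ∈ T} ℂ

/-- the field of fractions -/
abbrev FT := FractionRing (AT T)

/-- the localized ring -/
abbrev RT := MvPolynomial {j // j ∉ T} (FT T)

/-- inclusion -/
noncomputable def inc : AT T →+* PR m := (rename Subtype.val : AT T →ₐ[ℂ] PR m).toRingHom

/-- splitting of the variables -/
noncomputable def spl : PR m →+* MvPolynomial {j // j ∉ T} (AT T) :=
  eval₂Hom (C.comp C) fun i => if h : i ∈ T then C (X ⟨i, h⟩) else X ⟨i, h⟩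

/-- localization map -/
noncomputable def loc : PR m →+* RT T := (map (algebraMap (AT T) (FT T))).comp (spl T)

theorem spl_inj : Function.Injective (spl T) := by
  have : (eval₂Hom (inc T) fun j : {j // j ∉ T} => (X j : PR m)).comp (spl T) = RingHom.id _ := by
    refine ringHom_ext (fun r => by simp [spl, inc]) fun i => ?_
    by_cases h : i ∈ T <;> simp [spl, inc, h]
  exact Function.LeftInverse.injective (g := eval₂Hom (inc T) fun j : {j // j ∉ T} => (X j : PR m))
    fun x => RingHom.congr_fun this x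

theorem loc_C (r : ℂ) : loc T (C r) = C (algebraMap (AT T) (FT T) (C r)) := by
  simp [loc, spl]

theorem loc_X_mem {i : Fin (m + 1)} (h : i ∈ T) :
    loc T (X i) = C (algebraMap (AT T) (FT T) (X ⟨i, h⟩)) := by
  simp [loc, spl, h]

theorem loc_X {i : Fin (m + 1)} (h : i ∉ T) : loc T (X i) = X ⟨i, h⟩ := by
  simp [loc, spl, h]

theorem loc_inc (a : AT T) : loc T (inc T a) = C (algebraMap (AT T) (FT T) a) := by
  have : (loc T).comp (inc T) = C.comp (algebraMap (AT T) (FT T)) := by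
    refine ringHom_ext (fun r => ?_) fun i => ?_
    · simp [inc, loc_C]
    · simp [inc, loc_X_mem]
  exact RingHom.congr_fun this a

theorem isLoc : Loc (inc T) (loc T) where
  unit a ha := by
    rw [loc_inc]
    exact (Ne.isUnit ((map_ne_zero_iff _ (IsFractionRing.injective _ _)).mpr ha)).map C
  inj := (map_injective _ (IsFractionRing.injective _ _)).comp (spl_inj T)
  surj y := by
    induction y using MvPolynomial.induction_on with
    | C c =>
      obtain ⟨x, a, ha, rfl⟩ := IsFractionRing.div_surjective (AT T) c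
      have ha' := nonZeroDivisors.ne_zero ha
      refine ⟨a, ha', inc T x, ?_⟩
      rw [loc_inc, loc_inc, ← map_mul, mul_div_cancel₀ _
        ((map_ne_zero_iff _ (IsFractionRing.injective _ _)).mpr ha')]
    | add y z hy hz =>
      obtain ⟨a, ha, x, e⟩ := hy
      obtain ⟨a', ha', x', e'⟩ := hz
      refine ⟨a * a', mul_ne_zero ha ha', inc T a' * x + inc T a * x', ?_⟩
      simp only [map_add, map_mul, e, e']
      ring
    | mul_X y j hy =>
      obtain ⟨a, ha, x, e⟩ := hy
      exact ⟨a, ha, x * X j.1, by rw [(loc T).map_mul, e, loc_X T j.2, mul_assoc]⟩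

theorem inc_vars (a : AT T) : (inc T a).vars ⊆ T := fun i hi => by
  obtain ⟨j, -, rfl⟩ := mem_vars_rename _ _ hi
  exact j.2

theorem inc_inj : Function.Injective (inc T) := rename_injective _ Subtype.val_injective

theorem exists_poly (j : {j // j ∉ T}) (f : PR m) (h0 : f ≠ 0) (hv : f.vars ⊆ insert j.1 T) :
    ∃ P : Polynomial (FT T), P ≠ 0 ∧ Polynomial.aeval (X j : RT T) P = loc T f := by
  let θ : PR m →+* Polynomial (FT T) :=
    eval₂Hom (Polynomial.C.comp ((algebraMap (AT T) (FT T)).comp C)) fun i =>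
      if h : i ∈ T then Polynomial.C (algebraMap (AT T) (FT T) (X ⟨i, h⟩)) else Polynomial.X
  have e : Polynomial.aeval (X j : RT T) (θ f) = loc T f := by
    refine hom_congr_vars (f₁ := (Polynomial.aeval (X j : RT T)).toRingHom.comp θ) (f₂ := loc T)
      (p₁ := f) (p₂ := f) (RingHom.ext fun r => by simp [θ, loc_C]) (fun i hi _ => ?_) rfl
    by_cases h : i ∈ T
    · simp [θ, h, loc_X_mem]
    · have : i = j.1 := (Finset.mem_insert.mp (hv hi)).resolve_right h
      subst this
      simp [θ, h, loc_X]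
  refine ⟨θ f, fun h => h0 ((isLoc T).inj ?_), e⟩
  rw [← e, h, map_zero, map_zero]

theorem degreeOf_loc (j : {j // j ∉ T}) (f : PR m) : degreeOf j (loc T f) ≤ degreeOf j.1 f := by
  classical
  conv_lhs => rw [f.as_sum, map_sum]
  refine (degreeOf_sum_le _ _ _).trans (Finset.sup_le fun a ha => ?_)
  refine le_trans ?_ (degreeOf_le_iff.mp le_rfl a ha)
  rw [monomial_eq, map_mul, loc_C, Finsupp.prod_fintype _ _ (by simp), map_prod]
  refine (degreeOf_C_mul_le _ _ _).trans ((degreeOf_prod_le _ _ _).trans ?_)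
  rw [Finset.sum_eq_single j.1 (fun i _ hi => ?_) (by simp), map_pow, loc_X T j.2]
  · simp
  · rw [map_pow]
    refine Nat.eq_zero_of_le_zero ((degreeOf_pow_le _ _ _).trans (le_of_eq ?_))
    by_cases h : i ∈ T
    · rw [loc_X_mem T h, degreeOf_C, mul_zero]
    · rw [loc_X T h, degreeOf_X_of_ne fun e => hi (congrArg Subtype.val e).symm, mul_zero]

end P1A

theorem prod_ineq (δ : Fin (m + 1) → Derivation ℂ (PR m) (PR m)) (s : Fin (m + 1) → ℝ)
    (hs : ∀ i, 0 < s i) (deg : Fin (m + 1) → ℕ) (hdeg : ∀ i, 0 < deg i)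
    (q : Ideal (PR m)) [q.IsPrime] (T : Finset (Fin (m + 1)))
    (hind : ∀ f ∈ q, f.vars ⊆ T → f = 0)
    (halg : ∀ j, j ∉ T → ∃ f ∈ q, f ≠ 0 ∧ f.vars ⊆ insert j T)
    (𝒢 : Set (PR m)) (hmin : q ∈ (Ideal.span 𝒢).minimalPrimes) (b : ℝ) (hb : 0 < b)
    (hG : ∀ G ∈ 𝒢, (∀ i, degreeOf i G ≤ deg i) ∧ Jet δ s q b G)
    (β : {j // j ∉ T} → Fin (m + 1)) (g : {j // j ∉ T} → PR m) (s₀ : PR m)
    (hg : ∀ j, g j ∈ q) (hs₀ : s₀ ∉ q)
    (hδ : ∀ j j', δ (β j') (g j) - (if j' = j then s₀ else 0) ∈ q) :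
    ∏ j : {j // j ∉ T}, (b / (Fintype.card {j // j ∉ T} : ℝ) * s (β j)) ≤
      ∏ j : {j // j ∉ T}, (2 * (deg j : ℝ)) := by
  classical
  rcases isEmpty_or_nonempty {j // j ∉ T} with hJ | hJ
  · simp
  have hL := P1A.isLoc T
  have hA : ∀ a, P1A.inc T a ∈ q → a = 0 := fun a ha =>
    P1A.inc_inj T ((hind _ ha (P1A.inc_vars T a)).trans (map_zero _).symm)
  have hfin : ∀ I : Ideal (P1A.RT T), (∃ N, ∀ x ∈ q, P1A.loc T x ^ N ∈ I) →
      FiniteDimensional (P1A.FT T) (P1A.RT T ⧸ I) := by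
    rintro I ⟨N, hN⟩
    refine P1A.fin_of_alg I fun j => ?_
    obtain ⟨f, hf, h0, hv⟩ := halg j j.2
    obtain ⟨P, hP, e⟩ := P1A.exists_poly T j f h0 hv
    exact ⟨P ^ N, pow_ne_zero _ hP, by rw [map_pow, e]; exact hN f hf⟩
  have hpow : ∀ n : ℕ, ∃ N, ∀ x ∈ q, P1A.loc T x ^ N ∈ (jetI δ s hs q (n * b)).map (P1A.loc T) := by
    intro n
    obtain ⟨N, -, hN⟩ := exists_pow_jet δ s hs q (n * b)
    exact ⟨N, fun x hx => map_pow (P1A.loc T) x N ▸ Ideal.mem_map_of_mem _ (mem_jetI.mpr (hN x hx))⟩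
  let I : IFilt (P1A.FT T) (P1A.RT T) :=
    { I := fun n => (jetI δ s hs q (n * b)).map (P1A.loc T)
      anti := fun n n' h => Ideal.map_mono fun x hx => mem_jetI.mpr ((mem_jetI.mp hx).mono
        (mul_le_mul_of_nonneg_right (Nat.cast_le.mpr h) hb.le))
      mul := fun n n' x y hx hy => by
        have h1 := Ideal.mul_mem_mul hx hy
        rw [← Ideal.map_mul] at h1
        refine Ideal.map_mono (Ideal.mul_le.mpr fun u hu v hv => mem_jetI.mpr ?_) h1
        rw [Nat.cast_add, add_mul]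
        exact (mem_jetI.mp hu).mul (mem_jetI.mp hv)
      fin := fun n => hfin _ (hpow n) }
  let V := P1A.degFilt (P1A.FT T) (fun j : {j // j ∉ T} => deg j) fun j => hdeg j
  have hq' := hL.prime q hA
  have hmax : (q.map (P1A.loc T)).IsMaximal := by
    have := hfin (q.map (P1A.loc T)) ⟨1, fun x hx => by rw [pow_one]; exact Ideal.mem_map_of_mem _ hx⟩
    have := IsArtinianRing.of_finite (P1A.FT T) (P1A.RT T ⧸ q.map (P1A.loc T))
    exact Ideal.Quotient.maximal_of_isField _ 
      (IsArtinianRing.isField_of_isDomain (P1A.RT T ⧸ q.map (P1A.loc T)))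
  have hHS := HS V (fun _ : Unit => I) (fun p hp => by
    by_cases h1 : ∀ G ∈ 𝒢, P1A.loc T G ∈ p
    · by_cases h2 : p.comap (P1A.loc T) ≤ q
      · have h3 : q ≤ p.comap (P1A.loc T) :=
          hmin.2 ⟨Ideal.comap_isPrime _ _, Ideal.span_le.mpr h1⟩ h2
        exact Or.inl ⟨hfin p ⟨1, fun x hx => by rw [pow_one]; exact h3 hx⟩, (),
          fun k hk => absurd rfl hk⟩
      · obtain ⟨y, hy, hyq⟩ := SetLike.not_le_iff_exists.mp h2
        have h3 : p ⊔ q.map (P1A.loc T) = ⊤ := hmax.1.2 _ (lt_of_le_of_ne le_sup_right fun e =>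
          hyq (hL.mem_of_map q hA (e ▸ Ideal.mem_sup_left hy)))
        have h4 : p ⊔ I.I 1 = ⊤ := by
          rw [← Ideal.radical_eq_top, eq_top_iff, ← h3]
          refine sup_le (le_sup_left.trans Ideal.le_radical) (Ideal.map_le_iff_le_comap.mpr fun x hx => ?_)
          obtain ⟨N, hN⟩ := hpow 1
          exact ⟨N, Ideal.mem_sup_right (hN x hx)⟩
        exact Or.inr ⟨1, one_pos, 1, V.mono (Nat.zero_le 1) V.one,
          fun h => hp.ne_top ((Ideal.eq_top_iff_one p).mpr h), fun _ => by rw [h4]; trivial⟩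
    · push Not at h1
      obtain ⟨G, hG𝒢, hGp⟩ := h1
      refine Or.inr ⟨1, one_pos, P1A.loc T G, P1A.mem_box.mpr fun j => ?_, hGp, fun _ =>
        Ideal.mem_sup_right (Ideal.mem_map_of_mem _ (mem_jetI.mpr ?_))⟩
      · rw [one_mul]
        exact (P1A.degreeOf_loc T j G).trans ((hG G hG𝒢).1 j)
      · rw [Nat.cast_one, one_mul]
        exact (hG G hG𝒢).2) 2 two_pos
  obtain ⟨n, hn, hn1⟩ := (hHS.and (Filter.eventually_ge_atTop 1)).exists
  set c : ℝ := (Fintype.card {j // j ∉ T} : ℝ) with hc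
  have hc0 : 0 < c := Nat.cast_pos.mpr Fintype.card_pos
  set B : Finset ({j // j ∉ T} → ℕ) :=
    Fintype.piFinset fun j => Finset.range ⌈n * (b / c * s (β j))⌉₊ with hB
  have hli : LinearIndepOn (P1A.AT T) (fun t : {j // j ∉ T} → ℕ =>
      Ideal.Quotient.mk (I.I n) (P1A.loc T (∏ j, g j ^ t j))) B := by
    rw [linearIndepOn_finset_iff]
    intro α hα
    have h1 : P1A.loc T (∑ t ∈ B, P1A.inc T (α t) * ∏ j, g j ^ t j) ∈ I.I n := by
      rw [← Ideal.Quotient.eq_zero_iff_mem, ← hα, map_sum, map_sum]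
      refine Finset.sum_congr rfl fun t _ => ?_
      rw [map_mul, P1A.loc_inc, C_mul', algebraMap_smul]
      rfl
    obtain ⟨a, ha, h2⟩ := hL.mem_map' _ h1
    have h3 := jet_indep δ s q β g s₀ hg hs₀ hδ B (n * b) (fun t ht => ?_)
      (fun t => P1A.inc T (a * α t)) (fun t _ h => by rw [hA _ h, map_zero]) (by
        rw [Finset.mul_sum] at h2
        simpa only [map_mul, mul_assoc] using mem_jetI.mp h2)
    · intro t ht
      exact (mul_eq_zero.mp (P1A.inc_inj T ((h3 t ht).trans (map_zero _).symm))).resolve_left ha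
    · have : ∑ j, (t j : ℝ) / s (β j) < ∑ _j : {j // j ∉ T}, n * b / c := by
        refine Finset.sum_lt_sum_of_nonempty Finset.univ_nonempty fun j _ => ?_
        have h4 := Nat.lt_ceil.mp (Finset.mem_range.mp (Fintype.mem_piFinset.mp ht j))
        rw [div_lt_iff₀ (hs _)]
        convert h4 using 1
        ring
      rwa [Finset.sum_const, Finset.card_univ, nsmul_eq_mul, mul_div_cancel₀ _ hc0.ne'] at this
  have hfn := I.fin n
  have h1 := ((LinearIndependent.iff_fractionRing (P1A.AT T) (P1A.FT T)).mp hli).fintype_card_le_finrank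
  have h2 : finrank (P1A.FT T) (V.V (n + n / 2)) = _ := P1A.finrank_box _
  rw [Finset.univ_unique, Finset.sum_singleton, h2] at hn
  have h3 : (∏ j, ⌈n * (b / c * s (β j))⌉₊) ≤ ∏ j : {j // j ∉ T}, n * (2 * deg j) := by
    have h4 : Fintype.card (B : Set ({j // j ∉ T} → ℕ)) = ∏ j, ⌈n * (b / c * s (β j))⌉₊ := by
      simp [hB]
    refine h4 ▸ h1.trans (hn.trans (Finset.prod_le_prod' fun j _ => ?_))
    have h5 := hdeg j
    have h6 : n / 2 + 1 ≤ n := by omega
    nlinarith
  have h4 : ∏ j : {j // j ∉ T}, (n * (b / c * s (β j))) ≤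
      ∏ j : {j // j ∉ T}, ((n : ℝ) * (2 * deg j)) := by
    refine le_trans (Finset.prod_le_prod (fun j _ => ?_) fun j _ => Nat.le_ceil _) ?_
    · have := hs (β j)
      positivity
    · exact_mod_cast h3
  rw [Finset.prod_mul_distrib, Finset.prod_mul_distrib (f := fun _ => (n : ℝ))] at h4
  exact le_of_mul_le_mul_left h4 (Finset.prod_pos fun _ _ => Nat.cast_pos.mpr hn1)

end Crest.Agent.R11Z
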