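import Crest.Agent.R11Z.Der

/-!
# Row 11: structure of a prime with respect to the frame `dv`

* `exists_greedy`: among the sets `T` with `q ∩ ℂ[x_T] = 0` take one maximising
  `∑ i ∈ T, 2 ^ (m - i)`; for `j ∉ T` the set `(T ∩ [0,j)) ∪ {j}` has larger weight.
* `exists_minimal`: take `f ≠ 0` in `q` with variables in `U` and minimal leading monomial
  (`MonomialOrder.lex`, well-founded). Then `pderiv i f ∈ q → pderiv i f = 0`, and
  `dv m 0 f ∈ q → dv m 0 f = e • f` (`e` = exponent of `Y` in the leading monomial).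
* `no_eigen`: if `dv m 0 f = e f` and `pderiv i.succ f = 0` for `i ≠ j` then `pderiv j.succ f = 0`
  (look at coefficients: `(a 0 - e) c_a + (a j + 1) c_{a + e_j} = 0`; take `a` in the support with
  `a j` maximal among those with the same `a 0`...).
* `diag_of_triangular`: adjugate matrix over `PR m ⧸ q` (or over `PR m`).
* `structure_thm`: `J = Tᶜ ≠ ∅`, `f_j` from `exists_minimal` with `U = (T ∩ [0,j)) ∪ {j}`,
  diagonal entries `dv j f_j ∉ q`. Let `j₀ = min J`. If `j₀ ≠ 0`, some `i < j₀` has `dv i f_{j₀} ∉ q`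
  (else `no_eigen`), `β j₀ = i`. If `j₀ = 0` then `Y - 1 ∈ q`; if `J = {0}` we are in the second
  case; else `j₁` = second smallest element of `J`: either some `0 < i < j₁` has `dv i f_{j₁} ∉ q`
  (`β j₁ = i`), or `f_{j₁}` is a polynomial in `x_{j₁}` alone and `x_{j₁} - γ ∈ q`.
-/

set_option autoImplicit false
open MvPolynomial Module

namespace Crest.Agent.R11Z

variable {m : ℕ}

namespace P2A

theorem dv_succ (j : Fin m) : dv m j.succ = pderiv j.succ := rfl

theorem dv_of_ne {i : Fin (m + 1)} (h : i ≠ 0) : dv m i = pderiv i := by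
  obtain ⟨j, rfl⟩ := Fin.exists_succ_eq.mpr h
  rfl

theorem dv_zero (f : PR m) : dv m 0 f = X 0 * pderiv 0 f + ∑ j : Fin m, pderiv j.succ f := by
  induction f using MvPolynomial.induction_on with
  | C a => simp [derivation_C]
  | add p q hp hq => simp only [map_add, hp, hq, Finset.sum_add_distrib]; ring
  | mul_X p i h =>
    have e : dv m 0 (X i) = X 0 * pderiv 0 (X i : PR m) + ∑ j : Fin m, pderiv j.succ (X i : PR m) := by
      show mkDerivation ℂ (Fin.cons (X 0) (fun _ => 1) : Fin (m + 1) → PR m) (X i) = _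
      rw [mkDerivation_X]
      refine Fin.cases ?_ (fun k => ?_) i
      · simp [pderiv_X, (Fin.succ_ne_zero _).symm]
      · simp [pderiv_X, Pi.single_apply]
    simp only [Derivation.leibniz, smul_eq_mul, h, e, Finset.sum_add_distrib, ← Finset.mul_sum]
    ring

theorem coeff_X_mul_pderiv (f : PR m) (i : Fin (m + 1)) (a : Fin (m + 1) →₀ ℕ) :
    coeff a (X i * pderiv i f) = (a i : ℂ) * coeff a f := by
  classical
  induction f using MvPolynomial.induction_on' with
  | add p q hp hq => simp [hp, hq, mul_add]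
  | monomial n c =>
    rw [X_mul_pderiv_monomial, coeff_smul, coeff_monomial]
    split_ifs with h
    · subst h; simp
    · simp

theorem coeff_dv_sub (f : PR m) (e : ℕ) (a : Fin (m + 1) →₀ ℕ) :
    coeff a (dv m 0 f - (e : PR m) * f) = ((a 0 : ℂ) - e) * coeff a f +
      ∑ j : Fin m, coeff a (pderiv j.succ f) := by
  rw [coeff_sub, dv_zero, coeff_add, coeff_X_mul_pderiv, coeff_sum, ← nsmul_eq_mul e f, coeff_smul,
    nsmul_eq_mul]
  ring

theorem mem_support_of_pderiv {f : PR m} {i : Fin (m + 1)} {a : Fin (m + 1) →₀ ℕ}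
    (h : coeff a (pderiv i f) ≠ 0) : a + Finsupp.single i 1 ∈ f.support := by
  rw [coeff_pderiv] at h
  exact mem_support_iff.mpr (left_ne_zero_of_mul h)

theorem vars_subset_of {f g : PR m} (h : ∀ a ∈ g.support, ∃ b ∈ f.support, a ≤ b) :
    g.vars ⊆ f.vars := by
  intro i hi
  obtain ⟨a, ha, hi⟩ := (mem_vars_iff_mem_support i).mp hi
  obtain ⟨b, hb, hab⟩ := h a ha
  exact (mem_vars_iff_mem_support i).mpr ⟨b, hb, Finsupp.support_mono hab hi⟩

end P2A

theorem exists_greedy (q : Ideal (PR m)) [q.IsPrime] :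
    ∃ T : Finset (Fin (m + 1)), (∀ f ∈ q, f.vars ⊆ T → f = 0) ∧
      ∀ j, j ∉ T → ∃ f ∈ q, f ≠ 0 ∧ f.vars ⊆ insert j (T.filter (· < j)) := by
  classical
  have key : ∀ k : ℕ, ∃ T : Finset (Fin (m + 1)), (∀ i ∈ T, (i : ℕ) < k) ∧
      (∀ f ∈ q, f.vars ⊆ T → f = 0) ∧
      ∀ j : Fin (m + 1), (j : ℕ) < k → j ∉ T →
        ∃ f ∈ q, f ≠ 0 ∧ f.vars ⊆ insert j (T.filter (· < j)) := by
    intro k
    induction k with
    | zero =>
      refine ⟨∅, by simp, fun f hf hv => ?_, by simp⟩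
      rw [Finset.subset_empty, vars_eq_empty_iff_eq_C] at hv
      by_contra h0
      have hc : f.coeff 0 ≠ 0 := fun e => h0 (by rw [hv, e, map_zero])
      refine (‹q.IsPrime›).ne_top (Ideal.eq_top_of_isUnit_mem _ hf ?_)
      rw [hv]
      exact (Ne.isUnit hc).map C
    | succ k ih =>
      obtain ⟨T, h1, h2, h3⟩ := ih
      by_cases hk : k < m + 1
      · by_cases hT : ∀ f ∈ q, f.vars ⊆ insert ⟨k, hk⟩ T → f = 0
        · refine ⟨insert ⟨k, hk⟩ T, fun i hi => ?_, hT, fun j hj hjT => ?_⟩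
          · rcases Finset.mem_insert.mp hi with rfl | hi
            · simp
            · exact (h1 i hi).trans (Nat.lt_succ_self k)
          · rw [Finset.mem_insert, not_or] at hjT
            have hj' : (j : ℕ) < k := lt_of_le_of_ne (Nat.lt_succ_iff.mp hj) fun e =>
              hjT.1 (Fin.ext e)
            obtain ⟨f, hf, h0, hv⟩ := h3 j hj' hjT.2
            exact ⟨f, hf, h0, hv.trans (Finset.insert_subset_insert _
              (Finset.filter_subset_filter _ (Finset.subset_insert _ _)))⟩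
        · refine ⟨T, fun i hi => (h1 i hi).trans (Nat.lt_succ_self k), h2, fun j hj hjT => ?_⟩
          by_cases hj' : (j : ℕ) < k
          · exact h3 j hj' hjT
          · push Not at hT
            obtain ⟨f, hf, hv, h0⟩ := hT
            have e : j = ⟨k, hk⟩ := Fin.ext (show (j : ℕ) = k by omega)
            subst e
            refine ⟨f, hf, h0, ?_⟩
            rwa [Finset.filter_true_of_mem fun i hi => show i < _ from h1 i hi]
      · exact ⟨T, fun i hi => (h1 i hi).trans (Nat.lt_succ_self k), h2,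
          fun j _ hjT => h3 j (by have := j.2; omega) hjT⟩
  obtain ⟨T, -, h2, h3⟩ := key (m + 1)
  exact ⟨T, h2, fun j hj => h3 j j.2 hj⟩

theorem exists_minimal (q : Ideal (PR m)) (U : Finset (Fin (m + 1)))
    (h : ∃ f ∈ q, f ≠ 0 ∧ f.vars ⊆ U) :
    ∃ f ∈ q, f ≠ 0 ∧ f.vars ⊆ U ∧ (∀ i, pderiv i f ∈ q → pderiv i f = 0) ∧
      (dv m 0 f ∈ q → ∃ e : ℕ, dv m 0 f = (e : PR m) * f) := by
  classical
  set o : MonomialOrder (Fin (m + 1)) := MonomialOrder.lex
  obtain ⟨f, ⟨hf, h0, hv⟩, hmin⟩ := (InvImage.wf (fun f : PR m => o.toSyn (o.degree f))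
    (wellFounded_lt (α := o.syn))).has_min {f | f ∈ q ∧ f ≠ 0 ∧ f.vars ⊆ U} h
  have key : ∀ g ∈ q, (∀ a ∈ g.support, a ≠ o.degree f ∧ ∃ b ∈ f.support, a ≤ b) → g = 0 := by
    intro g hg ha
    by_contra hg0
    refine hmin g ⟨hg, hg0, (P2A.vars_subset_of fun a h => (ha a h).2).trans hv⟩ ?_
    obtain ⟨h1, b, hb, hab⟩ := ha _ (o.degree_mem_support hg0)
    exact lt_of_le_of_ne ((o.toSyn_monotone hab).trans (o.le_degree hb)) fun e =>
      h1 (o.toSyn.injective e)
  have hlt : ∀ i, coeff (o.degree f) (pderiv i f) = 0 := by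
    intro i
    by_contra hc
    have h1 := o.le_degree (P2A.mem_support_of_pderiv hc)
    refine absurd h1 (not_le.mpr (o.toSyn_strictMono ?_))
    exact lt_add_of_pos_right _ (pos_iff_ne_zero.mpr (Finsupp.single_ne_zero.mpr one_ne_zero))
  refine ⟨f, hf, h0, hv, fun i hi => key _ hi fun a ha => ⟨?_, _,
    P2A.mem_support_of_pderiv (mem_support_iff.mp ha), le_self_add⟩, fun hd => ⟨o.degree f 0, ?_⟩⟩
  · rintro rfl
    exact mem_support_iff.mp ha (hlt i)
  · refine sub_eq_zero.mp (key _ (q.sub_mem hd (q.mul_mem_left _ hf)) fun a ha => ⟨?_, ?_⟩)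
    · rintro rfl
      refine mem_support_iff.mp ha ?_
      rw [P2A.coeff_dv_sub]
      simp [hlt]
    · by_contra hc
      push Not at hc
      refine mem_support_iff.mp ha ?_
      rw [P2A.coeff_dv_sub, Finset.sum_eq_zero, notMem_support_iff.mp fun h => hc a h le_rfl]
      · simp
      · intro j _
        by_contra hj
        exact hc _ (P2A.mem_support_of_pderiv hj) le_self_add

theorem no_eigen (f : PR m) (e : ℕ) (j : Fin m) (h : dv m 0 f = (e : PR m) * f)
    (h' : ∀ i : Fin m, i ≠ j → pderiv i.succ f = 0) : pderiv j.succ f = 0 := by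
  classical
  have key : ∀ a, ((a 0 : ℂ) - e) * coeff a f + coeff a (pderiv j.succ f) = 0 := by
    intro a
    have h1 := P2A.coeff_dv_sub f e a
    rw [h, sub_self, coeff_zero, Finset.sum_eq_single j (fun i _ hi => by rw [h' i hi, coeff_zero])
      (by simp)] at h1
    exact h1.symm
  have h2 : ∀ a ∈ f.support, a 0 = e := by
    by_contra hc
    push Not at hc
    obtain ⟨a₀, ha₀, ha₀'⟩ := hc
    obtain ⟨a, ha, hmax⟩ := Finset.exists_max_image (f.support.filter fun a => a 0 ≠ e)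
      (fun a => a j.succ) ⟨a₀, Finset.mem_filter.mpr ⟨ha₀, ha₀'⟩⟩
    obtain ⟨ha1, ha2⟩ := Finset.mem_filter.mp ha
    have h3 : coeff a (pderiv j.succ f) = 0 := by
      by_contra hc
      have := hmax _ (Finset.mem_filter.mpr ⟨P2A.mem_support_of_pderiv hc, by
        simpa [Finsupp.single_apply, Fin.succ_ne_zero] using ha2⟩)
      simp at this
    have h4 := key a
    rw [h3, add_zero] at h4
    rcases mul_eq_zero.mp h4 with h5 | h5
    · exact ha2 (by exact_mod_cast sub_eq_zero.mp h5)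
    · exact mem_support_iff.mp ha1 h5
  ext a
  have h4 := key a
  by_cases ha : a ∈ f.support
  · rw [h2 a ha, sub_self, zero_mul, zero_add] at h4
    rw [h4, coeff_zero]
  · rw [notMem_support_iff.mp ha, mul_zero, zero_add] at h4
    rw [h4, coeff_zero]

theorem not_mem_vars_of_pderiv_eq_zero (f : PR m) (i : Fin (m + 1)) (h : pderiv i f = 0) :
    i ∉ f.vars := by
  intro hi
  obtain ⟨d, hd, hi⟩ := (mem_vars_iff_mem_support i).mp hi
  have h1 := coeff_pderiv (i := i) f (d - Finsupp.single i 1)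
  rw [h, coeff_zero, Finsupp.sub_add_single_one_cancel (Finsupp.mem_support_iff.mp hi)] at h1
  rcases mul_eq_zero.mp h1.symm with h2 | h2
  · exact mem_support_iff.mp hd h2
  · exact Nat.cast_add_one_ne_zero _ h2

/-- a prime containing a nonzero polynomial in one variable contains `X i - γ i` -/
theorem X_sub_C_mem (q : Ideal (PR m)) [q.IsPrime] (γ : Fin (m + 1) → ℂ)
    (hq : ∀ f ∈ q, eval γ f = 0) (i : Fin (m + 1)) (f : PR m) (hf : f ∈ q) (h0 : f ≠ 0)
    (hv : f.vars ⊆ {i}) : (X i - C (γ i) : PR m) ∈ q := by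
  classical
  set p : Polynomial ℂ := aeval (fun _ => Polynomial.X) f with hp
  have e : Polynomial.aeval (X i : PR m) p = f := by
    have := hom_congr_vars (f₁ := ((Polynomial.aeval (X i : PR m)).comp
      (aeval (fun _ => Polynomial.X) : PR m →ₐ[ℂ] Polynomial ℂ)).toRingHom) (f₂ := RingHom.id _)
      (p₁ := f) (p₂ := f) (by ext a; simp) (fun k hk _ => by
        rw [Finset.mem_singleton.mp (hv hk)]; simp) rfl
    exact this
  have hp0 : p ≠ 0 := fun h => h0 (by rw [← e, h, map_zero])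
  have hs := (IsAlgClosed.splits p).eq_prod_roots
  rw [hs, map_mul, map_multiset_prod, Multiset.map_map] at e
  have h1 : (p.roots.map (Polynomial.aeval (X i : PR m) ∘ fun a => Polynomial.X - Polynomial.C a)).prod ∈ q := by
    rw [← e] at hf
    refine ((‹q.IsPrime›).mem_or_mem hf).resolve_left fun h => ?_
    exact (‹q.IsPrime›).ne_top (Ideal.eq_top_of_isUnit_mem _ h
      (((Ne.isUnit (Polynomial.leadingCoeff_ne_zero.mpr hp0)).map Polynomial.C).map _))
  obtain ⟨x, hx, hxq⟩ := (Ideal.IsPrime.multiset_prod_mem_iff_exists_mem ‹q.IsPrime› _).mp h1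
  obtain ⟨r, -, rfl⟩ := Multiset.mem_map.mp hx
  simp only [Function.comp_apply, map_sub, Polynomial.aeval_X, Polynomial.aeval_C, algebraMap_eq] at hxq
  have h2 := hq _ hxq
  rw [map_sub, eval_X, eval_C, sub_eq_zero] at h2
  rwa [h2]

theorem diag_of_triangular {J : Type*} [Fintype J] [LinearOrder J] (q : Ideal (PR m)) [q.IsPrime]
    (δ : J → Derivation ℂ (PR m) (PR m)) (f : J → PR m) (hf : ∀ j, f j ∈ q)
    (hd : ∀ j, δ j (f j) ∉ q) (ht : ∀ j j', j < j' → δ j' (f j) ∈ q) :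
    ∃ (g : J → PR m) (s₀ : PR m), (∀ j, g j ∈ q) ∧ s₀ ∉ q ∧
      ∀ j j', δ j' (g j) - (if j' = j then s₀ else 0) ∈ q := by
  classical
  set M : Matrix J J (PR m) := Matrix.of fun j j' => δ j' (f j) with hM
  refine ⟨fun j => ∑ k, M.adjugate j k * f k, M.det,
    fun j => q.sum_mem fun k _ => q.mul_mem_left _ (hf k), fun h => ?_, fun j j' => ?_⟩
  · rw [← Ideal.Quotient.eq_zero_iff_mem, RingHom.map_det, RingHom.mapMatrix_apply,
      Matrix.det_of_isLowerTriangular (M.map (Ideal.Quotient.mk q)) fun j j' hj =>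
        Ideal.Quotient.eq_zero_iff_mem.mpr (ht j j' hj), Finset.prod_eq_zero_iff] at h
    obtain ⟨j, -, hj⟩ := h
    exact hd j (Ideal.Quotient.eq_zero_iff_mem.mp hj)
  · have h1 : (if j' = j then M.det else 0) = ∑ k, M.adjugate j k * δ j' (f k) := by
      have := congrFun (congrFun (Matrix.adjugate_mul M) j) j'
      rw [Matrix.mul_apply, Matrix.smul_apply, Matrix.one_apply] at this
      rw [show (∑ k, M.adjugate j k * δ j' (f k)) = ∑ k, M.adjugate j k * M k j' from rfl, this]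
      by_cases h : j = j'
      · simp [h]
      · simp [h, Ne.symm h]
    rw [h1, map_sum, ← Finset.sum_sub_distrib]
    refine q.sum_mem fun k _ => ?_
    rw [Derivation.leibniz, smul_eq_mul, smul_eq_mul, add_sub_cancel_left]
    exact q.mul_mem_right _ (hf k)

theorem structure_thm (q : Ideal (PR m)) [q.IsPrime] (hq0 : q ≠ ⊥) (g₀ : Fin m → ℂ)
    (hq : ∀ f ∈ q, eval (pt g₀) f = 0) :
    ((X 0 - 1 : PR m) ∈ q ∧ ∃ j : Fin m, (X j.succ - C (g₀ j) : PR m) ∈ q) ∨
    ∃ T : Finset (Fin (m + 1)), (∀ f ∈ q, f.vars ⊆ T → f = 0) ∧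
      (∀ j, j ∉ T → ∃ f ∈ q, f ≠ 0 ∧ f.vars ⊆ insert j T) ∧
      ∃ (β : {j // j ∉ T} → Fin (m + 1)) (g : {j // j ∉ T} → PR m) (s₀ : PR m),
        (∀ j, g j ∈ q) ∧ s₀ ∉ q ∧
        (∀ j j', dv m (β j') (g j) - (if j' = j then s₀ else 0) ∈ q) ∧
        (((∀ j, j ∉ T ↔ j = 0) ∧ ∀ j, β j = j) ∨
          ∃ j₀, β j₀ < j₀ ∧ ∀ j, j ≠ j₀ → β j = j) := by
  classical
  obtain ⟨T, hT, hJ⟩ := exists_greedy q
  choose! f hf h0 hv hp hd using fun j hj => exists_minimal q _ (hJ j hj)
  have hnv : ∀ j, j ∉ T → ∀ i, j < i → pderiv i (f j) = 0 := fun j hj i hi =>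
    pderiv_eq_zero_of_notMem_vars fun h => by
      rcases Finset.mem_insert.mp (hv j hj h) with e | e
      · exact hi.ne' e
      · exact lt_asymm hi (Finset.mem_filter.mp e).2
  have hpd : ∀ j, j ∉ T → pderiv j (f j) ≠ 0 := fun j hj h => by
    refine h0 j hj (hT _ (hf j hj) fun i hi => ?_)
    rcases Finset.mem_insert.mp (hv j hj hi) with e | e
    · exact absurd (e ▸ hi) (not_mem_vars_of_pderiv_eq_zero _ _ h)
    · exact (Finset.mem_filter.mp e).1
  have hdiag : ∀ j, j ∉ T → dv m j (f j) ∉ q := fun j hj h => by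
    by_cases hj0 : j = 0
    · subst hj0
      rw [P2A.dv_zero, Finset.sum_eq_zero fun i _ => hnv 0 hj _ (Fin.succ_pos i), add_zero] at h
      rcases (‹q.IsPrime›).mem_or_mem h with h | h
      · simpa [pt] using hq _ h
      · exact hpd 0 hj (hp 0 hj 0 h)
    · rw [P2A.dv_of_ne hj0] at h
      exact hpd j hj (hp j hj j h)
  have main : ∀ (j₀ : {j // j ∉ T}) (i₀ : Fin (m + 1)), dv m i₀ (f j₀) ∉ q →
      (∀ j : {j // j ∉ T}, j < j₀ → dv m i₀ (f j) ∈ q) →
      ∃ (β : {j // j ∉ T} → Fin (m + 1)) (g : {j // j ∉ T} → PR m) (s₀ : PR m),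
        (∀ j, g j ∈ q) ∧ s₀ ∉ q ∧
        (∀ j j', dv m (β j') (g j) - (if j' = j then s₀ else 0) ∈ q) ∧
        β j₀ = i₀ ∧ ∀ j, j ≠ j₀ → β j = j := by
    intro j₀ i₀ h1 h2
    obtain ⟨g, s₀, hg, hs, hδ⟩ := diag_of_triangular q
      (fun j : {j // j ∉ T} => dv m (if j = j₀ then i₀ else j)) (fun j => f j) (fun j => hf j j.2)
      (fun j => by
        by_cases h : j = j₀
        · subst h; simpa using h1
        · simpa [h] using hdiag j j.2)
      (fun j j' hjj => by
        by_cases h : j' = j₀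
        · subst h; simpa using h2 j hjj
        · have hjj' : (j : Fin (m + 1)) < j' := hjj
          simp only [h, if_false]
          rw [P2A.dv_of_ne (Fin.pos_iff_ne_zero.mp (lt_of_le_of_lt (Fin.zero_le _) hjj')),
            hnv j j.2 _ hjj']
          exact q.zero_mem)
    refine ⟨fun j => if j = j₀ then i₀ else j, g, s₀, hg, hs, fun j j' => ?_, by simp,
      fun j hj => by simp [hj]⟩
    convert hδ j j'
  have halg : ∀ j, j ∉ T → ∃ f ∈ q, f ≠ 0 ∧ f.vars ⊆ insert j T := fun j hj =>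
    ⟨f j, hf j hj, h0 j hj, (hv j hj).trans (Finset.insert_subset_insert _ (Finset.filter_subset _ _))⟩
  by_cases hz : (0 : Fin (m + 1)) ∈ T
  · -- `j₀ = min J ≠ 0`
    have hne : (Tᶜ).Nonempty := by
      obtain ⟨x, hx, hx0⟩ := (Submodule.ne_bot_iff q).mp hq0
      by_contra hc
      rw [Finset.not_nonempty_iff_eq_empty, Finset.compl_eq_empty_iff] at hc
      exact hx0 (hT x hx (hc ▸ Finset.subset_univ _))
    obtain ⟨j₀, hj₀, hmin⟩ := Finset.exists_min_image _ id hne
    rw [Finset.mem_compl] at hj₀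
    have hj0 : j₀ ≠ 0 := fun e => hj₀ (e ▸ hz)
    obtain ⟨k, rfl⟩ := Fin.exists_succ_eq.mpr hj0
    have : ∃ i < k.succ, dv m i (f k.succ) ∉ q := by
      by_contra hc
      push Not at hc
      obtain ⟨e, he⟩ := hd _ hj₀ (hc 0 (Fin.succ_pos k))
      refine hpd _ hj₀ (no_eigen _ e k he fun i hi => ?_)
      rcases lt_or_gt_of_ne hi with h | h
      · exact hp _ hj₀ _ (hc _ (Fin.succ_lt_succ_iff.mpr h))
      · exact hnv _ hj₀ _ (Fin.succ_lt_succ_iff.mpr h)
    obtain ⟨i₀, hi₀, hi⟩ := this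
    obtain ⟨β, g, s₀, hg, hs, hδ, hβ, hβ'⟩ := main ⟨_, hj₀⟩ i₀ hi fun j hj =>
      absurd (hmin j (Finset.mem_compl.mpr j.2)) (not_le.mpr hj)
    exact Or.inr ⟨T, hT, halg, β, g, s₀, hg, hs, hδ, Or.inr ⟨_, hβ ▸ hi₀, hβ'⟩⟩
  · by_cases hne : ((insert 0 T)ᶜ).Nonempty
    · obtain ⟨j₁, hj₁, hmin⟩ := Finset.exists_min_image _ id hne
      rw [Finset.mem_compl, Finset.mem_insert, not_or] at hj₁
      by_cases hex : ∃ i, i ≠ 0 ∧ i < j₁ ∧ dv m i (f j₁) ∉ q
      · obtain ⟨i₀, hi0, hi₀, hi⟩ := hex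
        obtain ⟨β, g, s₀, hg, hs, hδ, hβ, hβ'⟩ := main ⟨_, hj₁.2⟩ i₀ hi fun j hj => by
          have : (j : Fin (m + 1)) = 0 := by
            by_contra hc
            exact absurd (hmin j (by simp [hc, j.2])) (not_le.mpr hj)
          rw [this, P2A.dv_of_ne hi0, hnv 0 hz _ (Fin.pos_iff_ne_zero.mpr hi0)]
          exact q.zero_mem
        exact Or.inr ⟨T, hT, halg, β, g, s₀, hg, hs, hδ, Or.inr ⟨_, hβ ▸ hi₀, hβ'⟩⟩
      · push Not at hex
        obtain ⟨k, rfl⟩ := Fin.exists_succ_eq.mpr hj₁.1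
        refine Or.inl ⟨?_, k, ?_⟩
        · have := X_sub_C_mem q _ hq 0 (f 0) (hf 0 hz) (h0 0 hz) ((hv 0 hz).trans (by simp))
          simpa [pt] using this
        · refine X_sub_C_mem q _ hq k.succ (f _) (hf _ hj₁.2) (h0 _ hj₁.2) fun i hi => ?_
          rcases Finset.mem_insert.mp (hv _ hj₁.2 hi) with e | e
          · exact Finset.mem_singleton.mpr e
          · obtain ⟨e1, e2⟩ := Finset.mem_filter.mp e
            have hi0 : i ≠ 0 := fun h => hz (h ▸ e1)
            have := hex i hi0 e2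
            rw [P2A.dv_of_ne hi0] at this
            exact absurd hi (not_mem_vars_of_pderiv_eq_zero _ _ (hp _ hj₁.2 _ this))
    · have hJ0 : ∀ j, j ∉ T ↔ j = 0 := fun j => ⟨fun hj => by
        by_contra hc
        exact hne ⟨j, by simp [hc, hj]⟩, fun e => e ▸ hz⟩
      obtain ⟨β, g, s₀, hg, hs, hδ, hβ, hβ'⟩ := main ⟨0, hz⟩ 0 (hdiag 0 hz) fun j hj =>
        absurd (show (j : Fin (m + 1)) < 0 from hj) (Fin.not_lt_zero _)
      refine Or.inr ⟨T, hT, halg, β, g, s₀, hg, hs, hδ, Or.inl ⟨hJ0, fun j => ?_⟩⟩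
      by_cases h : j = ⟨0, hz⟩
      · rw [h, hβ]
      · exact hβ' j h

end Crest.Agent.R11Z
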