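import Crest.Agent.R11Z.Prod1
import Crest.Agent.R11Z.Prod2

/-!
# Row 11: the product theorem

`𝒢 i = {dl l P | wl l < i b}`, `b = ε / (m+2)`, `i = 1, …, m+2`. Descending chain of primes
`p ≥ q_{m+2} ≥ … ≥ q_1 > ⊥`, `q_i` minimal over `span (𝒢 i)`; since the Krull dimension is `m+1`
two consecutive ones agree; then `structure_thm` and `prod_ineq`.
-/

set_option autoImplicit false
open MvPolynomial Module

namespace Crest.Agent.R11Z

variable {m : ℕ}

namespace Prod3A

/-- descending chain of minimal primes -/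
theorem exists_chain (a : ℕ → Ideal (PR m)) (ha : Monotone a) (N : ℕ)
    (p : Ideal (PR m)) [p.IsPrime] (hp : a N ≤ p) :
    ∃ q : ℕ → Ideal (PR m), (∀ i ≤ N, q i ∈ (a i).minimalPrimes) ∧ (∀ i < N, q i ≤ q (i + 1)) ∧
      ∀ i ≤ N, q i ≤ p := by
  induction N generalizing p with
  | zero =>
    obtain ⟨q, hq, hqp⟩ := Ideal.exists_minimalPrimes_le hp
    exact ⟨fun _ => q, fun i hi => by obtain rfl : i = 0 := by omega
                                      exact hq, fun i hi => by omega, fun _ _ => hqp⟩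
  | succ N ih =>
    obtain ⟨q₀, hq₀, hq₀p⟩ := Ideal.exists_minimalPrimes_le hp
    have : q₀.IsPrime := hq₀.1.1
    obtain ⟨q, h1, h2, h3⟩ := ih q₀ ((ha (Nat.le_succ N)).trans hq₀.1.2)
    refine ⟨fun i => if i ≤ N then q i else q₀, ?_, ?_, ?_⟩
    · intro i hi
      by_cases h : i ≤ N
      · simp only [h, if_true]; exact h1 i h
      · obtain rfl : i = N + 1 := by omega
        simp only [h, if_false]; exact hq₀
    · intro i hi
      have h : i ≤ N := by omega
      by_cases h' : i + 1 ≤ N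
      · simp only [h, h', if_true]; exact h2 i (by omega)
      · simp only [h, h', if_true, if_false]; exact h3 i h
    · intro i hi
      by_cases h : i ≤ N
      · simp only [h, if_true]; exact (h3 i h).trans hq₀p
      · simp only [h, if_false]; exact hq₀p

theorem dim_PR : ringKrullDim (PR m) = (m + 1 : ℕ) := by
  rw [MvPolynomial.ringKrullDim_of_isNoetherianRing, ringKrullDim_eq_zero_of_field]
  simp

end Prod3A

theorem exists_stable_prime (a : ℕ → Ideal (PR m)) (ha : Monotone a) (h1 : a 1 ≠ ⊥)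
    (p : Ideal (PR m)) [p.IsPrime] (hp : a (m + 2) ≤ p) :
    ∃ i, 1 ≤ i ∧ i + 1 ≤ m + 2 ∧ ∃ q ∈ (a i).minimalPrimes, a (i + 1) ≤ q ∧ q ≤ p := by
  obtain ⟨q, hq1, hq2, hq3⟩ := Prod3A.exists_chain a ha (m + 2) p hp
  by_contra hcon
  push Not at hcon
  have hlt : ∀ i, 1 ≤ i → i + 1 ≤ m + 2 → q i < q (i + 1) := by
    intro i hi hi'
    refine lt_of_le_of_ne (hq2 i (by omega)) fun he => ?_
    exact hcon i hi hi' (q i) (hq1 i (by omega)) (he ▸ (hq1 (i + 1) hi').1.2) (hq3 i (by omega))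
  let f : Fin (m + 3) → PrimeSpectrum (PR m) := fun i =>
    if h : (i : ℕ) = 0 then ⟨⊥, Ideal.isPrime_bot⟩
    else ⟨q i, (hq1 i (by omega)).1.1⟩
  let c : LTSeries (PrimeSpectrum (PR m)) :=
    { length := m + 2
      toFun := f
      step := by
        intro i
        show f i.castSucc < f i.succ
        rw [← PrimeSpectrum.asIdeal_lt_asIdeal]
        by_cases h : (i : ℕ) = 0
        · have e1 : (f i.castSucc).asIdeal = ⊥ := by
            have h' : ((i.castSucc : Fin (m + 3)) : ℕ) = 0 := h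
            simp only [f, dif_pos h']
          have e2 : (f i.succ).asIdeal = q 1 := by simp [f, h]
          rw [e1, e2]
          refine bot_lt_iff_ne_bot.mpr fun he => h1 ?_
          exact le_bot_iff.mp (he ▸ (hq1 1 (by omega)).1.2)
        · have e1 : (f i.castSucc).asIdeal = q i := by
            have h' : ¬ ((i.castSucc : Fin (m + 3)) : ℕ) = 0 := h
            simp only [f, dif_neg h']; rfl
          have e2 : (f i.succ).asIdeal = q (i + 1) := by simp [f]
          rw [e1, e2]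
          exact hlt i (by omega) (by omega) }
  have := Order.LTSeries.length_le_krullDim c
  have h2 : ringKrullDim (PR m) = Order.krullDim (PrimeSpectrum (PR m)) := rfl
  rw [← h2, Prod3A.dim_PR] at this
  have h3 : c.length = m + 2 := rfl
  rw [h3] at this
  have : (m + 2 : ℕ) ≤ (m + 1 : ℕ) := by exact_mod_cast this
  omega

theorem product_thm (s : Fin (m + 1) → ℝ) (hs : ∀ i, 0 < s i) (deg : Fin (m + 1) → ℕ)
    (hdeg : ∀ i, 0 < deg i) (τ ε G : ℝ) (hτ : 0 < τ) (hτ1 : τ ≤ 1) (hε : 0 < ε) (hε1 : ε ≤ 1)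
    (hsd : ∀ i, τ * deg i ≤ s i) (hgap : ∀ i j, i < j → G * deg j ≤ deg i)
    (hG : (2 * ((m : ℝ) + 1) * (m + 2) / (τ * ε)) ^ (m + 1) < G)
    (h0 : 2 * ((m : ℝ) + 2) * deg 0 < ε * s 0)
    (P : PR m) (hP : P ≠ 0) (hPd : ∀ l i, degreeOf i (dl (dv m) l P) ≤ deg i)
    (p : Ideal (PR m)) [p.IsPrime] (g₀ : Fin m → ℂ) (hp : ∀ f ∈ p, eval (pt g₀) f = 0)
    (hjet : Jet (dv m) s p ε P) :
    (X 0 - 1 : PR m) ∈ p ∧ ∃ j : Fin m, (X j.succ - C (g₀ j) : PR m) ∈ p := by
  classical
  set b : ℝ := ε / ((m : ℝ) + 2) with hb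
  have hm2 : (0 : ℝ) < (m : ℝ) + 2 := by positivity
  have hbpos : 0 < b := div_pos hε hm2
  let 𝒢 : ℕ → Set (PR m) := fun i => {x | ∃ l, wl s l < i * b ∧ x = dl (dv m) l P}
  let a : ℕ → Ideal (PR m) := fun i => Ideal.span (𝒢 i)
  have ha : Monotone a := by
    intro i j hij
    apply Ideal.span_mono
    rintro x ⟨l, hl, rfl⟩
    refine ⟨l, hl.trans_le ?_, rfl⟩
    have : (i : ℝ) ≤ j := by exact_mod_cast hij
    nlinarith
  have hP1 : P ∈ a 1 := Ideal.subset_span ⟨[], by simpa [wl] using hbpos, rfl⟩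
  have h1 : a 1 ≠ ⊥ := fun h => hP (by simpa [h] using hP1)
  have hap : a (m + 2) ≤ p := by
    apply Ideal.span_le.mpr
    rintro x ⟨l, hl, rfl⟩
    apply hjet
    have : ((m + 2 : ℕ) : ℝ) * b = ε := by rw [hb]; push_cast; field_simp
    rwa [this] at hl
  obtain ⟨i, hi1, hi2, q, hqmin, hq1, hqp⟩ := exists_stable_prime a ha h1 p hap
  have : q.IsPrime := hqmin.1.1
  have hq0 : q ≠ ⊥ := fun h => h1 (le_bot_iff.mp (h ▸ (ha hi1).trans hqmin.1.2))
  rcases structure_thm q hq0 g₀ (fun f hf => hp f (hqp hf)) with ⟨hY, j, hj⟩ |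
    ⟨T, hind, halg, β, g, s₀, hg, hs₀, hδ, hcase⟩
  · exact ⟨hqp hY, j, hqp hj⟩
  exfalso
  have hGen : ∀ x ∈ 𝒢 i, (∀ k, degreeOf k x ≤ deg k) ∧ Jet (dv m) s q b x := by
    rintro x ⟨l, hl, rfl⟩
    refine ⟨hPd l, fun l' hl' => hq1 (Ideal.subset_span ⟨l ++ l', ?_, (dl_append _ _ _ _).symm⟩)⟩
    rw [wl_append]; push_cast; linarith
  have key := prod_ineq (dv m) s hs deg hdeg q T hind halg (𝒢 i) hqmin b hbpos hGen β g s₀ hg hs₀ hδ
  set c := Fintype.card {j // j ∉ T} with hc
  rcases hcase with ⟨hT, hβ⟩ | ⟨j₀, hj₀, hβ⟩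
  · let z : {j // j ∉ T} := ⟨0, (hT 0).mpr rfl⟩
    have : Unique {j // j ∉ T} := ⟨⟨z⟩, fun j => Subtype.ext ((hT j).mp j.2)⟩
    have hc1 : c = 1 := Fintype.card_unique
    rw [Fintype.prod_unique, Fintype.prod_unique, hβ, hc1] at key
    have hd : ((default : {j // j ∉ T}) : Fin (m + 1)) = 0 := (hT _).mp (default : {j // j ∉ T}).2
    rw [hd, hb] at key
    simp only [Nat.cast_one, div_one] at key
    rw [div_mul_eq_mul_div, div_le_iff₀ hm2] at key
    linarith
  · have hcpos : 0 < c := Fintype.card_pos_iff.mpr ⟨j₀⟩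
    have hcle : c ≤ m + 1 := by
      have := Fintype.card_subtype_le (fun j : Fin (m + 1) => j ∉ T)
      rwa [Fintype.card_fin] at this
    have hcR : (0 : ℝ) < c := by exact_mod_cast hcpos
    have hcleR : (c : ℝ) ≤ m + 1 := by exact_mod_cast hcle
    set B : ℝ := 2 * ((m : ℝ) + 1) * (m + 2) / (τ * ε) with hB
    have hB1 : 1 ≤ B := by
      rw [hB, le_div_iff₀ (mul_pos hτ hε)]
      have : τ * ε ≤ 1 := mul_le_one₀ hτ1 hε.le hε1
      have hm0 : (0 : ℝ) ≤ m := Nat.cast_nonneg m
      nlinarith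
    have hGpos : 0 < G := lt_of_le_of_lt (by positivity) hG
    have hκ : 0 < b / c * τ := by positivity
    -- lower bound of the left side
    have hlow : ∏ j : {j // j ∉ T}, ((if j = j₀ then G else 1) * (b / c * τ * deg j)) ≤
        ∏ j : {j // j ∉ T}, (b / c * s (β j)) := by
      apply Finset.prod_le_prod
      · intro j _
        have : (0 : ℝ) ≤ deg j := Nat.cast_nonneg _
        split_ifs <;> positivity
      · intro j _
        have hbc : 0 < b / c := by positivity
        by_cases hj : j = j₀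
        · subst hj
          simp only [if_true]
          have e1 := hgap _ _ hj₀
          have e2 := hsd (β j)
          calc G * (b / c * τ * deg j) = b / c * (τ * (G * deg j)) := by ring
            _ ≤ b / c * (τ * deg (β j)) := by gcongr
            _ ≤ b / c * s (β j) := by gcongr
        · simp only [hj, if_false, one_mul, hβ j hj]
          have e2 := hsd j
          calc b / c * τ * deg j = b / c * (τ * deg j) := by ring
            _ ≤ b / c * s j := by gcongr
    rw [Finset.prod_mul_distrib, Finset.prod_ite_eq', if_pos (Finset.mem_univ _),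
      Finset.prod_mul_distrib, Finset.prod_const, Finset.card_univ, ← hc] at hlow
    rw [Finset.prod_mul_distrib (f := fun _ => (2 : ℝ)), Finset.prod_const, Finset.card_univ,
      ← hc] at key
    have hD : (0 : ℝ) < ∏ j : {j // j ∉ T}, (deg j : ℝ) :=
      Finset.prod_pos fun j _ => by exact_mod_cast hdeg j
    have h2 : G * (b / c * τ) ^ c ≤ 2 ^ c := by
      have := hlow.trans key
      rw [← mul_assoc] at this
      exact le_of_mul_le_mul_right this hD
    have h3 : 2 ≤ B * (b / c * τ) := by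
      rw [hB, hb]
      have : 2 * ((m : ℝ) + 1) * (m + 2) / (τ * ε) * (ε / (m + 2) / c * τ) = 2 * ((m + 1) / c) := by
        field_simp
      rw [this]
      have : 1 ≤ ((m : ℝ) + 1) / c := by rw [le_div_iff₀ hcR]; linarith
      linarith
    have h4 : (2 : ℝ) ^ c ≤ B ^ c * (b / c * τ) ^ c := by
      rw [← mul_pow]; gcongr
    have h5 : G ≤ B ^ c := le_of_mul_le_mul_right (h2.trans h4) (pow_pos hκ c)
    have h6 : B ^ c ≤ B ^ (m + 1) := pow_le_pow_right₀ hB1 hcle
    linarith

end Crest.Agent.R11Z
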