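import Crest.Agent.R11Z.Der

/-!
# Row 11: the local coordinates at a point

`Ind s β` is an ideal (`indI`), multiplicative (`support_mul`, `wt` additive).
`psi` intertwines `dv m j.succ` with `pderiv j.succ` and `dv m 0` with
`dt n = (1+u) ∂_u + ∑ (-u)^(n j) ∂_{ξ_j}` (check on the variables: both sides are derivations
along `psi`; induction on the polynomial; `(1+u) Lg' = 1 - (-u)^n`).
`dt n = ∂_u + E`, where `E = u ∂_u + ∑ (-u)^(n j) ∂_{ξ_j}` lowers weights by strictly less than
`1 / s 0` when `s 0 < (n j + 1) * s j.succ`.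
-/

set_option autoImplicit false
open MvPolynomial Module

namespace Crest.Agent.R11Z

variable {m : ℕ}

theorem wt_add {r : ℕ} (s : Fin r → ℝ) (t t' : Fin r →₀ ℕ) : wt s (t + t') = wt s t + wt s t' := by
  simp [wt, add_div, Finset.sum_add_distrib]

theorem wt_nonneg {r : ℕ} (s : Fin r → ℝ) (hs : ∀ i, 0 < s i) (t : Fin r →₀ ℕ) : 0 ≤ wt s t := by
  exact Finset.sum_nonneg fun i _ => div_nonneg (Nat.cast_nonneg _) (hs i).le

theorem wt_single {r : ℕ} (s : Fin r → ℝ) (i : Fin r) (e : ℕ) :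
    wt s (Finsupp.single i e) = (e : ℝ) / s i := by
  rw [wt, Finset.sum_eq_single i]
  · simp
  · intro j _ hj; simp [Finsupp.single_eq_of_ne hj]
  · simp

theorem Ind.mono {s : Fin (m + 1) → ℝ} {β β' : ℝ} {Q : PR m} (h : Ind s β Q) (hβ : β' ≤ β) :
    Ind s β' Q := by
  exact fun t ht => hβ.trans (h t ht)

theorem Ind.add {s : Fin (m + 1) → ℝ} {β : ℝ} {Q Q' : PR m} (h : Ind s β Q) (h' : Ind s β Q') :
    Ind s β (Q + Q') := by
  intro t ht
  rcases Finset.mem_union.mp (support_add ht) with h1 | h1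
  · exact h t h1
  · exact h' t h1

theorem Ind.mul {s : Fin (m + 1) → ℝ} {β β' : ℝ} {Q Q' : PR m} (h : Ind s β Q)
    (h' : Ind s β' Q') : Ind s (β + β') (Q * Q') := by
  intro t ht
  obtain ⟨a, ha, b, hb, rfl⟩ := Finset.mem_add.mp (support_mul _ _ ht)
  rw [wt_add]
  exact add_le_add (h a ha) (h' b hb)

theorem ind_zero {s : Fin (m + 1) → ℝ} (hs : ∀ i, 0 < s i) (Q : PR m) : Ind s 0 Q := by
  exact fun t _ => wt_nonneg s hs t

/-- `Ind` as an ideal -/
noncomputable def indI (s : Fin (m + 1) → ℝ) (hs : ∀ i, 0 < s i) (β : ℝ) : Ideal (PR m) where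
  carrier := {Q | Ind s β Q}
  add_mem' := fun h h' => Ind.add h h'
  zero_mem' := by intro t ht; simp at ht
  smul_mem' := fun c _ h => by simpa using Ind.mul (ind_zero hs c) h

theorem mem_indI {s : Fin (m + 1) → ℝ} {hs : ∀ i, 0 < s i} {β : ℝ} {Q : PR m} :
    Q ∈ indI s hs β ↔ Ind s β Q := Iff.rfl

theorem PsiA.ind_iff {s : Fin (m + 1) → ℝ} {β : ℝ} {Q : PR m} :
    Ind s β Q ↔ ∀ t, wt s t < β → coeff t Q = 0 := by
  refine ⟨fun h t ht => ?_, fun h t ht => ?_⟩
  · by_contra hc
    exact absurd (h t (mem_support_iff.mpr hc)) (not_le.mpr ht)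
  · by_contra hc
    exact mem_support_iff.mp ht (h t (not_le.mp hc))

theorem PsiA.ind_sum {s : Fin (m + 1) → ℝ} {β : ℝ} {α : Type*} (T : Finset α) {Q : α → PR m}
    (h : ∀ a ∈ T, Ind s β (Q a)) : Ind s β (∑ a ∈ T, Q a) := by
  rw [PsiA.ind_iff]
  intro t ht
  rw [coeff_sum]
  exact Finset.sum_eq_zero fun a ha => PsiA.ind_iff.mp (h a ha) t ht

theorem PsiA.ind_X_pow (s : Fin (m + 1) → ℝ) (i : Fin (m + 1)) (e : ℕ) :
    Ind s ((e : ℝ) / s i) (X i ^ e : PR m) := by
  intro t ht
  rw [X_pow_eq_monomial] at ht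
  have := support_monomial_subset ht
  rw [Finset.mem_singleton] at this
  rw [this, wt_single]

theorem PsiA.ind_neg_X_pow {s : Fin (m + 1) → ℝ} (hs : ∀ i, 0 < s i) (i : Fin (m + 1)) (e : ℕ) :
    Ind s ((e : ℝ) / s i) ((-X i) ^ e : PR m) := by
  rw [neg_pow]
  simpa using (ind_zero hs ((-1) ^ e : PR m)).mul (PsiA.ind_X_pow s i e)


theorem Ind.pderiv {s : Fin (m + 1) → ℝ} {β : ℝ} {Q : PR m} (h : Ind s β Q) (i : Fin (m + 1)) :
    Ind s (β - 1 / s i) (MvPolynomial.pderiv i Q) := by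
  intro t ht
  rw [MvPolynomial.mem_support_iff, coeff_pderiv] at ht
  have := h _ (mem_support_iff.mpr (left_ne_zero_of_mul ht))
  rw [wt_add, wt_single, Nat.cast_one] at this
  linarith

/-- the derivation along the curve in the local coordinates -/
noncomputable def dt (n : Fin m → ℕ) (Q : PR m) : PR m :=
  (1 + X 0) * pderiv 0 Q + ∑ j : Fin m, (-X 0) ^ n j * pderiv j.succ Q

theorem PsiA.psi_X_zero (g : Fin m → ℂ) (n : Fin m → ℕ) : psi g n (X 0) = 1 + X 0 := by simp [psi]

theorem PsiA.psi_X_succ (g : Fin m → ℂ) (n : Fin m → ℕ) (j : Fin m) :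
    psi g n (X j.succ) = C (g j) + X j.succ + Lg m (n j) := by simp [psi]

theorem PsiA.pderiv_succ_Lg (j : Fin m) (n : ℕ) : pderiv j.succ (Lg m n) = 0 := by
  simp [Lg, map_sum, pderiv_X_of_ne (Fin.succ_ne_zero j).symm]

theorem PsiA.pderiv_zero_Lg (n : ℕ) : pderiv 0 (Lg m n) = ∑ i ∈ Finset.range n, (-X 0) ^ i := by
  rw [Lg, map_sum]
  apply Finset.sum_congr rfl
  intro i _
  have h : ((i : ℂ) + 1) ≠ 0 := by exact_mod_cast Nat.succ_ne_zero i
  rw [pderiv_C_mul, pderiv_pow, pderiv_X_self, mul_one, Nat.add_sub_cancel, ← mul_assoc,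
    ← map_natCast (C : ℂ →+* PR m), ← map_mul, neg_pow (X 0 : PR m)]
  push_cast
  rw [div_mul_cancel₀ _ h]
  simp

theorem PsiA.der_ext (g : Fin m → ℂ) (n : Fin m → ℕ) (δ : Derivation ℂ (PR m) (PR m)) (D : PR m → PR m)
    (hadd : ∀ a b, D (a + b) = D a + D b) (hmul : ∀ a b, D (a * b) = a * D b + b * D a)
    (hC : ∀ c, D (C c) = 0) (hX : ∀ i, psi g n (δ (X i)) = D (psi g n (X i))) (P : PR m) :
    psi g n (δ P) = D (psi g n P) := by
  induction P using MvPolynomial.induction_on with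
  | C c => simp [hC, derivation_C]
  | add p q hp hq => simp only [map_add, hp, hq, hadd]
  | mul_X p i hp => simp only [Derivation.leibniz, smul_eq_mul, map_add, map_mul, hp, hX, hmul]


theorem psi_dv_succ (g : Fin m → ℂ) (n : Fin m → ℕ) (j : Fin m) (P : PR m) :
    psi g n (dv m j.succ P) = pderiv j.succ (psi g n P) := by
  refine PsiA.der_ext g n _ (fun Q => pderiv j.succ Q) (fun a b => map_add _ _ _)
    (fun a b => by simp) (fun c => pderiv_C) (fun i => ?_) P
  refine Fin.cases ?_ (fun k => ?_) i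
  · simp [dv, PsiA.psi_X_zero, pderiv_X_of_ne (Fin.succ_ne_zero j).symm]
  · rw [PsiA.psi_X_succ]
    simp only [dv, Fin.cons_succ, map_add, pderiv_C, PsiA.pderiv_succ_Lg, zero_add, add_zero]
    by_cases hk : k = j
    · subst hk; simp
    · simp [pderiv_X_of_ne (show k.succ ≠ j.succ by simpa using hk)]

theorem psi_dv_zero (g : Fin m → ℂ) (n : Fin m → ℕ) (P : PR m) :
    psi g n (dv m 0 P) = dt n (psi g n P) := by
  refine PsiA.der_ext g n _ (dt n) (fun a b => ?_) (fun a b => ?_) (fun c => by simp [dt]) (fun i => ?_) P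
  · simp only [dt, map_add, mul_add, Finset.sum_add_distrib]; ring
  · simp only [dt, Derivation.leibniz, smul_eq_mul, mul_add, Finset.sum_add_distrib, Finset.mul_sum]
    have : ∀ (x y : PR m) (j : Fin m), (-X 0) ^ n j * (x * y) = x * ((-X 0) ^ n j * y) :=
      fun x y j => by ring
    simp only [this]
    ring
  · refine Fin.cases ?_ (fun k => ?_) i
    · simp [dv, dt, PsiA.psi_X_zero, mkDerivation_X, pderiv_X_of_ne (Fin.succ_ne_zero _).symm]
    · rw [PsiA.psi_X_succ]
      simp only [dv, dt, Fin.cons_zero, mkDerivation_X, Fin.cons_succ, map_one, map_add, pderiv_C,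
        PsiA.pderiv_succ_Lg, PsiA.pderiv_zero_Lg, zero_add, add_zero, pderiv_X_of_ne (Fin.succ_ne_zero k)]
      rw [Finset.sum_eq_single k]
      · have := mul_neg_geom_sum (-X 0 : PR m) (n k)
        rw [pderiv_X_self]
        linear_combination -this
      · intro j _ hj
        rw [pderiv_X_of_ne (by simpa using hj.symm), mul_zero]
      · simp

theorem Ind.dt {s : Fin (m + 1) → ℝ} (hs : ∀ i, 0 < s i) {n : Fin m → ℕ}
    (hn : ∀ j : Fin m, s 0 < ((n j : ℝ) + 1) * s j.succ) {β : ℝ} {Q : PR m} (h : Ind s β Q) :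
    Ind s (β - 1 / s 0) (dt n Q) := by
  refine Ind.add ?_ (PsiA.ind_sum _ fun j _ => ?_)
  · simpa using (ind_zero hs (1 + X 0)).mul (h.pderiv 0)
  · refine ((PsiA.ind_neg_X_pow hs 0 (n j)).mul (h.pderiv j.succ)).mono ?_
    have h3 : 1 / s j.succ < ((n j : ℝ) + 1) / s 0 := by
      rw [div_lt_div_iff₀ (hs _) (hs 0), one_mul]; exact hn j
    rw [add_div] at h3
    linarith

theorem ind_psi_dl {s : Fin (m + 1) → ℝ} (hs : ∀ i, 0 < s i) {n : Fin m → ℕ}
    (hn : ∀ j : Fin m, s 0 < ((n j : ℝ) + 1) * s j.succ) (g : Fin m → ℂ) (l : List (Fin (m + 1)))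
    {β : ℝ} {P : PR m} (h : Ind s β (psi g n P)) :
    Ind s (β - wl s l) (psi g n (dl (dv m) l P)) := by
  induction l generalizing β P with
  | nil => simpa [wl, dl] using h
  | cons b l ih =>
    have h1 : Ind s (β - 1 / s b) (psi g n (dv m b P)) := by
      refine Fin.cases ?_ (fun j => ?_) b
      · rw [psi_dv_zero]; exact h.dt hs hn
      · rw [psi_dv_succ]; exact h.pderiv _
    have e : β - wl s (b :: l) = β - 1 / s b - wl s l := by simp only [wl, List.map_cons, List.sum_cons]; ring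
    rw [e]
    exact ih h1

theorem constantCoeff_psi (g : Fin m → ℂ) (n : Fin m → ℕ) (P : PR m) :
    constantCoeff (psi g n P) = eval (pt g) P := by
  induction P using MvPolynomial.induction_on with
  | C c => simp
  | add p q hp hq => simp only [map_add, hp, hq]
  | mul_X p i hp =>
    simp only [map_mul, hp]
    congr 1
    refine Fin.cases ?_ (fun k => ?_) i
    · simp [PsiA.psi_X_zero, pt]
    · simp [PsiA.psi_X_succ, pt, Lg, map_sum]

theorem psi_surjective (g : Fin m → ℂ) (n : Fin m → ℕ) : Function.Surjective (psi g n) := by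
  have h0 : (X 0 : PR m) ∈ (psi g n).range := ⟨X 0 - 1, by simp [PsiA.psi_X_zero]⟩
  have hC : ∀ c : ℂ, (C c : PR m) ∈ (psi g n).range := fun c => ⟨C c, by simp⟩
  have hX : ∀ i, (X i : PR m) ∈ (psi g n).range := by
    intro i
    refine Fin.cases h0 (fun k => ?_) i
    have h1 : psi g n (X k.succ) ∈ (psi g n).range := ⟨_, rfl⟩
    have h2 : Lg m (n k) ∈ (psi g n).range :=
      Subalgebra.sum_mem _ fun i _ => mul_mem (hC _) (pow_mem h0 _)
    have := sub_mem (sub_mem h1 (hC (g k))) h2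
    rw [PsiA.psi_X_succ] at this
    convert this using 1
    ring
  intro Q
  change Q ∈ (psi g n).range
  induction Q using MvPolynomial.induction_on with
  | C c => exact hC c
  | add p q hp hq => exact add_mem hp hq
  | mul_X p i hp => exact mul_mem hp (hX i)

theorem PsiA.psi_dl (g : Fin m → ℂ) (n : Fin m → ℕ) (l : List (Fin m)) (P : PR m) :
    psi g n (dl (dv m) (l.map Fin.succ) P) =
      dl (fun i : Fin (m + 1) => (pderiv i : Derivation ℂ (PR m) (PR m))) (l.map Fin.succ) (psi g n P) := by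
  induction l generalizing P with
  | nil => rfl
  | cons j l ih => simp only [List.map_cons, dl, ih, psi_dv_succ]

theorem PsiA.psi_iter (g : Fin m → ℂ) (n : Fin m → ℕ) (e : ℕ) (P : PR m) :
    psi g n ((dv m 0)^[e] P) = (dt n)^[e] (psi g n P) := by
  induction e generalizing P with
  | zero => rfl
  | succ e ih => simp only [Function.iterate_succ_apply, ih, psi_dv_zero]

theorem PsiA.iter_coeff {s : Fin (m + 1) → ℝ} (hs : ∀ i, 0 < s i) {n : Fin m → ℕ}
    (hn : ∀ j : Fin m, s 0 < ((n j : ℝ) + 1) * s j.succ) (e : ℕ) (G : PR m) (h : Ind s ((e : ℝ) / s 0) G) :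
    constantCoeff ((dt n)^[e] G) = (e.factorial : ℂ) * coeff (Finsupp.single 0 e) G := by
  induction e generalizing G with
  | zero => simp [constantCoeff_eq]
  | succ e ih =>
    have h0 := hs 0
    have e1 : ((e + 1 : ℕ) : ℝ) / s 0 - 1 / s 0 = (e : ℝ) / s 0 := by push_cast; ring
    rw [Function.iterate_succ_apply, ih _ (e1 ▸ h.dt hs hn), dt, add_mul, one_mul, coeff_add, coeff_add,
      coeff_sum, coeff_pderiv, ← Finsupp.single_add, Finsupp.single_eq_same]
    have h1 : coeff (Finsupp.single 0 e) (X 0 * pderiv 0 G) = 0 := by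
      have := (PsiA.ind_X_pow s 0 1).mul (h.pderiv 0)
      rw [pow_one] at this
      apply PsiA.ind_iff.mp this
      rw [wt_single, e1, Nat.cast_one]
      have : 0 < 1 / s 0 := by positivity
      linarith
    have h2 : ∀ j : Fin m, coeff (Finsupp.single 0 e) ((-X 0) ^ n j * pderiv j.succ G) = 0 := by
      intro j
      apply PsiA.ind_iff.mp ((PsiA.ind_neg_X_pow hs 0 (n j)).mul (h.pderiv j.succ))
      rw [wt_single]
      have h3 : 1 / s j.succ < ((n j : ℝ) + 1) / s 0 := by
        rw [div_lt_div_iff₀ (hs _) h0, one_mul]; exact hn j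
      push_cast
      rw [add_div] at h3 ⊢
      linarith
    simp only [h1, h2, Finset.sum_const_zero, add_zero, Nat.factorial_succ]
    push_cast
    ring

theorem PsiA.list_coeff {s : Fin (m + 1) → ℝ} (l : List (Fin m)) (Q : PR m) (t : Fin (m + 1) →₀ ℕ)
    (h : Ind s (wt s t) Q) (hl : ∀ j, l.count j = t j.succ) :
    Ind s ((t 0 : ℝ) / s 0)
      (dl (fun i : Fin (m + 1) => (pderiv i : Derivation ℂ (PR m) (PR m))) (l.map Fin.succ) Q) ∧
    coeff (Finsupp.single 0 (t 0))
      (dl (fun i : Fin (m + 1) => (pderiv i : Derivation ℂ (PR m) (PR m))) (l.map Fin.succ) Q) =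
      (∏ j : Fin m, ((t j.succ).factorial : ℂ)) * coeff t Q := by
  induction l generalizing Q t with
  | nil =>
    have ht : t = Finsupp.single 0 (t 0) := by
      ext i
      refine Fin.cases ?_ (fun j => ?_) i
      · simp
      · rw [← hl j]; simp
    simp only [List.map_nil, dl]
    refine ⟨?_, ?_⟩
    · rw [← wt_single, ← ht]; exact h
    · simp [← ht, ← hl]
  | cons j l ih =>
    obtain ⟨t', rfl⟩ : ∃ t', t = t' + Finsupp.single j.succ 1 := by
      refine ⟨t - Finsupp.single j.succ 1, (tsub_add_cancel_of_le ?_).symm⟩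
      rw [Finsupp.single_le_iff, ← hl j]
      simp
    have h1 : Ind s (wt s t') (pderiv j.succ Q) := by
      have := h.pderiv j.succ
      rwa [wt_add, wt_single, Nat.cast_one, add_sub_cancel_right] at this
    have h2 : ∀ k, l.count k = t' k.succ := by
      intro k
      have := hl k
      rw [List.count_cons, Finsupp.add_apply, Finsupp.single_apply] at this
      simp only [beq_iff_eq, Fin.succ_inj] at this
      omega
    obtain ⟨a, b⟩ := ih _ _ h1 h2
    have e0 : (t' + Finsupp.single j.succ 1 : Fin (m + 1) →₀ ℕ) 0 = t' 0 := by simp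
    simp only [List.map_cons, dl, e0]
    refine ⟨a, ?_⟩
    rw [b, coeff_pderiv, ← Finset.mul_prod_erase _ _ (Finset.mem_univ j),
      ← Finset.mul_prod_erase _ _ (Finset.mem_univ j)]
    have e1 : ∏ k ∈ Finset.univ.erase j,
        (((t' + Finsupp.single j.succ 1 : Fin (m + 1) →₀ ℕ) k.succ).factorial : ℂ) =
        ∏ k ∈ Finset.univ.erase j, ((t' k.succ).factorial : ℂ) := by
      apply Finset.prod_congr rfl
      intro k hk
      rw [Finsupp.add_apply, Finsupp.single_eq_of_ne (by simpa using Finset.ne_of_mem_erase hk), add_zero]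
    rw [e1, Finsupp.add_apply, Finsupp.single_eq_same, Nat.factorial_succ]
    push_cast
    ring


/-- the coefficient of minimal weight is a derivative at the point: `l` lists the directions
`x_j`, each `t j.succ` times. (Induction on `e`: if `Ind s (e / s 0) G` then
`constantCoeff ((dt n)^[e] G) = e ! * coeff (single 0 e) G`; and
`coeff (single 0 e) (iterated pderiv along l of Q) = (∏ j, (t j.succ)!) * coeff t Q`.) -/
theorem min_weight {s : Fin (m + 1) → ℝ} (hs : ∀ i, 0 < s i) {n : Fin m → ℕ}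
    (hn : ∀ j : Fin m, s 0 < ((n j : ℝ) + 1) * s j.succ) (g : Fin m → ℂ) (P : PR m)
    (t : Fin (m + 1) →₀ ℕ) (h : Ind s (wt s t) (psi g n P)) (l : List (Fin m))
    (hl : ∀ j, l.count j = t j.succ) :
    eval (pt g) ((dv m 0)^[t 0] (dl (dv m) (l.map Fin.succ) P)) =
      (∏ i, ((t i).factorial : ℂ)) * coeff t (psi g n P) := by
  obtain ⟨a, b⟩ := PsiA.list_coeff l _ t h hl
  rw [← constantCoeff_psi g n, PsiA.psi_iter, PsiA.psi_dl, PsiA.iter_coeff hs hn _ _ a, b,
    Fin.prod_univ_succ, mul_assoc]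

end Crest.Agent.R11Z
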